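import Mathlib

/-!
# The scalar recursion `rho` and its alternating polynomial bounds

`rho b g = 1 - (1 - g/b)^b` for `b ≠ 0`; `b = 0` stands for `b = ∞`, i.e. `1 - exp (-g)`.
-/

set_option autoImplicit false

namespace Crest.Agent.R163

noncomputable def rho (b : ℕ) (g : ℝ) : ℝ :=
  if b = 0 then 1 - Real.exp (-g) else 1 - (1 - g / b) ^ b

/-- the order on `ℕ` in which `0` is the top element -/
def ble (b b' : ℕ) : Prop := b' = 0 ∨ (b ≠ 0 ∧ b ≤ b')

/-- Taylor coefficients of `rho b` (absolute values) -/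
noncomputable def cf (b j : ℕ) : ℝ :=
  if b = 0 then 1 / (Nat.factorial j : ℝ) else (Nat.choose b j : ℝ) / (b : ℝ) ^ j

/-- Taylor polynomial of degree `n` of `rho b` -/
noncomputable def Pb (b n : ℕ) (g : ℝ) : ℝ :=
  ∑ j ∈ Finset.range n, (-1) ^ j * cf b (j + 1) * g ^ (j + 1)

/-- integer numerators of `cf b j`, `j ≤ n`, over the common denominator `cd b n` -/
def cn (b n j : ℕ) : ℕ :=
  if b = 0 then n.descFactorial (n - j) else (b.descFactorial j / j.factorial) * b ^ (n - j)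

def cd (b n : ℕ) : ℕ := if b = 0 then n.factorial else b ^ n

theorem cd_pos (b n : ℕ) : 0 < cd b n := by
  unfold cd
  split_ifs with h
  exacts [n.factorial_pos, pow_pos (Nat.pos_of_ne_zero h) n]

/-- `Nat.factorial_mul_descFactorial`, `Nat.choose_eq_descFactorial_div_factorial`. -/
theorem cn_eq (b : ℕ) {n j : ℕ} (h : j ≤ n) : (cn b n j : ℝ) = cd b n * cf b j := by
  unfold cn cd cf
  split_ifs with hb
  · have := Nat.factorial_mul_descFactorial (Nat.sub_le n j)
    rw [Nat.sub_sub_self h] at this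
    rw [← this]
    push_cast
    field_simp
  · obtain ⟨k, rfl⟩ := Nat.exists_eq_add_of_le h
    rw [← Nat.choose_eq_descFactorial_div_factorial, Nat.add_sub_cancel_left]
    push_cast
    field_simp
    ring

/-- Bonferroni: with `T b n x = ∑_{j ≤ n} (-1)^j C(b,j) x^j` one has
`T (b+1) (n+1) x = T b (n+1) x - x * T b n x` (Pascal) and `(1-x)^(b+1) = (1-x)^b - x (1-x)^b`;
induction on `b`, for all `n` and both parities at once. -/
theorem bonf (b : ℕ) {x : ℝ} (h0 : 0 ≤ x) (h1 : x ≤ 1) (n : ℕ) :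
    0 ≤ (-1 : ℝ) ^ n * (∑ j ∈ Finset.range (n + 1), (-1) ^ j * (Nat.choose b j : ℝ) * x ^ j
      - (1 - x) ^ b) := by
  induction b generalizing n with
  | zero => simp [Finset.sum_range_succ']
  | succ b ih =>
    rcases n with _ | n
    · simpa using pow_le_one₀ (sub_nonneg.2 h1) (by linarith)
    · have e : ∑ j ∈ Finset.range (n + 1 + 1), (-1) ^ j * (Nat.choose (b + 1) j : ℝ) * x ^ j =
          ∑ j ∈ Finset.range (n + 1 + 1), (-1) ^ j * (Nat.choose b j : ℝ) * x ^ j -
          x * ∑ j ∈ Finset.range (n + 1), (-1) ^ j * (Nat.choose b j : ℝ) * x ^ j := by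
        rw [Finset.sum_range_succ' _ (n + 1), Finset.sum_range_succ' _ (n + 1), Finset.mul_sum,
          add_sub_right_comm, ← Finset.sum_sub_distrib]
        simp only [Nat.choose_zero_right, Nat.choose_succ_succ, add_left_inj]
        exact Finset.sum_congr rfl fun j _ => by push_cast; ring
      rw [e]
      exact (add_nonneg (ih (n + 1)) (mul_nonneg h0 (ih n))).trans_eq (by ring)

/-- alternating Taylor bounds for `exp (-g)`: induction on `n`; the derivative of the `n+1`-st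
difference is minus the `n`-th one (`monotoneOn_of_deriv_nonneg`). -/
theorem exp_alt (n : ℕ) {g : ℝ} (h0 : 0 ≤ g) :
    0 ≤ (-1 : ℝ) ^ n * (∑ j ∈ Finset.range (n + 1), (-1) ^ j * g ^ j / (Nat.factorial j : ℝ)
      - Real.exp (-g)) := by
  induction n generalizing g with
  | zero => simpa using h0
  | succ n ih =>
    have hd : ∀ g : ℝ, HasDerivAt (fun g : ℝ => (-1 : ℝ) ^ (n + 1) *
        (∑ j ∈ Finset.range (n + 1 + 1), (-1) ^ j * g ^ j / (Nat.factorial j : ℝ) - Real.exp (-g)))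
        ((-1 : ℝ) ^ n * (∑ j ∈ Finset.range (n + 1), (-1) ^ j * g ^ j / (Nat.factorial j : ℝ)
          - Real.exp (-g))) g := fun g => by
      simp only [Finset.sum_range_succ' _ (n + 1), pow_zero]
      refine ((((HasDerivAt.fun_sum fun j _ => ((hasDerivAt_pow (j + 1) g).const_mul
        ((-1 : ℝ) ^ (j + 1))).div_const (Nat.factorial (j + 1) : ℝ)).add_const _).sub
        (hasDerivAt_neg g).exp).const_mul ((-1 : ℝ) ^ (n + 1))).congr_deriv ?_
      rw [Finset.sum_congr rfl (g := fun j => -((-1) ^ j * g ^ j / (Nat.factorial j : ℝ)))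
        fun j _ => by rw [Nat.factorial_succ]; push_cast; field_simp; ring, Finset.sum_neg_distrib]
      ring
    refine le_of_eq_of_le ?_ (monotoneOn_of_deriv_nonneg (convex_Ici 0)
      (fun g _ => (hd g).continuousAt.continuousWithinAt)
      (fun g _ => (hd g).differentiableAt.differentiableWithinAt)
      (fun g hg => (hd g).deriv ▸ ih (interior_subset hg)) Set.self_mem_Ici h0 h0)
    simp [Finset.sum_range_succ']

/-- `(1 - g/b)^b` increases with `b ≥ g` (AM-GM or Bernoulli) and is at most `exp (-g)`. -/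
theorem rho_anti {b b' : ℕ} (h : ble b b') {g : ℝ} (h0 : 0 ≤ g) (h1 : b ≠ 0 → g ≤ b) :
    rho b' g ≤ rho b g := by
  unfold rho
  rcases h with rfl | ⟨hb, h⟩
  · rw [if_pos rfl]
    split_ifs with hb
    · exact le_rfl
    · linarith [Real.one_sub_div_pow_le_exp_neg (h1 hb)]
  have h2 : (0 : ℝ) < b := Nat.cast_pos.2 (Nat.pos_of_ne_zero hb)
  have h3 : (b : ℝ) ≤ b' := Nat.cast_le.2 h
  have h4 : (0 : ℝ) < b' := h2.trans_le h3
  have h5 : 0 ≤ 1 - g / b := sub_nonneg.2 ((div_le_one h2).2 (h1 hb))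
  have h6 := Real.geom_mean_le_arith_mean2_weighted (show 0 ≤ (b : ℝ) / b' by positivity)
    (sub_nonneg.2 ((div_le_one h4).2 h3)) h5 zero_le_one (add_sub_cancel _ _)
  rw [Real.one_rpow, mul_one, show (b : ℝ) / b' * (1 - g / b) + (1 - b / b') * 1 = 1 - g / b' by
    field_simp; ring] at h6
  have h7 := pow_le_pow_left₀ (Real.rpow_nonneg h5 _) h6 b'
  rw [← Real.rpow_mul_natCast h5, div_mul_cancel₀ _ h4.ne', Real.rpow_natCast] at h7
  rw [if_neg hb, if_neg (by omega)]
  linarith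

theorem Rho_alt (b n : ℕ) {g : ℝ} (h0 : 0 ≤ g) (h1 : b ≠ 0 → g ≤ b) :
    0 ≤ (-1 : ℝ) ^ n * (rho b g - Pb b n g) := by
  unfold rho Pb cf
  split_ifs with hb
  · convert exp_alt n h0 using 2
    rw [Finset.sum_range_succ', Finset.sum_congr rfl
      (g := fun j => -((-1) ^ (j + 1) * g ^ (j + 1) / (Nat.factorial (j + 1) : ℝ)))
      fun j _ => by ring, Finset.sum_neg_distrib]
    simp only [pow_zero, Nat.factorial_zero]
    ring
  · have h2 : (0 : ℝ) < b := Nat.cast_pos.2 (Nat.pos_of_ne_zero hb)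
    convert bonf b (div_nonneg h0 h2.le) ((div_le_one h2).2 (h1 hb)) n using 2
    rw [Finset.sum_range_succ', Finset.sum_congr rfl
      (g := fun j => -((-1) ^ (j + 1) * (Nat.choose b (j + 1) : ℝ) * (g / b) ^ (j + 1)))
      fun j _ => by ring, Finset.sum_neg_distrib]
    simp only [pow_zero, Nat.choose_zero_right]
    ring

theorem rho_le_Pb {bhi b : ℕ} (h : ble bhi b) (h4 : bhi = 0 ∨ 4 ≤ bhi) {g : ℝ} (h0 : 0 ≤ g)
    (h1 : g ≤ 4) (J : ℕ) : rho b g ≤ Pb bhi (2 * J + 1) g := by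
  have h2 : bhi ≠ 0 → g ≤ bhi := fun hb => h1.trans (by exact_mod_cast h4.resolve_left hb)
  have h3 := Rho_alt bhi (2 * J + 1) h0 h2
  rw [pow_succ, pow_mul] at h3
  have := rho_anti h h0 h2
  norm_num at h3
  linarith

theorem Pb_le_rho {b blo : ℕ} (h : ble b blo) {g : ℝ} (h0 : 0 ≤ g) (h1 : b ≠ 0 → g ≤ b)
    (J : ℕ) : Pb blo (2 * J) g ≤ rho b g := by
  have h3 := Rho_alt blo (2 * J) h0 fun hb =>
    (h1 (h.resolve_left hb).1).trans (Nat.cast_le.2 (h.resolve_left hb).2)
  rw [pow_mul] at h3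
  have := rho_anti h h0 h1
  norm_num at h3
  linarith

end Crest.Agent.R163
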