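import Crest.Agent.R163.ExD

/-!
# Hellinger-type functionals for three spins

`Zf m α p` is the average over permutations of `∏ p (σ i) ^ (α i / m)` with `∑ α i = m`.
Its expectation is multiplicative over independent experiments.
-/

set_option autoImplicit false

namespace Crest.Agent.R163

open Crest.ProbabilityR.Broadcast

/-- numerators of the three exponents -/
abbrev Al := ℕ × ℕ × ℕ

def Al.v (α : Al) : Fin 3 → ℕ := ![α.1, α.2.1, α.2.2]

def Al.ok (m : ℕ) (α : Al) : Prop := 0 < m ∧ α.1 + α.2.1 + α.2.2 = m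

noncomputable def Zf (m : ℕ) (α : Al) (p : Fin 3 → ℝ) : ℝ :=
  (∑ σ : Equiv.Perm (Fin 3), ∏ i, p (σ i) ^ ((α.v i : ℝ) / m)) / 6

variable {Ω Ω' : Type*} {m : ℕ} {α : Al}

theorem Zf_six (F : Fin 3 → Fin 3 → Fin 3 → ℝ) :
    ∑ σ : Equiv.Perm (Fin 3), F (σ 0) (σ 1) (σ 2) =
      F 0 1 2 + F 0 2 1 + F 1 0 2 + F 1 2 0 + F 2 0 1 + F 2 1 0 := by
  have h : (Finset.univ : Finset (Equiv.Perm (Fin 3))) =
      {1, Equiv.swap 1 2, Equiv.swap 0 1, Equiv.swap 0 1 * Equiv.swap 1 2,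
        Equiv.swap 1 2 * Equiv.swap 0 1, Equiv.swap 0 2} := by decide
  rw [h, Finset.sum_insert (by decide), Finset.sum_insert (by decide), Finset.sum_insert (by decide),
    Finset.sum_insert (by decide), Finset.sum_insert (by decide), Finset.sum_singleton]
  change F 0 1 2 + (F 0 2 1 + (F 1 0 2 + (F 1 2 0 + (F 2 0 1 + F 2 1 0)))) = _
  ring

theorem Zf_w_nonneg (m : ℕ) (α : Al) (i : Fin 3) : 0 ≤ (α.v i : ℝ) / m := by positivity

theorem Zf_w_sum (h : α.ok m) : ∑ i, (α.v i : ℝ) / m = 1 := by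
  have hm : (m : ℝ) ≠ 0 := Nat.cast_ne_zero.2 h.1.ne'
  rw [← Finset.sum_div, div_eq_one_iff_eq hm, Fin.sum_univ_three, ← h.2]
  push_cast
  rfl

theorem Zf_avg (h : α.ok m) (f : Fin 3 → ℝ) :
    ∑ σ : Equiv.Perm (Fin 3), ∑ i, (α.v i : ℝ) / m * f (σ i) = 2 * ∑ i, f i := by
  have h1 := Zf_w_sum h
  simp only [Fin.sum_univ_three] at h1 ⊢
  rw [Zf_six fun a b c => (α.v 0 : ℝ) / m * f a + (α.v 1 : ℝ) / m * f b + (α.v 2 : ℝ) / m * f c]
  linear_combination 2 * (f 0 + f 1 + f 2) * h1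

theorem Zf_G_smul {w : Fin 3 → ℝ} (hw : ∀ i, 0 ≤ w i) (h1 : ∑ i, w i = 1) {c : ℝ} (hc : 0 ≤ c)
    {u : Fin 3 → ℝ} (hu : ∀ i, 0 ≤ u i) : ∏ i, (c * u i) ^ w i = c * ∏ i, u i ^ w i := by
  rw [Finset.prod_congr rfl fun i _ => Real.mul_rpow hc (hu i), Finset.prod_mul_distrib,
    ← Real.rpow_sum_of_nonneg hc fun i _ => hw i, h1, Real.rpow_one]

theorem Zf_G_le {w : Fin 3 → ℝ} (hw : ∀ i, 0 ≤ w i) (h1 : ∑ i, w i = 1) {u z : Fin 3 → ℝ}
    (hu : ∀ i, 0 ≤ u i) (hz : ∀ i, 0 ≤ z i) (hz' : ∀ i, w i ≠ 0 → z i ≠ 0) :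
    ∏ i, u i ^ w i ≤ (∏ i, z i ^ w i) * ∑ i, w i * (u i / z i) := by
  have e : ∏ i, u i ^ w i = (∏ i, z i ^ w i) * ∏ i, (u i / z i) ^ w i := by
    rw [← Finset.prod_mul_distrib]
    refine Finset.prod_congr rfl fun i _ => ?_
    by_cases h : w i = 0
    · simp [h]
    · rw [← Real.mul_rpow (hz i) (div_nonneg (hu i) (hz i)), mul_div_cancel₀ _ (hz' i h)]
  rw [e]
  exact mul_le_mul_of_nonneg_left (Real.geom_mean_le_arith_mean_weighted _ w _ (fun i _ => hw i) h1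
    fun i _ => div_nonneg (hu i) (hz i)) (Finset.prod_nonneg fun i _ => Real.rpow_nonneg (hz i) _)

theorem Zf_G_add {w : Fin 3 → ℝ} (hw : ∀ i, 0 ≤ w i) (h1 : ∑ i, w i = 1) {u v : Fin 3 → ℝ}
    (hu : ∀ i, 0 ≤ u i) (hv : ∀ i, 0 ≤ v i) :
    ∏ i, u i ^ w i + ∏ i, v i ^ w i ≤ ∏ i, (u i + v i) ^ w i := by
  have hz : ∀ i, 0 ≤ u i + v i := fun i => add_nonneg (hu i) (hv i)
  have h0 : 0 ≤ ∏ i, (u i + v i) ^ w i := Finset.prod_nonneg fun i _ => Real.rpow_nonneg (hz i) _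
  by_cases h : ∀ i, w i ≠ 0 → u i + v i ≠ 0
  · have a := Zf_G_le hw h1 hu hz h
    have b := Zf_G_le hw h1 hv hz h
    have c : ∑ i, w i * (u i / (u i + v i)) + ∑ i, w i * (v i / (u i + v i)) ≤ 1 := by
      rw [← Finset.sum_add_distrib, ← h1]
      refine Finset.sum_le_sum fun i _ => ?_
      rw [← mul_add, ← add_div]
      exact mul_le_of_le_one_right (hw i) (div_self_le_one _)
    have d := mul_le_mul_of_nonneg_left c h0
    linarith
  · push Not at h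
    obtain ⟨i, hi, hi'⟩ := h
    have a : u i = 0 := by linarith [hu i, hv i]
    have b : v i = 0 := by linarith [hu i, hv i]
    rw [Finset.prod_eq_zero (f := fun i => u i ^ w i) (Finset.mem_univ i) (by
        rw [a, Real.zero_rpow hi]),
      Finset.prod_eq_zero (f := fun i => v i ^ w i) (Finset.mem_univ i) (by
        rw [b, Real.zero_rpow hi]), add_zero]
    exact h0

theorem Zf_exp_le {x : ℝ} (hx : -(1 / 2) ≤ x) : Real.exp (x - x ^ 2) ≤ 1 + x := by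
  have h0 : 0 ≤ 1 + x := by linarith
  have h1 : 1 ≤ (1 + x) * Real.exp (x ^ 2 - x) := by
    rcases le_total 0 x with h | h
    · refine le_trans ?_ (mul_le_mul_of_nonneg_left (Real.add_one_le_exp _) h0)
      linarith [pow_nonneg h 3]
    · refine le_trans ?_ (mul_le_mul_of_nonneg_left
        (Real.quadratic_le_exp_of_nonneg (by linarith [sq_nonneg x])) h0)
      have h2 : x ^ 2 ≤ 1 / 4 := by nlinarith
      have h3 : -(1 / 8) ≤ x ^ 3 := by nlinarith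
      have h4 := mul_nonneg (sq_nonneg x) (by linarith : 0 ≤ 1 + x - x ^ 2 + x ^ 3)
      linarith
  have h2 := mul_le_mul_of_nonneg_right h1 (Real.exp_pos (x - x ^ 2)).le
  rwa [one_mul, mul_assoc, ← Real.exp_add, show x ^ 2 - x + (x - x ^ 2) = 0 by ring, Real.exp_zero,
    mul_one] at h2

/-- The six permutations written out (e.g. `Finset.univ_perm_fin_succ`, or
`Finset.sum` over the explicit `decide`-checked list of the six permutations). -/
theorem Zf_eq (m : ℕ) (α : Al) (p : Fin 3 → ℝ) :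
    Zf m α p =
      (p 0 ^ ((α.1 : ℝ) / m) * (p 1 ^ ((α.2.1 : ℝ) / m) * p 2 ^ ((α.2.2 : ℝ) / m)
          + p 2 ^ ((α.2.1 : ℝ) / m) * p 1 ^ ((α.2.2 : ℝ) / m))
        + p 1 ^ ((α.1 : ℝ) / m) * (p 0 ^ ((α.2.1 : ℝ) / m) * p 2 ^ ((α.2.2 : ℝ) / m)
          + p 2 ^ ((α.2.1 : ℝ) / m) * p 0 ^ ((α.2.2 : ℝ) / m))
        + p 2 ^ ((α.1 : ℝ) / m) * (p 0 ^ ((α.2.1 : ℝ) / m) * p 1 ^ ((α.2.2 : ℝ) / m)
          + p 1 ^ ((α.2.1 : ℝ) / m) * p 0 ^ ((α.2.2 : ℝ) / m))) / 6 := by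
  unfold Zf
  simp only [Fin.prod_univ_three]
  rw [Zf_six fun a b c => p a ^ ((α.v 0 : ℝ) / m) * p b ^ ((α.v 1 : ℝ) / m) * p c ^ ((α.v 2 : ℝ) / m),
    show α.v 0 = α.1 from rfl, show α.v 1 = α.2.1 from rfl, show α.v 2 = α.2.2 from rfl]
  ring

/-- reindex `τ ↦ σ * τ`. -/
theorem Zf_perm (m : ℕ) (α : Al) (p : Fin 3 → ℝ) (σ : Equiv.Perm (Fin 3)) :
    Zf m α (fun i => p (σ i)) = Zf m α p := by
  unfold Zf
  rw [← Equiv.sum_comp (Equiv.mulLeft σ)
    fun τ : Equiv.Perm (Fin 3) => ∏ i, p (τ i) ^ ((α.v i : ℝ) / m)]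
  rfl

/-- `Real.continuous_rpow_const` (the exponents are nonnegative). -/
theorem continuous_Zf (m : ℕ) (α : Al) : Continuous (Zf m α) := by
  unfold Zf
  exact (continuous_finsetSum _ fun σ _ => continuous_finsetProd _ fun i _ =>
    (Real.continuous_rpow_const (Zf_w_nonneg m α i)).comp (continuous_apply (σ i))).div_const _

theorem Bd.Zf (m : ℕ) (α : Al) : Bd (Zf m α) := Bd.of_continuous (continuous_Zf m α)

theorem Zf_nonneg (m : ℕ) (α : Al) {p : Fin 3 → ℝ} (hp : ∀ i, 0 ≤ p i) : 0 ≤ Zf m α p := by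
  exact div_nonneg (Finset.sum_nonneg fun σ _ => Finset.prod_nonneg fun i _ =>
    Real.rpow_nonneg (hp _) _) (by norm_num)

/-- weighted AM-GM (`Real.inner_le_nnorm_mul_nnorm` is not needed:
`Real.geom_mean_le_arith_mean_weighted`), then sum over the permutations (`sum_perm_apply`). -/
theorem Zf_le_one (h : α.ok m) {p : Fin 3 → ℝ} (hp : p ∈ Spx 3) : Zf m α p ≤ 1 := by
  have h1 : ∑ σ : Equiv.Perm (Fin 3), ∏ i, p (σ i) ^ ((α.v i : ℝ) / m) ≤
      ∑ σ : Equiv.Perm (Fin 3), ∑ i, (α.v i : ℝ) / m * p (σ i) :=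
    Finset.sum_le_sum fun σ _ => Real.geom_mean_le_arith_mean_weighted _ _ _
      (fun i _ => Zf_w_nonneg m α i) (Zf_w_sum h) fun i _ => hp.1 _
  rw [Zf_avg h, hp.2] at h1
  unfold Zf
  push_cast at h1
  linarith

theorem Zf_one (m : ℕ) (α : Al) : Zf m α (fun _ => 1) = 1 := by
  rw [Zf_eq]
  simp only [Real.one_rpow]
  norm_num

/-- `Zf` is homogeneous of degree one on the cone (`Real.mul_rpow`, `Real.rpow_add'`; for
`c = 0` some exponent is positive). -/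
theorem Zf_smul (h : α.ok m) {c : ℝ} (hc : 0 ≤ c) {u : Fin 3 → ℝ} (hu : ∀ i, 0 ≤ u i) :
    Zf m α (fun i => c * u i) = c * Zf m α u := by
  unfold Zf
  rw [← mul_div_assoc, Finset.mul_sum]
  congr 1
  exact Finset.sum_congr rfl fun σ _ =>
    Zf_G_smul (Zf_w_nonneg m α) (Zf_w_sum h) hc fun i => hu (σ i)

theorem hat_Zf (h : α.ok m) {u : Fin 3 → ℝ} (hu : ∀ i, 0 ≤ u i) :
    hat (Zf m α) u = Zf m α u := by
  unfold hat
  rw [← Zf_smul h (av_nonneg hu) fun i => div_nonneg (hu i) (av_nonneg hu)]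
  simp only [ExB_mul_div hu]

/-- The weighted geometric mean `G` is superadditive on the cone: let `w = u + v`; if `w i = 0`
for some `i` with positive exponent all three values vanish; otherwise
`G u = G w * ∏ (u i / w i) ^ a i ≤ G w * ∑ a i * (u i / w i)` (factors with exponent zero are
`1`), likewise for `v`, and add.  With homogeneity this is concavity. -/
theorem concaveOn_Zf (h : α.ok m) : ConcaveOn ℝ (Spx 3) (Zf m α) := by
  refine ⟨fun u hu v hv a b ha hb hab => ⟨fun i => add_nonneg (mul_nonneg ha (hu.1 i))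
    (mul_nonneg hb (hv.1 i)), ?_⟩, fun u hu v hv a b ha hb _ => ?_⟩
  · simp only [Pi.add_apply, Pi.smul_apply, smul_eq_mul, Finset.sum_add_distrib, ← Finset.mul_sum,
      hu.2, hv.2]
    rw [← add_mul, hab, one_mul]
  · rw [smul_eq_mul, smul_eq_mul, ← Zf_smul h ha hu.1, ← Zf_smul h hb hv.1]
    unfold Zf
    rw [← add_div, ← Finset.sum_add_distrib]
    refine div_le_div_of_nonneg_right (Finset.sum_le_sum fun σ _ => ?_) (by norm_num)
    exact Zf_G_add (Zf_w_nonneg m α) (Zf_w_sum h) (fun i => mul_nonneg ha (hu.1 (σ i)))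
      fun i => mul_nonneg hb (hv.1 (σ i))

/-- as `sum_Nm_mul`: for fixed `σ` reindex `τ ↦ τ * σ`; `Real.mul_rpow`. -/
theorem sum_Zf_mul (m : ℕ) (α : Al) {p p' : Fin 3 → ℝ} (hp : ∀ i, 0 ≤ p i)
    (hp' : ∀ i, 0 ≤ p' i) :
    ∑ τ : Equiv.Perm (Fin 3), Zf m α (fun i => p i * p' (τ i)) = 6 * (Zf m α p * Zf m α p') := by
  unfold Zf
  have e : ∑ τ : Equiv.Perm (Fin 3), ∑ σ : Equiv.Perm (Fin 3),
      ∏ i, (p (σ i) * p' (τ (σ i))) ^ ((α.v i : ℝ) / m) =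
      (∑ σ : Equiv.Perm (Fin 3), ∏ i, p (σ i) ^ ((α.v i : ℝ) / m)) *
        ∑ σ : Equiv.Perm (Fin 3), ∏ i, p' (σ i) ^ ((α.v i : ℝ) / m) := by
    rw [Finset.sum_comm, Finset.sum_mul]
    refine Finset.sum_congr rfl fun σ _ => ?_
    rw [Finset.mul_sum, ← Equiv.sum_comp (Equiv.mulRight σ) fun τ : Equiv.Perm (Fin 3) =>
      (∏ i, p (σ i) ^ ((α.v i : ℝ) / m)) * ∏ i, p' (τ i) ^ ((α.v i : ℝ) / m)]
    refine Finset.sum_congr rfl fun τ _ => ?_
    rw [← Finset.prod_mul_distrib]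
    exact Finset.prod_congr rfl fun i _ => Real.mul_rpow (hp _) (hp' _)
  rw [← Finset.sum_div, e]
  ring

/-- `pair_le` and `pair_ge` with `ι = Unit`. -/
theorem E_pr_Zf (h : α.ok m) {L : Ω → Fin 3 → ℝ} {L' : Ω' → Fin 3 → ℝ} (hL : Ex L)
    (hL' : Ex L') : E (pr L L') (Zf m α) = E L (Zf m α) * E L' (Zf m α) := by
  have H : ∀ p ∈ Spx 3, ∀ p' ∈ Spx 3,
      ∑ σ : Equiv.Perm (Fin 3), hat (Zf m α) (fun i => p i * p' (σ i)) =
        (Nat.factorial 3 : ℝ) * ∑ _k : Unit, Zf m α p * Zf m α p' := by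
    intro p hp p' hp'
    rw [Finset.sum_congr rfl fun σ _ => hat_Zf h fun i => mul_nonneg (hp.1 i) (hp'.1 (σ i)),
      sum_Zf_mul m α hp.1 hp'.1, Fintype.sum_unique]
    norm_num [Nat.factorial]
  have h1 := pair_le hL hL' (Bd.Zf m α) (fun _ : Unit => Zf m α) (fun _ => Zf m α)
    (fun _ => Bd.Zf m α) (fun _ => Bd.Zf m α) fun p hp p' hp' => (H p hp p' hp').le
  have h2 := pair_ge hL hL' (Bd.Zf m α) (fun _ : Unit => Zf m α) (fun _ => Zf m α)
    (fun _ => Bd.Zf m α) (fun _ => Bd.Zf m α) fun p hp p' hp' => (H p hp p' hp').ge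
  rw [Fintype.sum_unique] at h1 h2
  exact le_antisymm h1 h2

theorem E_pw_Zf (h : α.ok m) {L : Ω → Fin 3 → ℝ} (hL : Ex L) (c : ℕ) :
    E (pw c L) (Zf m α) = E L (Zf m α) ^ c := by
  induction c with
  | zero =>
    obtain ⟨e, he⟩ := pw_zero L
    rw [he, E_equiv, E_triv, Zf_one, pow_zero]
  | succ c ih =>
    obtain ⟨e, he⟩ := pw_succ c L
    rw [he, E_equiv, E_pr_Zf h hL (hL.pw c), ih, pow_succ']

/-- `hasSum_mixL` and the exponential series. -/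
theorem E_mix_Zf (h : α.ok m) {L : Ω → Fin 3 → ℝ} (hL : Ex L) {d : ℝ} (hd : 0 ≤ d) :
    E (mixL (pois d) L) (Zf m α) = Real.exp (-(d * (1 - E L (Zf m α)))) := by
  have h1 := hasSum_mixL (pois_nonneg hd) (hasSum_pois d) hL (Bd.Zf m α)
  have h2 := (NormedSpace.expSeries_div_hasSum_exp (d * E L (Zf m α))).mul_left (Real.exp (-d))
  rw [← Real.exp_eq_exp_ℝ, ← Real.exp_add] at h2
  have e : (fun c => pois d c * E (pw c L) (Zf m α)) =
      fun c : ℕ => Real.exp (-d) * ((d * E L (Zf m α)) ^ c / (c.factorial : ℝ)) := by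
    funext c
    rw [E_pw_Zf h hL, pois, mul_pow]
    ring
  rw [e] at h1
  rw [h1.unique h2]
  congr 1
  ring

/-- With `x i = ch (-μ) p i - 1 = -μ (p i - 1) ≥ -1/2`:
`∏ (1 + x i) ^ a i = exp (∑ a i log (1 + x i)) ≥ 1 + ∑ a i (x i - x i ^ 2)` because
`log (1 + x) ≥ x - x^2` for `x ≥ -1/2` (e.g. from `1 - 1/y ≤ log y` applied to `y = sqrt`, or
`Real.log` monotonicity: `exp (x - x^2) ≤ 1 + x`; or `log (1+x) ≥ x/(1+x)` is enough for `x ≥ 0`
and `Real.neg_log_one_sub...`/the derivative test for `x < 0`).  Averaging over the permutations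
gives `1 - (∑ x i ^ 2) / 3 = 1 - μ^2 chi p`. -/
theorem one_sub_Zf_ch_le (h : α.ok m) {mu : ℝ} (h0 : 0 ≤ mu) (h1 : mu ≤ 1 / 4)
    {p : Fin 3 → ℝ} (hp : p ∈ Spx 3) : 1 - Zf m α (ch (-mu) p) ≤ mu ^ 2 * chi p := by
  set x : Fin 3 → ℝ := fun i => -mu * (p i - 1) with hx
  have e1 : ∀ i, ch (-mu) p i = 1 + x i := fun i => by
    have := ch_sub_one (-mu) hp i
    simp only [hx]
    linarith
  have e2 : ∀ i, -(1 / 2) ≤ x i := fun i => by
    have h3 : p i ≤ 3 := by exact_mod_cast le_of_mem hp i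
    have h4 := mul_le_mul_of_nonneg_left (by linarith : p i - 1 ≤ 2) h0
    simp only [hx]
    linarith
  have e3 : ∑ σ : Equiv.Perm (Fin 3), (∑ i, (α.v i : ℝ) / m * (x (σ i) - x (σ i) ^ 2) + 1) ≤
      ∑ σ : Equiv.Perm (Fin 3), ∏ i, ch (-mu) p (σ i) ^ ((α.v i : ℝ) / m) := by
    refine Finset.sum_le_sum fun σ _ => (Real.add_one_le_exp _).trans ?_
    rw [Real.exp_sum]
    refine Finset.prod_le_prod (fun i _ => (Real.exp_pos _).le) fun i _ => ?_
    rw [mul_comm, Real.exp_mul, e1]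
    exact Real.rpow_le_rpow (Real.exp_pos _).le (Zf_exp_le (e2 _)) (Zf_w_nonneg m α i)
  rw [Finset.sum_add_distrib, Zf_avg h fun i => x i - x i ^ 2, Finset.sum_const, Finset.card_univ,
    Fintype.card_perm, Fintype.card_fin] at e3
  have e4 := hp.2
  unfold Zf chi
  simp only [Fin.sum_univ_three, hx, Nat.factorial, nsmul_eq_mul] at e3 e4 ⊢
  push_cast at e3 e4 ⊢
  have e5 : mu * (p 0 + p 1 + p 2) = mu * 3 := by rw [e4]
  linarith

theorem channel_nonneg_anti {mu : ℝ} (h0 : 0 ≤ mu) (h1 : mu ≤ 1 / 2) (i j : Fin 3) :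
    0 ≤ channel 3 (-mu) i j := by
  unfold channel
  push_cast
  split_ifs <;> linarith

end Crest.Agent.R163
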