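import Crest.Agent.R163.Q3.Dg
import Crest.Agent.R163.Q3.Zf
import Crest.Agent.R163.Q3.Rho

/-!
# The limiting moments of the antiferromagnetic three-state model

By degradation the expectations of `chi` and of `1 - Zf` (before and after the channel) are
monotone in the depth; their limits satisfy the scalar recursion `rho` and every pointwise linear
inequality.
-/

set_option autoImplicit false

namespace Crest.Agent.R163

open Crest.ProbabilityR.Broadcast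

/-- limit of chi-square, regular tree, `lam = -mu` -/
noncomputable def Xr (b : ℕ) (mu : ℝ) : ℝ := ⨅ l, E (regL 3 b (-mu) l) chi

/-- limit of chi-square, Poisson tree, `lam = -mu` -/
noncomputable def Xg (d mu : ℝ) : ℝ := ⨅ l, E (gwL 3 (-mu) d l) chi

structure St where
  mu : ℝ
  D : ℝ
  X : ℝ
  b : ℕ
  g : Al → ℝ

/-- the pointwise left-hand side of a certificate -/
noncomputable def ptF (m : ℕ) (mu D X : ℝ) (ts : List (Al × ℝ × ℝ)) (nu ka : ℝ)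
    (p : Fin 3 → ℝ) : ℝ :=
  (ts.map fun t => t.2.1 * (D * (1 - Zf m t.1 (ch (-mu) p))) - t.2.2 * (1 - Zf m t.1 p)).sum
    + nu * chi p + ka * (2 * X * chi p - X ^ 2)

structure FP (m : ℕ) (s : St) : Prop where
  X_pos : 0 < s.X
  X_le : s.X ≤ 2
  g_nonneg : ∀ α : Al, α.ok m → 0 ≤ s.g α
  g_le : ∀ α : Al, α.ok m → s.g α ≤ 32
  g_le_b : ∀ α : Al, α.ok m → s.b ≠ 0 → s.g α ≤ s.b
  ineq : ∀ (ts : List (Al × ℝ × ℝ)) (nu ka z : ℝ), (∀ t ∈ ts, t.1.ok m) →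
    (∀ p ∈ Spx 3, ptF m s.mu s.D s.X ts nu ka p ≤ z) →
    (ts.map fun t => t.2.1 * s.g t.1 - t.2.2 * rho s.b (s.g t.1)).sum
      + nu * s.X + ka * s.X ^ 2 ≤ z

open Filter Topology

theorem FP_list {Ω T : Type*} {L : Ω → Fin 3 → ℝ} (hL : Ex L) (f : T → (Fin 3 → ℝ) → ℝ)
    (hf : ∀ t, Bd (f t)) (ts : List T) : Bd (fun p => (ts.map fun t => f t p).sum) ∧
      E L (fun p => (ts.map fun t => f t p).sum) = (ts.map fun t => E L (f t)).sum := by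
  induction ts with
  | nil => exact ⟨Bd.const 0, E_const hL 0⟩
  | cons t ts ih =>
    simp only [List.map_cons, List.sum_cons]
    exact ⟨(hf t).add ih.1, by rw [E_add hL (hf t) ih.1, ih.2]⟩

theorem FP_bdd {Ωn : ℕ → Type*} {L : ∀ n, Ωn n → Fin 3 → ℝ} (hL : ∀ n, Ex (L n)) :
    BddBelow (Set.range fun n => E (L n) chi) :=
  ⟨0, Set.forall_mem_range.2 fun n => E_chi_nonneg (hL n)⟩

theorem FP_le {Ωn : ℕ → Type*} {L : ∀ n, Ωn n → Fin 3 → ℝ} (hL : ∀ n, Ex (L n)) :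
    ⨅ n, E (L n) chi ≤ 2 :=
  (ciInf_le (FP_bdd hL) 0).trans ((E_chi_le (hL 0)).trans_eq (by norm_num))

theorem FP_tendsto {Ωn : ℕ → Type*} {L : ∀ n, Ωn n → Fin 3 → ℝ} (hL : ∀ n, Ex (L n))
    (hstep : ∀ n, Dg (L n) (L (n + 1))) :
    Tendsto (fun n => E (L n) chi) atTop (𝓝 (⨅ n, E (L n) chi)) :=
  tendsto_atTop_ciInf (antitone_nat_of_succ_le fun n => (hstep n).chi_le) (FP_bdd hL)

theorem FP_adv {Ωn : ℕ → Type*} {L : ∀ n, Ωn n → Fin 3 → ℝ} (hL : ∀ n, Ex (L n))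
    (hstep : ∀ n, Dg (L n) (L (n + 1))) (h : ⨅ n, E (L n) chi ≤ 0) :
    Tendsto (fun n => E (L n) advf) atTop (𝓝 0) :=
  tendsto_adv_of_chi L hL
    (le_antisymm h (le_ciInf fun n => E_chi_nonneg (hL n)) ▸ FP_tendsto hL hstep)

theorem FP_theta {mu mu' : ℝ} (h0 : 0 ≤ mu) (h : mu ≤ mu') :
    ∃ θ : ℝ, 0 ≤ θ ∧ θ ≤ 1 ∧ θ * -mu' = -mu := by
  rcases (h0.trans h).eq_or_lt with h1 | h1
  · exact ⟨1, zero_le_one, le_rfl, by linarith⟩
  · exact ⟨mu / mu', by positivity, (div_le_one h1).2 h, by field_simp⟩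

/-- The abstract statement.  `X n = E (L n) chi` is antitone and nonnegative, so tends to its
infimum; `G n = E (L n) (Zf ∘ ch)` and `Z n = E (L n) Zf` are monotone (concavity, `hstep`) and
lie in `[0,1]`; put `g α = D * (1 - lim G)`.  By `hrec` and continuity of `rho b`,
`1 - lim Z = rho b (g α)`.  `ineq`: take `E (L n)` of the pointwise inequality (linearity,
induction on `ts`), and let `n → ∞` (`2 X * X n - X^2 → X^2`).  `g ≤ D` always, and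
`g ≤ D mu^2 X ≤ 4` if `mu ≤ 1/4` (`one_sub_Zf_ch_le`); if `mu > 1/4` then `D ≤ 32`. -/
theorem fp_of_seq {Ωn : ℕ → Type*} (L : ∀ n, Ωn n → Fin 3 → ℝ) (hL : ∀ n, Ex (L n))
    (hstep : ∀ n, Dg (L n) (L (n + 1))) (m b : ℕ) {mu D : ℝ} (h0 : 0 ≤ mu) (h1 : mu ≤ 1 / 2)
    (hD : 0 ≤ D) (hD2 : D * mu ^ 2 ≤ 2) (hb : b ≠ 0 → D ≤ b)
    (hrec : ∀ n, ∀ α : Al, α.ok m → 1 - E (L (n + 1)) (Zf m α)
      = rho b (D * (1 - E (L n) (fun p => Zf m α (ch (-mu) p)))))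
    (hX : 0 < ⨅ n, E (L n) chi) :
    ∃ s : St, FP m s ∧ s.mu = mu ∧ s.D = D ∧ s.b = b ∧ s.X = ⨅ n, E (L n) chi := by
  have hc := channel_nonneg_anti h0 h1
  have hXt := FP_tendsto hL hstep
  have hX2 := FP_le hL
  generalize ⨅ n, E (L n) chi = X at hX hXt hX2 ⊢
  have bZ : ∀ α, Bd fun p => Zf m α (ch (-mu) p) := fun α => (Bd.Zf m α).ch hc
  set G : Al → ℕ → ℝ := fun α n => E (L n) fun p => Zf m α (ch (-mu) p) with hG
  have G0 : ∀ α n, 0 ≤ G α n := fun α n =>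
    E_nonneg (hL n) fun p hp => Zf_nonneg m α (ch_mem hc hp).1
  have G1 : ∀ α : Al, α.ok m → ∀ n, G α n ≤ 1 := fun α h n =>
    (E_mono (hL n) (bZ α) (Bd.const 1) fun p hp => Zf_le_one h (ch_mem hc hp)).trans_eq
      (E_const (hL n) 1)
  have Gt : ∀ α : Al, α.ok m →
      Tendsto (fun n => D * (1 - G α n)) atTop (𝓝 (D * (1 - ⨆ n, G α n))) := fun α h =>
    ((tendsto_atTop_ciSup (monotone_nat_of_le_succ fun n =>
      hstep n _ (concaveOn_ch hc (concaveOn_Zf h)) (bZ α))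
      ⟨1, Set.forall_mem_range.2 (G1 α h)⟩).const_sub 1).const_mul D
  have hrho : Continuous (rho b) := by
    unfold rho
    split_ifs <;> fun_prop
  have Zt : ∀ α : Al, α.ok m → Tendsto (fun n => 1 - E (L n) (Zf m α)) atTop
      (𝓝 (rho b (D * (1 - ⨆ n, G α n)))) := fun α h =>
    (tendsto_add_atTop_iff_nat 1).1
      (((hrho.tendsto _).comp (Gt α h)).congr fun n => (hrec n α h).symm)
  have gD : ∀ α : Al, α.ok m → D * (1 - ⨆ n, G α n) ≤ D := fun α h =>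
    le_of_tendsto' (Gt α h) fun n => by nlinarith [G0 α n]
  refine ⟨⟨mu, D, X, b, fun α => D * (1 - ⨆ n, G α n)⟩, ⟨hX, hX2, fun α h => ge_of_tendsto' (Gt α h)
    fun n => mul_nonneg hD (sub_nonneg.2 (G1 α h n)), fun α h => ?_,
    fun α h h' => (gD α h).trans (hb h'), fun ts nu ka z hts hz => ?_⟩, rfl, rfl, rfl, rfl⟩
  · rcases le_or_gt mu (1 / 4) with h2 | h2
    · refine le_of_tendsto' (Gt α h) fun n => ?_
      have h3 := E_mono (hL n) ((Bd.const 1).sub (bZ α)) (Bd.chi.const_mul (mu ^ 2))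
        fun p hp => one_sub_Zf_ch_le h h0 h2 hp
      rw [E_sub (hL n) (Bd.const 1) (bZ α), E_const (hL n), E_const_mul] at h3
      have h4 := E_chi_le (hL n)
      have h5 := E_chi_nonneg (hL n)
      push_cast at h4
      calc D * (1 - G α n) ≤ D * (mu ^ 2 * E (L n) chi) := mul_le_mul_of_nonneg_left h3 hD
        _ = D * mu ^ 2 * E (L n) chi := by ring
        _ ≤ 32 := by nlinarith
    · refine (gD α h).trans ?_
      have h3 : 1 / 16 ≤ mu ^ 2 := by nlinarith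
      nlinarith
  · have hb' : ∀ t : Al × ℝ × ℝ, Bd fun p =>
        t.2.1 * (D * (1 - Zf m t.1 (ch (-mu) p))) - t.2.2 * (1 - Zf m t.1 p) := fun t =>
      ((((Bd.const 1).sub (bZ t.1)).const_mul D).const_mul _).sub
        (((Bd.const 1).sub (Bd.Zf m t.1)).const_mul _)
    have ht := ((tendsto_list_sum ts fun t ht => ((Gt t.1 (hts t ht)).const_mul t.2.1).sub
      ((Zt t.1 (hts t ht)).const_mul t.2.2)).add (hXt.const_mul nu)).add
      (((hXt.const_mul (2 * X)).sub_const (X ^ 2)).const_mul ka)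
    rw [show 2 * X * X - X ^ 2 = X ^ 2 by ring] at ht
    refine le_of_tendsto' ht fun n => ?_
    obtain ⟨a1, a2⟩ := FP_list (hL n) _ hb' ts
    have a3 := (Bd.chi.const_mul (2 * X)).sub (Bd.const (q := 3) (X ^ 2))
    have a4 := E_mono (hL n) ((a1.add (Bd.chi.const_mul nu)).add (a3.const_mul ka)) (Bd.const z) hz
    rw [E_add (hL n) (a1.add (Bd.chi.const_mul nu)) (a3.const_mul ka),
      E_add (hL n) a1 (Bd.chi.const_mul nu), a2, E_const (hL n), E_const_mul, E_const_mul,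
      E_sub (hL n) (Bd.chi.const_mul _) (Bd.const _), E_const_mul, E_const (hL n)] at a4
    refine le_of_eq_of_le (congrArg (fun l : List ℝ => l.sum + _ + _)
      (List.map_congr_left fun t _ => ?_)) a4
    rw [E_sub (hL n) ((((Bd.const 1).sub (bZ t.1)).const_mul D).const_mul _)
      (((Bd.const 1).sub (Bd.Zf m t.1)).const_mul _), E_const_mul, E_const_mul, E_const_mul,
      E_sub (hL n) (Bd.const 1) (bZ t.1), E_sub (hL n) (Bd.const 1) (Bd.Zf m t.1), E_const (hL n)]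

/-- `regL_succ`, `E_equiv`, `E_pw_Zf`, `E_chL`. -/
theorem fp_reg (m : ℕ) {b : ℕ} (hb : b ≠ 0) {mu : ℝ} (h0 : 0 ≤ mu) (h1 : mu ≤ 1 / 2)
    (hD : (b : ℝ) * mu ^ 2 ≤ 2) (hX : 0 < Xr b mu) :
    ∃ s : St, FP m s ∧ s.mu = mu ∧ s.D = b ∧ s.b = b ∧ s.X = Xr b mu := by
  have hc := channel_nonneg_anti h0 h1
  refine fp_of_seq _ (Ex.regL hc b) (Dg.reg_step hc b) m b h0 h1 (Nat.cast_nonneg _) hD
    (fun _ => le_rfl) (fun n α h => ?_) hX
  obtain ⟨e, he⟩ := regL_succ (q := 3) b (-mu) n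
  rw [he, E_equiv, E_pw_Zf h ((Ex.regL hc b n).chL hc), E_chL _ (Ex.regL hc b n), rho, if_neg hb,
    mul_div_cancel_left₀ _ (Nat.cast_ne_zero.2 hb), sub_sub_cancel]

/-- `gwL_succ`, `E_mix_Zf`, `E_chL`. -/
theorem fp_gw (m : ℕ) {d mu : ℝ} (hd : 0 ≤ d) (h0 : 0 ≤ mu) (h1 : mu ≤ 1 / 2)
    (hD : d * mu ^ 2 ≤ 2) (hX : 0 < Xg d mu) :
    ∃ s : St, FP m s ∧ s.mu = mu ∧ s.D = d ∧ s.b = 0 ∧ s.X = Xg d mu := by
  have hc := channel_nonneg_anti h0 h1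
  refine fp_of_seq _ (Ex.gwL hc hd) (Dg.gw_step hc hd) m 0 h0 h1 hd hD
    (fun h => absurd rfl h) (fun n α h => ?_) hX
  rw [gwL_succ, rho, if_pos rfl, ← E_chL _ (Ex.gwL hc hd n)]
  exact congrArg _ (E_mix_Zf h ((Ex.gwL hc hd n).chL hc) hd)

theorem Xr_nonneg (b : ℕ) {mu : ℝ} (h0 : 0 ≤ mu) (h1 : mu ≤ 1 / 2) : 0 ≤ Xr b mu := by
  exact le_ciInf fun n => E_chi_nonneg (Ex.regL (channel_nonneg_anti h0 h1) b n)

theorem Xg_nonneg {d mu : ℝ} (hd : 0 ≤ d) (h0 : 0 ≤ mu) (h1 : mu ≤ 1 / 2) : 0 ≤ Xg d mu := by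
  exact le_ciInf fun n => E_chi_nonneg (Ex.gwL (channel_nonneg_anti h0 h1) hd n)

theorem Xr_le (b : ℕ) {mu : ℝ} (h0 : 0 ≤ mu) (h1 : mu ≤ 1 / 2) : Xr b mu ≤ 2 := by
  exact FP_le (Ex.regL (channel_nonneg_anti h0 h1) b)

theorem Xg_le {d mu : ℝ} (hd : 0 ≤ d) (h0 : 0 ≤ mu) (h1 : mu ≤ 1 / 2) : Xg d mu ≤ 2 := by
  exact FP_le (Ex.gwL (channel_nonneg_anti h0 h1) hd)

/-- `Dg.reg_mono` with `θ = mu / mu'` (`θ = 1` if `mu' = 0`), `Dg.chi_le`, `ciInf_mono`. -/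
theorem Xr_mono {b b' : ℕ} (hb : b ≤ b') {mu mu' : ℝ} (h0 : 0 ≤ mu) (h : mu ≤ mu')
    (h1 : mu' ≤ 1 / 2) : Xr b mu ≤ Xr b' mu' := by
  obtain ⟨θ, a1, a2, a3⟩ := FP_theta h0 h
  have hc := channel_nonneg_anti h0 (h.trans h1)
  refine ciInf_mono (FP_bdd (Ex.regL hc b)) fun l => ?_
  rw [← a3] at hc ⊢
  exact (Dg.reg_mono (channel_nonneg_anti (h0.trans h) h1) hc a1 a2 hb l).chi_le

theorem Xg_mono {d d' mu mu' : ℝ} (hd : 0 ≤ d) (hdd : d ≤ d') (h0 : 0 ≤ mu) (h : mu ≤ mu')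
    (h1 : mu' ≤ 1 / 2) : Xg d mu ≤ Xg d' mu' := by
  obtain ⟨θ, a1, a2, a3⟩ := FP_theta h0 h
  have hc := channel_nonneg_anti h0 (h.trans h1)
  refine ciInf_mono (FP_bdd (Ex.gwL hc hd)) fun l => ?_
  rw [← a3] at hc ⊢
  exact (Dg.gw_mono (channel_nonneg_anti (h0.trans h) h1) hc a1 a2 hd hdd l).chi_le

/-- `tendsto_atTop_ciInf`, `tendsto_adv_of_chi`, `advantage_eq`. -/
theorem tendsto_reg_of_Xr {b : ℕ} {mu : ℝ} (h0 : 0 ≤ mu) (h1 : mu ≤ 1 / 2) (h : Xr b mu ≤ 0) :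
    Filter.Tendsto (advantage 3 b (-mu)) Filter.atTop (nhds 0) := by
  have hc := channel_nonneg_anti h0 h1
  exact (FP_adv (Ex.regL hc b) (Dg.reg_step hc b) h).congr fun l => (advantage_eq hc b l).symm

theorem tendsto_gw_of_Xg {d mu : ℝ} (hd : 0 ≤ d) (h0 : 0 ≤ mu) (h1 : mu ≤ 1 / 2)
    (h : Xg d mu ≤ 0) : Filter.Tendsto (gwAdvantage 3 (-mu) d) Filter.atTop (nhds 0) := by
  have hc := channel_nonneg_anti h0 h1
  exact (FP_adv (Ex.gwL hc hd) (Dg.gw_step hc hd) h).congr fun l => (gwAdvantage_eq hc hd l).symm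

/-- Reduction to criticality, regular tree: for `b ≥ 4` compare with `mu' = 1 / sqrt b`; for
`b < 4` compare with `(4, 1/2)`. -/
theorem Xr_zero_of_crit
    (H : ∀ b : ℕ, 4 ≤ b → ∀ mu : ℝ, 0 < mu → mu ≤ 1 / 2 → (b : ℝ) * mu ^ 2 = 1 → Xr b mu ≤ 0)
    (b : ℕ) {mu : ℝ} (h0 : 0 ≤ mu) (h1 : mu ≤ 1 / 2) (h : (b : ℝ) * mu ^ 2 ≤ 1) :
    Xr b mu ≤ 0 := by
  rcases le_total b 4 with hb | hb
  · exact (Xr_mono hb h0 h1 le_rfl).trans (H 4 le_rfl _ (by norm_num) le_rfl (by norm_num))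
  have h2 : (4 : ℝ) ≤ b := by exact_mod_cast hb
  have h3 : 0 < √(1 / (b : ℝ)) := by positivity
  have h4 : √(1 / (b : ℝ)) ≤ 1 / 2 := Real.sqrt_le_iff.2 ⟨by norm_num, by
    rw [div_le_iff₀ (by positivity)]
    linarith⟩
  refine (Xr_mono le_rfl h0 (Real.le_sqrt_of_sq_le ?_) h4).trans (H b hb _ h3 h4 ?_)
  · rwa [le_div_iff₀' (by positivity)]
  · rw [Real.sq_sqrt (by positivity)]
    field_simp

/-- Reduction to criticality, Poisson tree: compare with `d' = 1 / mu^2`. -/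
theorem Xg_zero_of_crit
    (H : ∀ d mu : ℝ, 0 < mu → mu ≤ 1 / 2 → d * mu ^ 2 = 1 → Xg d mu ≤ 0)
    {d mu : ℝ} (hd : 0 ≤ d) (h0 : 0 < mu) (h1 : mu ≤ 1 / 2) (h : d * mu ^ 2 ≤ 1) :
    Xg d mu ≤ 0 := by
  exact (Xg_mono hd ((le_div_iff₀ (by positivity)).2 h) h0.le le_rfl h1).trans
    (H _ _ h0 h1 (div_mul_cancel₀ _ (by positivity)))

end Crest.Agent.R163
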