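import Crest.Agent.R163.Q3.PtC

/-!
# Certificates whose multipliers are affine in `μ` (definitions and scalar side)

A step is now a pair of steps: the first holds the multipliers at the lower end of the interval
`par.mu`, the second those at the upper end.  The scalar checks are made at both ends; the
pointwise inequality is the weighted sum with the weights `hi - den μ` and `den μ - lo`.
-/

set_option autoImplicit false

namespace Crest.Agent.R163

abbrev Step2 := Step × Step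

noncomputable def ptS (par : Par) (st : Step) (mu D X : ℝ) (p : Fin 3 → ℝ) : ℝ :=
  ptF par.m mu D X (tsR par.als st.ts) st.nu (st.ka * (par.XS : ℝ) ^ 2) p - st.z

noncomputable def ptW (par : Par) (st : Step2) (mu D X : ℝ) (p : Fin 3 → ℝ) : ℝ :=
  ((par.mu.hi : ℝ) - par.mu.den * mu) * ptS par st.1 mu D X p +
    ((par.mu.den : ℝ) * mu - par.mu.lo) * ptS par st.2 mu D X p

def Pt2 (par : Par) (st : Step2) : Prop :=
  ∀ mu D X : ℝ, par.mu.mem mu → par.dOK mu D → 0 ≤ X → X * par.XS ≤ st.1.x1 →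
    X * par.XS ≤ st.2.x1 → ∀ p ∈ Spx 3, ptW par st mu D X p ≤ 0

def PtAll2 (par : Par) (C : List Step2) : Prop := ∀ st ∈ C, Pt2 par st

def certOK2 (par : Par) (c : Ctx) (st : Step2) (b : Box) : Bool :=
  cond (Nat.beq st.1.emp 0)
    (Nat.blt par.mu.lo par.mu.hi && Nat.blt 0 par.mu.den && Nat.beq st.2.emp 0 &&
      certOK par c st.1 b && certOK par c st.2 b)
    (certOK par c st.1 b)

/-- run the steps from `b`; the result must be `b'` -/
def stepsOK2 (par : Par) (c : Ctx) (b' : Box) (C : List Step2) : Box → Bool :=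
  List.rec (motive := fun _ => Box → Bool) (fun b => Box.beq b b')
    (fun st _ ih b => certOK2 par c st (st.1.cut b) && ih (st.1.rest b)) C

/-- `n0 u + r0 v + 2^sh (n1 u + r1 v)` -/
def lin2 (n0 n1 r0 r1 sh u v : ℕ) : ℕ :=
  Nat.add (Nat.add (Nat.mul n0 u) (Nat.mul r0 v))
    (Nat.shiftLeft (Nat.add (Nat.mul n1 u) (Nat.mul r1 v)) sh)

/-- the size condition of `stepCore` -/
def stepG (G : ℕ) (st : Step) (np zp kq : ℕ) : Bool :=
  Nat.ble (2 * (sumR st.gp + sumR st.gm + sumR st.wp + sumR st.wm) + 2 * (np + im st.nu)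
      + zp + im st.z + kq) G

/-- the left side of `stepCore` -/
def stepL (F : Feat) (st : Step) (np kq : ℕ) : ℕ :=
  Nat.add (Nat.add (Nat.mul (sumR st.gp) F.A0) (dot st.gm F.Gu))
    (Nat.mul F.F2 (Nat.add
      (Nat.add (Nat.mul (sumR st.wm + im st.nu + im st.z) F.S3) (dot st.wp F.UT))
      (Nat.add (Nat.mul np F.PP) (Nat.mul kq F.Qp))))

/-- the right side of `stepCore` -/
def stepR (F : Feat) (st : Step) (np zp kq : ℕ) : ℕ :=
  Nat.add (Nat.add (Nat.mul (sumR st.gm) F.A0) (dot st.gp F.Gl))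
    (Nat.mul F.F2 (Nat.add
      (Nat.add (Nat.mul (sumR st.wp + np + zp) F.S3) (dot st.wm F.UT))
      (Nat.add (Nat.mul (im st.nu) F.PP) (Nat.mul kq F.Qm))))

/-- `(hi N - den R) (La - Ra) + (den R - lo N) (Lb - Rb) ≤ 0` lanewise, where
`N = n0 + 2^sh n1` and `R = r0 + 2^sh r1`. -/
def comb2 (mask top : ℕ) (I : Iv) (n0 n1 r0 r1 sh La Ra Lb Rb : ℕ) : Bool :=
  rawLe mask top
    (lin2 n0 n1 r0 r1 sh (Nat.add (Nat.mul I.hi La) (Nat.mul I.lo Rb))
      (Nat.mul I.den (Nat.add Ra Lb)))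
    (lin2 n0 n1 r0 r1 sh (Nat.add (Nat.mul I.hi Ra) (Nat.mul I.lo Lb))
      (Nat.mul I.den (Nat.add La Rb)))

/-- effective multiplier of `chi` (positive part) -/
def Step.np (st : Step) (XS : ℕ) (near : Bool) : ℕ :=
  cond near (ip st.nu) (ip st.nu + 2 * st.ka * st.x1 * XS)
/-- effective constant (positive part) -/
def Step.zp (st : Step) (near : Bool) : ℕ :=
  cond near (ip st.z) (ip st.z + st.ka * st.x1 * st.x1)
/-- effective multiplier of `chi^2` -/
def Step.kq (st : Step) (XS : ℕ) (near : Bool) : ℕ := cond near (st.ka * (XS * XS)) 0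

def stepPre (XS n G : ℕ) (near : Bool) (amin : ℕ) (st : Step) : Bool :=
  Nat.ble st.ts.length n && (near || (Nat.beq st.ka 0 || Nat.ble st.x1 amin)) &&
    stepG G st (st.np XS near) (st.zp near) (st.kq XS near)

def stepChk2 (XS n mask top G : ℕ) (I : Iv) (n0 n1 r0 r1 sh : ℕ) (near : Bool) (amin : ℕ)
    (F : Feat) (st : Step2) : Bool :=
  stepPre XS n G near amin st.1 && stepPre XS n G near amin st.2 &&
    comb2 mask top I n0 n1 r0 r1 sh
      (stepL F st.1 (st.1.np XS near) (st.1.kq XS near))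
      (stepR F st.1 (st.1.np XS near) (st.1.zp near) (st.1.kq XS near))
      (stepL F st.2 (st.2.np XS near) (st.2.kq XS near))
      (stepR F st.2 (st.2.np XS near) (st.2.zp near) (st.2.kq XS near))

/-- common bounds of both sides of `comb2` -/
def bd2 (I : Iv) (N R B : K) : K :=
  K.mul (K.add (K.smul (I.hi + I.lo) N) (K.smul (2 * I.den) R)) B

def chkF2 (c : Ctx) (par : Par) (N R : K) (F : FeatK) (gb : ℕ) (near : Bool) (amin : ℕ)
    (C : List Step2) : Bool :=
  K.fits c (bd2 par.mu N R (F.bd (Nat.shiftLeft 1 gb))) &&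
    (Nat.beq amin 0 || K.le c (K.smul (amin + par.XS) F.S2) (K.smul (3 * par.XS) F.P2)) &&
    allR (stepChk2 par.XS par.als.length c.mask c.top (Nat.shiftLeft 1 gb) par.mu
      (Nat.mod N.n (Nat.shiftLeft 1 (c.w * c.D1 * c.D2))) (Nat.shiftRight N.n (c.w * c.D1 * c.D2))
      (Nat.mod R.n (Nat.shiftLeft 1 (c.w * c.D1 * c.D2))) (Nat.shiftRight R.n (c.w * c.D1 * c.D2))
      (c.w * c.D1 * c.D2) near amin F.raw) C

def chkG2 (c : Ctx) (par : Par) (f : Fit) (g : Geo) (gb : ℕ) (near : Bool) (amin : ℕ)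
    (C : List Step2) : Bool :=
  chkF2 c par g.N3 g.R3 (featK par f g near) gb near amin C

def chk2 (c : Ctx) (par : Par) (f : Fit) (gb : ℕ) (cel : Box3) (near : Bool) (amin : ℕ)
    (C : List Step2) : Bool :=
  f.wf && cel.wf && (par.crit || Nat.blt 0 par.dd) && Nat.ble par.mu.lo par.mu.hi &&
    Nat.blt 0 par.mu.den && chkG2 c par f (geo c par.m f cel) gb near amin C

/-- the inequality of `Pt2` at the point `(ρ, σ, μ)` -/
def PtAt2 (par : Par) (st : Step2) (r t mu : ℝ) : Prop :=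
  ∀ D X : ℝ, par.mu.mem mu → par.dOK mu D → 0 ≤ X → X * par.XS ≤ st.1.x1 →
    X * par.XS ≤ st.2.x1 → ptW par st mu D X (pt par.m r t) ≤ 0

def Ok2 (par : Par) (f : Fit) (cel : Box3) (C : List Step2) : Prop :=
  ∀ st ∈ C, ∀ y1 y2 y3 : ℝ, cel.I1.mem y1 → cel.I2.mem y2 → cel.I3.mem y3 →
    PtAt2 par st (f.dom.I1.at y1) (f.dom.I2.at y2) (f.dom.I3.at y3)

def OkD2 (par : Par) (d : Box3) (C : List Step2) : Prop :=
  ∀ st ∈ C, ∀ r t mu : ℝ, d.I1.mem r → d.I2.mem t → d.I3.mem mu → PtAt2 par st r t mu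

/-- the members whose bit in `M` equals `b` (lowest bit first) -/
def selB2 (b : ℕ) (C : List Step2) : ℕ → List Step2 :=
  List.rec (motive := fun _ => ℕ → List Step2) (fun _ => [])
    (fun st _ ih M => cond (Nat.beq (Nat.mod M 2) b) (st :: ih (Nat.div M 2)) (ih (Nat.div M 2))) C

noncomputable def runT2 (c : Ctx) (par : Par) (f : Fit) (gb : ℕ) (t : PT) :
    Box3 → List Step2 → Bool :=
  PT.rec (motive := fun _ => Box3 → List Step2 → Bool)
    (fun near amin cel C => chk2 c par f gb cel near amin C)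
    (fun M _ _ ihl ihr cel C => ihl cel (selB2 1 C M) && ihr cel (selB2 0 C M))
    (fun d _ _ ihl ihr cel C => ihl (cel.l d) C && ihr (cel.r d) C) t

/-- the weights are nonnegative: `den * mu = lo (1 - y) + hi y`. -/
theorem Iv.wt_nonneg {I : Iv} (h : I.lo ≤ I.hi) (hd : 0 < I.den) {x : ℝ} (hx : I.mem x) :
    0 ≤ (I.hi : ℝ) - I.den * x ∧ 0 ≤ (I.den : ℝ) * x - I.lo := by

  obtain ⟨y, h0, h1, rfl⟩ := hx
  have a1 : (0 : ℝ) < I.den := by exact_mod_cast hd
  have a2 : (I.lo : ℝ) ≤ I.hi := by exact_mod_cast h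
  rw [Iv.at, mul_div_cancel₀ _ a1.ne']
  constructor <;> nlinarith

/-- the scalar half of `certOK_sound` (copy of its first branch, without `FP.ineq`). -/
theorem certOK_pos {par : Par} (hw : par.wf = true) {c : Ctx} {st : Step} {b : Box}
    (h : certOK par c st b = true) (he : st.emp = 0) {s : St} (hs : FP par.m s)
    (b1 : ble par.bhi s.b) (b2 : ble s.b par.blo) (hb : inBox par b s) :
    s.X * par.XS ≤ st.x1 ∧ (st.z : ℝ) + s.X ^ 2 ≤
      ((tsR par.als st.ts).map fun t => t.2.1 * s.g t.1 - t.2.2 * rho s.b (s.g t.1)).sum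
        + st.nu * s.X + st.ka * (par.XS : ℝ) ^ 2 * s.X ^ 2 := by

  obtain ⟨h0, h1, hlo, hhi⟩ := hb
  have hX : 0 < par.XS := by
    simp only [Par.wf, Bool.and_eq_true, Nat.blt_eq] at hw
    exact hw.1.1.2
  unfold certOK at h
  rw [he] at h
  simp only [Bool.and_eq_true, Nat.ble_eq] at h
  obtain ⟨⟨⟨a1, a2⟩, a3⟩, a4⟩ := h
  have a5 := Scal_sum hw hs h0 h1 b1 b2 _ _ _ _ a1 (Scal_ok hw) a4 hlo hhi
  have a7 := Scal_nn hX a3 h0 h1
  rw [Scal_ev_add] at a7
  simp only [Cv.ev] at a5 a7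
  push_cast at a7
  exact ⟨h1.trans (Nat.cast_le.2 a2), by linarith⟩

/-- second branch of `certOK_sound` -/
theorem certOK_emp {par : Par} (hw : par.wf = true) {c : Ctx} {st : Step} {b : Box}
    (h : certOK par c st b = true) (he : st.emp ≠ 0) : Inf par b := by

  intro s hs hm hd b1 b2 ⟨h0, h1, hlo, hhi⟩
  have hX : 0 < par.XS := by
    simp only [Par.wf, Bool.and_eq_true, Nat.blt_eq] at hw
    exact hw.1.1.2
  have hp2 := pow_pos hs.X_pos 2
  obtain ⟨i, hi⟩ := Nat.exists_eq_succ_of_ne_zero he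
  unfold certOK at h
  rw [hi] at h
  simp only [Bool.and_eq_true, Nat.blt_eq] at h
  obtain ⟨⟨⟨a1, a2⟩, a3⟩, a4⟩ := h
  have a5 := Scal_get hlo hhi a1 a2 a3
  have a7 := Scal_nn hX a4 h0 h1
  rw [Scal_ev_add, Scal_ev_add, Scal_ev_neg] at a7
  simp only [Cv.ev] at a5 a7
  push_cast at a7
  linarith

theorem Af_sum (w : ℝ) (l : List (Al × ℝ × ℝ)) (u v : Al → ℝ) :
    ((l.map fun t => (t.1, w * t.2.1, w * t.2.2)).map fun t : Al × ℝ × ℝ => t.2.1 * u t.1 - t.2.2 * v t.1).sum =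
      w * (l.map fun t => t.2.1 * u t.1 - t.2.2 * v t.1).sum := by
  rw [List.map_map, ← List.sum_map_mul_left]
  congr 2
  funext t
  simp only [Function.comp]
  ring

theorem Af_ok {par : Par} (hw : par.wf = true) (ts : List Tm) : ∀ t ∈ tsR par.als ts, t.1.ok par.m := fun t ht => by
  obtain ⟨i, hi, rfl⟩ := List.getElem_of_mem ht
  simp only [tsR, List.getElem_zipWith]
  exact Scal_ok hw _ (List.getElem_mem _)

/-- With the weights `w0 = hi - den μ ≥ 0`, `w1 = den μ - lo ≥ 0`, `w0 + w1 = hi - lo > 0`, apply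
`FP.ineq` to the list `(tsR als st.1.ts).map (fun t => (t.1, w0 * t.2.1, w0 * t.2.2)) ++
(tsR als st.2.ts).map (fun t => (t.1, w1 * t.2.1, w1 * t.2.2))`, `nu = w0 nu1 + w1 nu2`, etc.
(`List.map_append`, `List.sum_append`, `List.sum_map_mul_left`); `certOK_pos` twice gives
`(w0 + w1) X^2 ≤ 0`. -/
theorem certOK2_sound {par : Par} (hw : par.wf = true) {c : Ctx} {st : Step2} {b : Box}
    (h : certOK2 par c st b = true) (hp : Pt2 par st) : Inf par b := by

  unfold certOK2 at h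
  by_cases he : st.1.emp = 0
  swap
  · rw [show Nat.beq st.1.emp 0 = false from Bool.eq_false_iff.2 fun h => he (Nat.eq_of_beq_eq_true h)] at h
    exact certOK_emp hw h he
  rw [he] at h
  simp only [Nat.beq_refl, cond_true, Bool.and_eq_true, Nat.blt_eq, Nat.beq_eq] at h
  obtain ⟨⟨⟨⟨a1, a2⟩, a3⟩, a4⟩, a5⟩ := h
  intro s hs hm hd b1 b2 hb
  obtain ⟨c1, c2⟩ := certOK_pos hw a4 he hs b1 b2 hb
  obtain ⟨c3, c4⟩ := certOK_pos hw a5 a3 hs b1 b2 hb
  obtain ⟨w0, w1⟩ := Iv.wt_nonneg a1.le a2 hm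
  have w2 : (par.mu.lo : ℝ) < par.mu.hi := by exact_mod_cast a1
  have hq := hp _ _ _ hm hd hs.X_pos.le c1 c3
  unfold ptW ptS at hq
  have w3 : 0 < ((par.mu.hi : ℝ) - par.mu.den * s.mu) + (par.mu.den * s.mu - par.mu.lo) := by linarith
  generalize (par.mu.hi : ℝ) - par.mu.den * s.mu = A at *
  generalize (par.mu.den : ℝ) * s.mu - par.mu.lo = B at *
  have c5 := hs.ineq (((tsR par.als st.1.ts).map fun t => (t.1, A * t.2.1, A * t.2.2)) ++
      (tsR par.als st.2.ts).map fun t => (t.1, B * t.2.1, B * t.2.2))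
    (A * st.1.nu + B * st.2.nu) (A * (st.1.ka * (par.XS : ℝ) ^ 2) + B * (st.2.ka * (par.XS : ℝ) ^ 2))
    (A * st.1.z + B * st.2.z) (fun t ht => by
      rcases List.mem_append.1 ht with ht | ht <;> obtain ⟨t', ht', rfl⟩ := List.mem_map.1 ht <;>
        exact Af_ok hw _ t' ht') fun p hp' => by
      have c6 := hq p hp'
      unfold ptF at c6 ⊢
      rw [List.map_append, List.sum_append,
        Af_sum A _ (fun α => s.D * (1 - Zf par.m α (ch (-s.mu) p))) fun α => 1 - Zf par.m α p,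
        Af_sum B _ (fun α => s.D * (1 - Zf par.m α (ch (-s.mu) p))) fun α => 1 - Zf par.m α p]
      linear_combination c6
  rw [List.map_append, List.sum_append, Af_sum A _ s.g fun α => rho s.b (s.g α),
    Af_sum B _ s.g fun α => rho s.b (s.g α)] at c5
  have c7 := mul_pos w3 (pow_pos hs.X_pos 2)
  have c8 := mul_le_mul_of_nonneg_left c2 w0
  have c9 := mul_le_mul_of_nonneg_left c4 w1
  linarith

theorem Inf.steps2 {par : Par} (hw : par.wf = true) (c : Ctx) {b : Box} (b' : Box)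
    (C : List Step2) (h : stepsOK2 par c b' C b = true) (hp : PtAll2 par C) (h' : Inf par b') :
    Inf par b := by
  induction C generalizing b with
  | nil => exact Box.eq_of_beq h ▸ h'
  | cons st C ih =>
    obtain ⟨h1, h2⟩ := Bool.and_eq_true_iff.1 h
    have a1 := certOK2_sound hw h1 (hp st List.mem_cons_self)
    have a2 := ih h2 fun t ht => hp t (List.mem_cons_of_mem _ ht)
    obtain ⟨⟨_ | _ | _ | k, _, _⟩, _⟩ := st
    exacts [Inf.spG _ _ a2 a1, Inf.spG _ _ a1 a2, Inf.spX _ a2 a1, Inf.spX _ a1 a2]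

theorem PtAll2.left {par : Par} {C C' : List Step2} (h : PtAll2 par (C ++ C')) : PtAll2 par C :=
  fun st hs => h st (List.mem_append_left _ hs)

theorem PtAll2.right {par : Par} {C C' : List Step2} (h : PtAll2 par (C ++ C')) : PtAll2 par C' :=
  fun st hs => h st (List.mem_append_right _ hs)

end Crest.Agent.R163
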