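import Crest.Agent.R163.Q3.Af

/-!
# Certificates whose multipliers are affine in `μ`: the pointwise side
-/

set_option autoImplicit false

namespace Crest.Agent.R163

/-- `Nat.shiftLeft_eq`, `Nat.shiftRight_eq_div_pow`, `Nat.mod_add_div`. -/
theorem lin2_eq (N R sh u v : ℕ) :
    lin2 (Nat.mod N (Nat.shiftLeft 1 sh)) (Nat.shiftRight N sh) (Nat.mod R (Nat.shiftLeft 1 sh))
      (Nat.shiftRight R sh) sh u v = N * u + R * v := by

  have e : ∀ N : ℕ, Nat.mod N (Nat.shiftLeft 1 sh) + 2 ^ sh * Nat.shiftRight N sh = N := fun N => by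
    change N % 1 <<< sh + 2 ^ sh * N >>> sh = N
    rw [Nat.one_shiftLeft, Nat.shiftRight_eq_div_pow, Nat.mod_add_div]
  have e1 := e N
  have e2 := e R
  generalize Nat.mod N _ = a, Nat.shiftRight N sh = b, Nat.mod R _ = a', Nat.shiftRight R sh = b' at *
  change a * u + a' * v + (b * u + b' * v) <<< sh = _
  rw [Nat.shiftLeft_eq, ← e1, ← e2]
  ring

/-- The two sides of `stepCore`, as in the proof of `stepCore_sound` (`PtB_fin`, `PtB_list`);
`P = f2 * s3` does not depend on the step. -/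
theorem stepLR_rep {c : Ctx} {s : Fin 4 → ℝ} {F : FeatK} {als : List Al}
    {u v : Al → ℝ} {a : ℝ} {near : Bool} (hF : FeatRep c s F als u v a near) :
    ∃ P : ℝ, 0 < P ∧ ∀ {G : ℕ} {st : Step} {np zp kq : ℕ}, st.ts.length ≤ als.length →
      (near = true ∨ kq = 0) → stepG G st np zp kq = true →
      ∃ l r : ℝ, Rep c s ((F.bd G).wn (stepL F.raw st np kq)) l ∧
        Rep c s ((F.bd G).wn (stepR F.raw st np zp kq)) r ∧
        P * (((tsR als st.ts).map fun t => t.2.1 * u t.1 - t.2.2 * v t.1).sum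
          + ((np : ℝ) - im st.nu) * a + kq * a ^ 2 - ((zp : ℝ) - im st.z)) ≤ l - r := by

  obtain ⟨a0, f2, s3, pp, qp, qm, gl, gu, ut, f0, s0, rA, rF, rS, rP, rp, rm, rl, ru, rt, h1, h2, h3,
    h4, h5⟩ := hF.ex
  refine ⟨f2 * s3, mul_pos f0 s0, fun {G st np zp kq} hl hk b1 => ?_⟩
  rw [stepG, Nat.ble_eq] at b1
  refine ⟨_, _, PtB_fin (G := G) (PtB_add (PtB_mul rA ((PtB_rfl _).l _) (sumR st.gp))
      (PtB_dot ru (((PtB_rfl _).r _).r _) st.gm)) rF
      (PtB_add (PtB_add (PtB_mul rS ((((PtB_rfl _).l _).l _).l _) (sumR st.wm + im st.nu + im st.z))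
        (PtB_dot rt ((PtB_rfl _).r _) st.wp))
        (PtB_add (PtB_mul rP ((((PtB_rfl _).r _).l _).l _) np)
          (PtB_mul rp ((((PtB_rfl _).l _).r _).l _) kq))) (by omega) (by omega),
    PtB_fin (G := G) (PtB_add (PtB_mul rA ((PtB_rfl _).l _) (sumR st.gm))
      (PtB_dot rl (((PtB_rfl _).l _).r _) st.gp)) rF
      (PtB_add (PtB_add (PtB_mul rS ((((PtB_rfl _).l _).l _).l _) (sumR st.wp + np + zp))
        (PtB_dot rt ((PtB_rfl _).r _) st.wm))
        (PtB_add (PtB_mul rP ((((PtB_rfl _).r _).l _).l _) (im st.nu))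
          (PtB_mul rm ((((PtB_rfl _).r _).r _).l _) kq))) (by omega) (by omega), ?_⟩
  have b4 := PtB_list st.ts als hl h1 h2 h3
  have b5 : kq * (s3 * a ^ 2) = kq * (qp - qm) := by
    rcases hk with hk | rfl
    · rw [h5 hk]
    · simp
  simp only [Step.gp, Step.gm, Step.wp, Step.wm, Nat.cast_add]
  linear_combination b4 + f2 * b5 + f2 * ((np : ℝ) - im st.nu) * h4

theorem AfB_rep {c : Ctx} {s : Fin 4 → ℝ} (I : Iv) {N R B : K} {n r : ℝ}
    (hN : Rep c s N n) (hR : Rep c s R r) {A₁ A₂ A₃ A₄ : ℕ} (sh : ℕ) {a₁ a₂ a₃ a₄ : ℝ} (h1 : Rep c s (B.wn A₁) a₁)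
    (h2 : Rep c s (B.wn A₂) a₂) (h3 : Rep c s (B.wn A₃) a₃) (h4 : Rep c s (B.wn A₄) a₄) :
    Rep c s ((bd2 I N R B).wn (lin2 (Nat.mod N.n (Nat.shiftLeft 1 sh)) (Nat.shiftRight N.n sh)
      (Nat.mod R.n (Nat.shiftLeft 1 sh)) (Nat.shiftRight R.n sh) sh (Nat.add (Nat.mul I.hi A₁) (Nat.mul I.lo A₂))
      (Nat.mul I.den (Nat.add A₃ A₄)))) (n * (I.hi * a₁ + I.lo * a₂) + r * (I.den * (a₃ + a₄))) := by
  refine ((hN.mul ((h1.smul I.hi).add (h2.smul I.lo))).add (hR.mul ((h3.add h4).smul I.den))).mono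
    (lin2_eq _ _ _ _ _) (le_of_eq ?_) ?_ ?_ ?_
  · change N.l * (I.hi * B.l + I.lo * B.l) + R.l * (I.den * (B.l + B.l)) =
      ((I.hi + I.lo) * N.l + 2 * I.den * R.l) * B.l
    ring
  all_goals
    simp only [bd2, K.add, K.mul, K.smul, K.wn, mx_eq, Nat.add_eq]
    omega

/-- both sides of `comb2` are represented with the bounds `bd2 I N R B` (`Rep.add`, `Rep.mul`,
`Rep.smul`, `Rep.mono`), then `lin2_eq` and `Rep.le_of_raw`. -/
theorem comb2_sound {c : Ctx} {s : Fin 4 → ℝ} (hs : ∀ i, 0 ≤ s i) {I : Iv} {N R B : K} {n r : ℝ}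
    (hN : Rep c s N n) (hR : Rep c s R r) (hB : K.fits c (bd2 I N R B) = true)
    {La Ra Lb Rb sh : ℕ} {la ra lb rb : ℝ} (h1 : Rep c s (B.wn La) la) (h2 : Rep c s (B.wn Ra) ra)
    (h3 : Rep c s (B.wn Lb) lb) (h4 : Rep c s (B.wn Rb) rb)
    (h : comb2 c.mask c.top I (Nat.mod N.n (Nat.shiftLeft 1 sh)) (Nat.shiftRight N.n sh)
      (Nat.mod R.n (Nat.shiftLeft 1 sh)) (Nat.shiftRight R.n sh) sh La Ra Lb Rb = true) :
    (I.hi * n - I.den * r) * (la - ra) + (I.den * r - I.lo * n) * (lb - rb) ≤ 0 := by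

  have := Rep.le_of_raw hs (AfB_rep I hN hR sh h1 h4 h2 h3) (AfB_rep I hN hR sh h2 h3 h1 h4) hB hB h
  linarith

/-- the end of the proof of `chk_sound` (cases on `near`) -/
theorem stepPre_le {XS n G amin : ℕ} {near : Bool} {st : Step}
    (h : stepPre XS n G near amin st = true) {a X : ℝ} (ha : (amin : ℝ) ≤ XS * a)
    (hX : X * XS ≤ st.x1) :
    st.nu * a + st.ka * (XS : ℝ) ^ 2 * (2 * X * a - X ^ 2) - st.z ≤
      ((st.np XS near : ℝ) - im st.nu) * a + st.kq XS near * a ^ 2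
        - ((st.zp near : ℝ) - im st.z) := by

  simp only [stepPre, Bool.and_eq_true] at h
  obtain ⟨⟨-, c3⟩, -⟩ := h
  rw [← ip_sub_im st.nu, ← ip_sub_im st.z]
  have k0 : (0 : ℝ) ≤ st.ka := Nat.cast_nonneg _
  cases near
  · have c6 : 0 ≤ (st.ka : ℝ) * ((st.x1 - X * XS) * (2 * (XS * a) - st.x1 - X * XS)) := by
      rw [Bool.false_or] at c3
      rcases Bool.or_eq_true_iff.1 c3 with h | h
      · simp [Nat.eq_of_beq_eq_true h]
      · have : (st.x1 : ℝ) ≤ amin := Nat.cast_le.2 (Nat.le_of_ble_eq_true h)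
        exact mul_nonneg k0 (mul_nonneg (by linarith) (by linarith))
    simp only [Step.np, Step.zp, Step.kq, cond_false]
    push_cast
    linear_combination c6
  · have c6 : 0 ≤ (st.ka : ℝ) * (XS * (a - X)) ^ 2 := by positivity
    simp only [Step.np, Step.zp, Step.kq, cond_true]
    push_cast
    linear_combination c6

/-- As `chk_sound`: `geo_rep`, `featK_rep`; `stepLR_rep` for both steps, `comb2_sound` with
`GeoRep.N3`, `GeoRep.R3` (`n = den' T3 > 0`, `r = n * mu`), `Iv.wt_nonneg`, `stepPre_le`; divide by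
`n * P`. -/
theorem chk2_sound {c : Ctx} {par : Par} (hw : par.wf = true) {f : Fit} (hf : FitOK par f)
    {gb : ℕ} {cel : Box3} {near : Bool} {amin : ℕ} {C : List Step2}
    (h : chk2 c par f gb cel near amin C = true) : Ok2 par f cel C := by

  intro st hst y1 y2 y3 m1 m2 m3 D X hmu hD hX0 hX1 hX2
  simp only [chk2, chkG2, chkF2, Bool.and_eq_true, allR_eq, List.all_eq_true, Nat.ble_eq, Nat.blt_eq] at h
  obtain ⟨⟨⟨⟨⟨a1, a2⟩, a3⟩, a7⟩, a8⟩, ⟨a4, a5⟩, a6⟩ := h
  obtain ⟨s, T1, T2, T3, N, hs, hg⟩ := geo_rep c par.m a1 a2 m1 m2 m3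
  simp only [Box3.wf, Bool.and_eq_true] at a2
  have u1 := Iv.mem_unit a2.1.1 m1
  have u2 := Iv.mem_unit a2.1.2 m2
  have hF := featK_rep hs hw hf a1 hg u1 u2 (Iv.mem_unit a2.2 m3) a3 hD near
  have hr := f.dom.I1.at_nonneg u1.1.le u1.2
  have ht := f.dom.I2.at_nonneg u2.1.le u2.2
  have b1 : (amin : ℝ) ≤ par.XS * chi (pt par.m (f.dom.I1.at y1) (f.dom.I2.at y2)) := by
    rcases Bool.or_eq_true_iff.1 a5 with h | h
    · rw [Nat.eq_of_beq_eq_true h, Nat.cast_zero]
      exact mul_nonneg (Nat.cast_nonneg _) (chi_nonneg _)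
    · have b2 := Rep.le hs ((hg.S.pow 2).smul _) ((PtB_P2 hg hr ht).smul _) h
      have b3 := PtB_N hg a1
      have b4 := sS_pos par.m hr ht
      refine le_of_mul_le_mul_left ?_
        (show 0 < (N ^ par.m * sS par.m (f.dom.I1.at y1) (f.dom.I2.at y2)) ^ 2 by positivity)
      push_cast at b2
      linear_combination b2
  have c0 := a6 st hst
  rw [stepChk2, Bool.and_eq_true, Bool.and_eq_true] at c0
  obtain ⟨⟨c1, c2⟩, c3⟩ := c0
  obtain ⟨P, hP, H⟩ := stepLR_rep hF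
  have k : ∀ st : Step, near = true ∨ st.kq par.XS near = 0 := fun st => by cases near <;> simp [Step.kq]
  have d1 := stepPre_le c1 b1 hX1
  have d2 := stepPre_le c2 b1 hX2
  simp only [stepPre, Bool.and_eq_true, Nat.ble_eq] at c1 c2
  obtain ⟨la, ra, e1, e2, e3⟩ := H c1.1.1 (k _) c1.2
  obtain ⟨lb, rb, e4, e5, e6⟩ := H c2.1.1 (k _) c2.2
  have e7 := comb2_sound hs hg.N3 hg.R3 a4 e1 e2 e4 e5 c3
  obtain ⟨w0, w1⟩ := Iv.wt_nonneg a7 a8 hmu
  have n0 : 0 < f.dom.I3.den * T3 := by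
    simp only [Fit.wf, Bool.and_eq_true, Nat.blt_eq] at a1
    exact mul_pos (Nat.cast_pos.2 a1.1.1.2) hg.T3_pos
  have g1 : P * ptS par st.1 (f.dom.I3.at y3) D X (pt par.m (f.dom.I1.at y1) (f.dom.I2.at y2)) ≤ la - ra := by
    refine le_trans (mul_le_mul_of_nonneg_left ?_ hP.le) e3
    unfold ptS ptF
    linarith
  have g2 : P * ptS par st.2 (f.dom.I3.at y3) D X (pt par.m (f.dom.I1.at y1) (f.dom.I2.at y2)) ≤ lb - rb := by
    refine le_trans (mul_le_mul_of_nonneg_left ?_ hP.le) e6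
    unfold ptS ptF
    linarith
  have g3 := mul_le_mul_of_nonneg_left g1 (mul_nonneg n0.le w0)
  have g4 := mul_le_mul_of_nonneg_left g2 (mul_nonneg n0.le w1)
  refine le_of_mul_le_mul_left ?_ (mul_pos n0 hP)
  unfold ptW
  linarith

theorem mem_selB2 {C : List Step2} {st : Step2} (h : st ∈ C) (M : ℕ) :
    st ∈ selB2 1 C M ∨ st ∈ selB2 0 C M := by
  induction C generalizing M with
  | nil => cases h
  | cons a C ih =>
    have e : ∀ b, selB2 b (a :: C) M = cond (Nat.beq (Nat.mod M 2) b)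
        (a :: selB2 b C (Nat.div M 2)) (selB2 b C (Nat.div M 2)) := fun b => rfl
    rw [e, e]
    rcases List.mem_cons.1 h with rfl | h
    · rcases Nat.mod_two_eq_zero_or_one M with h2 | h2
      · right
        rw [show Nat.mod M 2 = 0 from h2]
        exact List.mem_cons_self
      · left
        rw [show Nat.mod M 2 = 1 from h2]
        exact List.mem_cons_self
    · have k : ∀ b, st ∈ selB2 b C (Nat.div M 2) → st ∈ cond (Nat.beq (Nat.mod M 2) b)
          (a :: selB2 b C (Nat.div M 2)) (selB2 b C (Nat.div M 2)) := fun b hb => by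
        cases Nat.beq (Nat.mod M 2) b
        · exact hb
        · exact List.mem_cons_of_mem _ hb
      exact (ih h _).imp (k 1) (k 0)

theorem Ok2.part {par : Par} {f : Fit} {cel : Box3} {C : List Step2} (M : ℕ)
    (h1 : Ok2 par f cel (selB2 1 C M)) (h0 : Ok2 par f cel (selB2 0 C M)) : Ok2 par f cel C := by
  intro st hst
  exact (mem_selB2 hst M).elim (h1 st) (h0 st)

theorem Ok2.split {par : Par} {f : Fit} {cel : Box3} {C : List Step2} (d : ℕ)
    (h1 : Ok2 par f (cel.l d) C) (h0 : Ok2 par f (cel.r d) C) : Ok2 par f cel C := by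
  intro st hst y1 y2 y3 a b c
  rcases PtC_split d a b c with ⟨a, b, c⟩ | ⟨a, b, c⟩
  · exact h1 st hst _ _ _ a b c
  · exact h0 st hst _ _ _ a b c

theorem Ok2.run {par : Par} (hw : par.wf = true) {f : Fit} (hf : FitOK par f) (c : Ctx) (gb : ℕ)
    (t : PT) {cel : Box3} {C : List Step2} (h : runT2 c par f gb t cel C = true) :
    Ok2 par f cel C := by
  induction t generalizing cel C with
  | chk near amin => exact chk2_sound hw hf h
  | part M l r ihl ihr =>
    have h' : (runT2 c par f gb l cel (selB2 1 C M) && runT2 c par f gb r cel (selB2 0 C M))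
      = true := h
    rw [Bool.and_eq_true] at h'
    exact Ok2.part M (ihl h'.1) (ihr h'.2)
  | split d l r ihl ihr =>
    have h' : (runT2 c par f gb l (cel.l d) C && runT2 c par f gb r (cel.r d) C) = true := h
    rw [Bool.and_eq_true] at h'
    exact Ok2.split d (ihl h'.1) (ihr h'.2)

theorem OkD2.of_ok {par : Par} {f : Fit} {C : List Step2} (h : Ok2 par f Box3.unit C) :
    OkD2 par f.dom C := by
  rintro st hst _ _ _ ⟨y1, a1, b1, rfl⟩ ⟨y2, a2, b2, rfl⟩ ⟨y3, a3, b3, rfl⟩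
  exact h st hst y1 y2 y3 (PtC_unit a1 b1) (PtC_unit a2 b2) (PtC_unit a3 b3)

theorem OkD2.cover {par : Par} {C : List Step2} (ds : List Box3) (t : DT) {d : Box3}
    (h : cov ds t d = true) (H : ∀ d' ∈ ds, OkD2 par d' C) : OkD2 par d C := by
  induction t generalizing d with
  | leaf i =>
    have h' : (Nat.blt i ds.length && d.sub (ds.getD i Box3.unit)) = true := h
    simp only [Box3.sub, Bool.and_eq_true, Nat.blt_eq] at h'
    obtain ⟨hi, ⟨h1, h2⟩, h3⟩ := h'
    have hm : ds.getD i Box3.unit ∈ ds := by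
      rw [List.getD_eq_getElem _ _ hi]
      exact List.getElem_mem hi
    intro st hst r t mu a b c
    exact H _ hm st hst r t mu (Iv.mem_of_sub h1 a) (Iv.mem_of_sub h2 b) (Iv.mem_of_sub h3 c)
  | split k l r ihl ihr =>
    have h' : (cov ds l (d.l k) && cov ds r (d.r k)) = true := h
    rw [Bool.and_eq_true] at h'
    intro st hst y1 y2 y3 a b c
    rcases PtC_split k a b c with ⟨a, b, c⟩ | ⟨a, b, c⟩
    · exact ihl h'.1 st hst _ _ _ a b c
    · exact ihr h'.2 st hst _ _ _ a b c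

/-- As `PtAll.of_okD`, with `F = ptW par st mu D X` (`ptF_perm`, `continuous_ptF`). -/
theorem PtAll2.of_okD {par : Par} (hw : par.wf = true) {C : List Step2}
    (h : OkD2 par ⟨⟨0, 1, 1⟩, ⟨0, 1, 1⟩, par.mu⟩ C) : PtAll2 par C := by

  intro st hst mu D X hmu hD hX0 hX hX' p hp
  have hm : 0 < par.m := by
    simp only [Par.wf, Bool.and_eq_true, Nat.blt_eq] at hw
    exact hw.1.1.1.1
  set F := ptW par st mu D X with hF
  have pos : ∀ q ∈ Spx 3, (∀ i, 0 < q i) → F q ≤ 0 := by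
    intro q hq hq0
    let σ : Equiv.Perm (Fin 3) := (Fin.revPerm : Equiv.Perm (Fin 3)).trans (Tuple.sort q)
    have hmono := Tuple.monotone_sort q
    have hq' : (fun i => q (σ i)) ∈ Spx 3 :=
      ⟨fun i => hq.1 _, by rw [Equiv.sum_comp σ q]; exact hq.2⟩
    obtain ⟨r, t, a1, a2, a3, a4, e⟩ := exists_pt hm hq' (hq0 _)
      (hmono (show Fin.rev (2 : Fin 3) ≤ Fin.rev 1 by decide))
      (hmono (show Fin.rev (1 : Fin 3) ≤ Fin.rev 0 by decide))
    have e' : F q = F fun i => q (σ i) := by simp only [hF, ptW, ptS, ptF_perm]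
    rw [e', e]
    exact h st hst r t mu (PtC_unit a1 a2) (PtC_unit a3 a4) hmu D X hmu hD hX0 hX hX'
  have hc0 : Continuous F :=
    (continuous_const.mul ((continuous_ptF _ _ _ _ _ _ _).sub continuous_const)).add
      (continuous_const.mul ((continuous_ptF _ _ _ _ _ _ _).sub continuous_const))
  have hc : Continuous fun ε : ℝ => F fun i => (1 - ε) * p i + ε := hc0.comp (by fun_prop)
  have ht : Filter.Tendsto (fun ε : ℝ => F fun i => (1 - ε) * p i + ε) (nhdsWithin 0 (Set.Ioi 0))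
      (nhds (F p)) := by
    have := (hc.tendsto 0).mono_left (nhdsWithin_le_nhds (s := Set.Ioi 0))
    simpa only [sub_zero, one_mul, add_zero] using this
  refine le_of_tendsto ht ?_
  filter_upwards [Ioo_mem_nhdsGT (zero_lt_one (α := ℝ))] with ε hε
  have hp0 : ∀ i, 0 < (1 - ε) * p i + ε := fun i =>
    add_pos_of_nonneg_of_pos (mul_nonneg (sub_nonneg.2 hε.2.le) (hp.1 i)) hε.1
  refine pos _ ⟨fun i => (hp0 i).le, ?_⟩ hp0
  have := hp.2
  simp only [Fin.sum_univ_three] at this ⊢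
  push_cast at this ⊢
  linear_combination (1 - ε) * this

end Crest.Agent.R163
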