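import Crest.Agent.R163.Q3.Use
import Crest.Agent.R163.Q3.D.b4L.Main
import Crest.Agent.R163.Q3.D.b4G.Main
import Crest.Agent.R163.Q3.D.B5.Main
import Crest.Agent.R163.Q3.D.B6.Main
import Crest.Agent.R163.Q3.D.B7.Main
import Crest.Agent.R163.Q3.D.B8.Main
import Crest.Agent.R163.Q3.D.R1.Main
import Crest.Agent.R163.Q3.D.R2.Main
import Crest.Agent.R163.Q3.D.R3.Main
import Crest.Agent.R163.Q3.D.P0.Main
import Crest.Agent.R163.Q3.D.P1.Main
import Crest.Agent.R163.Q3.D.P2.Main
import Crest.Agent.R163.Q3.D.P3.Main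
import Crest.Agent.R163.Q3.D.P4.Main
import Crest.Agent.R163.Q3.D.P5.Main
import Crest.Agent.R163.Q3.D.P6.Main
import Crest.Agent.R163.Q3.D.P7a.Main
import Crest.Agent.R163.Q3.D.S0.Main
import Crest.Agent.R163.Q3.D.S1.Main
import Crest.Agent.R163.Q3.D.S2.Main
import Crest.Agent.R163.Q3.D.L9.Main
import Crest.Agent.R163.Q3.D.L10.Main
import Crest.Agent.R163.Q3.D.P8G.Main
import Crest.Agent.R163.Q3.D.P8L.Main

/-!
# The critical antiferromagnetic cases, from the certificate trees
-/

set_option autoImplicit false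

namespace Crest.Agent.R163

theorem crit_four : Xr 4 (1 / 2) ≤ 0 := by
  have h1 : Xr 4 (1 / 2) * (b4G.par.XS : ℝ) ≤ ((2703 : ℕ) : ℝ) :=
    Xr_le_of_inf b4G.hw b4G.main (by norm_num) (by norm_num) le_rfl (by norm_num)
      (Iv.mem_hi (by decide) (by norm_num [b4G.par])) (by norm_num [Par.dOK, b4G.par])
      (Or.inr (by decide)) (Or.inr (by decide)) (use_two (Xr_le 4 (by norm_num) le_rfl))
  exact use_zero (n := b4L.par.XS) (by decide)
    (Xr_le_of_inf b4L.hw b4L.main (by norm_num) (by norm_num) le_rfl (by norm_num)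
      (Iv.mem_hi (by decide) (by norm_num [b4L.par])) (by norm_num [Par.dOK, b4L.par])
      (Or.inr (by decide)) (Or.inr (by decide)) h1)

theorem crit_reg (b : ℕ) (hb : 4 ≤ b) (mu : ℝ) (h0 : 0 < mu) (h1 : mu ≤ 1 / 2)
    (hD : (b : ℝ) * mu ^ 2 = 1) : Xr b mu ≤ 0 := by
  rcases (by omega : b = 4 ∨ b = 5 ∨ b = 6 ∨ b = 7 ∨ b = 8 ∨ (9 ≤ b ∧ b ≤ 10) ∨ (11 ≤ b ∧ b ≤ 15) ∨
    (16 ≤ b ∧ b ≤ 28) ∨ 29 ≤ b) with h | h | h | h | h | h | h | h | h
  · exact (Xr_mono h.le h0.le h1 le_rfl).trans crit_four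
  · exact Xr_fin B5.hw B5.main (by decide) h0 h1 hD h.ge (Or.inr h.le)
  · exact Xr_fin B6.hw B6.main (by decide) h0 h1 hD h.ge (Or.inr h.le)
  · exact Xr_fin B7.hw B7.main (by decide) h0 h1 hD h.ge (Or.inr h.le)
  · exact Xr_fin B8.hw B8.main (by decide) h0 h1 hD h.ge (Or.inr h.le)
  · exact Xr_fin R3.hw R3.main (by decide) h0 h1 hD h.1 (Or.inr h.2)
  · exact Xr_fin R2.hw R2.main (by decide) h0 h1 hD h.1 (Or.inr h.2)
  · exact Xr_fin R1.hw R1.main (by decide) h0 h1 hD h.1 (Or.inr h.2)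
  · exact Xr_fin P0.hw P0.main (by decide) h0 h1 hD h (Or.inl rfl)

theorem crit_gw (d mu : ℝ) (h0 : 0 < mu) (h1 : mu ≤ 1 / 2) (hD : d * mu ^ 2 = 1) :
    Xg d mu ≤ 0 := by
  have h2 := Xg_le (use_pos hD) h0.le h1
  rcases le_or_gt mu (3 / 16) with a0 | a0
  · exact Xg_fin P0.hw P0.main (by decide) h0 h1 hD (by norm_num [P0.par]; linarith)
      (by norm_num [P0.par]; linarith) (use_two h2)
  rcases le_or_gt mu (4 / 16) with a1 | a1
  · exact Xg_fin P1.hw P1.main (by decide) h0 h1 hD (by norm_num [P1.par]; linarith)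
      (by norm_num [P1.par]; linarith) (use_two h2)
  rcases le_or_gt mu (5 / 16) with a2 | a2
  · exact Xg_fin P2.hw P2.main (by decide) h0 h1 hD (by norm_num [P2.par]; linarith)
      (by norm_num [P2.par]; linarith) (use_two h2)
  rcases le_or_gt mu (6 / 16) with a3 | a3
  · exact Xg_fin P3.hw P3.main (by decide) h0 h1 hD (by norm_num [P3.par]; linarith)
      (by norm_num [P3.par]; linarith) (use_two h2)
  rcases le_or_gt mu (7 / 16) with a4 | a4
  · exact Xg_fin P4.hw P4.main (by decide) h0 h1 hD (by norm_num [P4.par]; linarith)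
      (by norm_num [P4.par]; linarith) (use_two h2)
  rcases le_or_gt mu (15 / 32) with a5 | a5
  · exact Xg_fin P5.hw P5.main (by decide) h0 h1 hD (by norm_num [P5.par]; linarith)
      (by norm_num [P5.par]; linarith) (use_two h2)
  rcases le_or_gt mu (31 / 64) with a6 | a6
  · exact Xg_fin P6.hw P6.main (by decide) h0 h1 hD (by norm_num [P6.par]; linarith)
      (by norm_num [P6.par]; linarith) (use_two h2)
  rcases le_or_gt mu (127 / 256) with a7 | a7
  · exact Xg_fin P7a.hw P7a.main (by decide) h0 h1 hD (by norm_num [P7a.par]; linarith)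
      (by norm_num [P7a.par]; linarith) (use_two h2)
  rcases le_or_gt mu (255 / 512) with a8 | a8
  · exact Xg_fin L10.hw L10.main (by decide) h0 h1 hD (by norm_num [L10.par]; linarith)
      (by norm_num [L10.par]; linarith)
      (Xg_dom S0.hw S0.main rfl rfl (by decide) (by decide) (by decide) (by decide) h0 hD
        (by norm_num [S0.par]; nlinarith) (by norm_num [S0.par]; linarith))
  rcases le_or_gt mu (511 / 1024) with a9 | a9
  · exact Xg_fin L9.hw L9.main (by decide) h0 h1 hD (by norm_num [L9.par]; linarith)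
      (by norm_num [L9.par]; linarith)
      (Xg_dom S1.hw S1.main rfl rfl (by decide) (by decide) (by decide) (by decide) h0 hD
        (by norm_num [S1.par]; nlinarith) (by norm_num [S1.par]; linarith))
  rcases le_or_gt mu (1023 / 2048) with a10 | a10
  · exact Xg_fin L9.hw L9.main (by decide) h0 h1 hD (by norm_num [L9.par]; linarith)
      (by norm_num [L9.par]; linarith)
      (Xg_dom S2.hw S2.main rfl rfl (by decide) (by decide) (by decide) (by decide) h0 hD
        (by norm_num [S2.par]; nlinarith) (by norm_num [S2.par]; linarith))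
  · exact Xg_fin P8L.hw P8L.main (by decide) h0 h1 hD (by norm_num [P8L.par]; linarith)
      (by norm_num [P8L.par]; linarith)
      (Xg_dom P8G.hw P8G.main rfl rfl (by decide) (by decide) (by decide) (by decide) h0 hD
        (by norm_num [P8G.par]; nlinarith) (by norm_num [P8G.par]; linarith))

end Crest.Agent.R163
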