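import Crest.Agent.R163.ExD

/-!
# The degradation order

`Dg L L'` says that `L'` is less informative than `L`: every bounded concave function of the
posterior has a larger expectation under `L'`.
-/

set_option autoImplicit false

namespace Crest.Agent.R163

open Crest.ProbabilityR.Broadcast

variable {q : ℕ} [NeZero q] {Ω Ω' Ω'' Ω''' : Type*}

/-- `L'` is degraded with respect to `L` -/
def Dg {q : ℕ} {Ω Ω' : Type*} (L : Ω → Fin q → ℝ) (L' : Ω' → Fin q → ℝ) : Prop :=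
  ∀ ψ : (Fin q → ℝ) → ℝ, ConcaveOn ℝ (Spx q) ψ → Bd ψ → E L ψ ≤ E L' ψ

theorem convex_Spx : Convex ℝ (Spx q) := by
  intro p hp p' hp' a b ha hb hab
  refine ⟨fun i => add_nonneg (mul_nonneg ha (hp.1 i)) (mul_nonneg hb (hp'.1 i)), ?_⟩
  simp only [Pi.add_apply, Pi.smul_apply, smul_eq_mul, Finset.sum_add_distrib, ← Finset.mul_sum,
    hp.2, hp'.2, ← add_mul, hab, one_mul]

theorem Dg.refl (L : Ω → Fin q → ℝ) : Dg L L := fun _ _ _ => le_rfl

theorem Dg.trans {L : Ω → Fin q → ℝ} {L' : Ω' → Fin q → ℝ} {L'' : Ω'' → Fin q → ℝ}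
    (h : Dg L L') (h' : Dg L' L'') : Dg L L'' := fun ψ a b => (h ψ a b).trans (h' ψ a b)

theorem Dg.equiv {L : Ω → Fin q → ℝ} {L' : Ω' → Fin q → ℝ} (h : Dg L L') (e : Ω'' ≃ Ω)
    (e' : Ω''' ≃ Ω') : Dg (fun o => L (e o)) (fun o => L' (e' o)) := by
  intro ψ a b
  rw [E_equiv, E_equiv]
  exact h ψ a b

/-- `hat ψ` is superadditive on the cone: if both averages are positive, the normalised `u + v`
is the convex combination of the normalised `u`, `v` with weights `av u / (av u + av v)`, ...;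
if `av u = 0` then `u = 0`. -/
theorem hat_add_ge {ψ : (Fin q → ℝ) → ℝ} (hψ : ConcaveOn ℝ (Spx q) ψ) {u v : Fin q → ℝ}
    (hu : ∀ i, 0 ≤ u i) (hv : ∀ i, 0 ≤ v i) :
    hat ψ u + hat ψ v ≤ hat ψ (fun i => u i + v i) := by
  have h0 : hat ψ (fun _ => 0) = 0 := by simp [hat, av]
  by_cases h1 : av u = 0
  · obtain rfl : u = fun _ => 0 := funext (eq_zero_of_av hu h1)
    simp [h0]
  by_cases h2 : av v = 0
  · obtain rfl : v = fun _ => 0 := funext (eq_zero_of_av hv h2)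
    simp [h0]
  have h3 := (av_nonneg hu).lt_of_ne' h1
  have h4 := (av_nonneg hv).lt_of_ne' h2
  have h5 : av (fun i => u i + v i) = av u + av v := by
    simp only [av, Finset.sum_add_distrib, add_div]
  have h6 := hψ.2 (norm_mem hu h1) (norm_mem hv h2) (show 0 ≤ av u / (av u + av v) by positivity)
    (show 0 ≤ av v / (av u + av v) by positivity) (by field_simp)
  have h7 : ((av u / (av u + av v)) • (fun i => u i / av u) +
      (av v / (av u + av v)) • fun i => v i / av v) = fun i => (u i + v i) / (av u + av v) := by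
    funext i
    simp only [Pi.add_apply, Pi.smul_apply, smul_eq_mul]
    field_simp
  rw [h7, smul_eq_mul, smul_eq_mul, div_mul_eq_mul_div, div_mul_eq_mul_div, ← add_div,
    div_le_iff₀' (by positivity)] at h6
  simpa only [hat, h5] using h6

/-- from `hat_add_ge` and `hat_smul`. -/
theorem concaveOn_hat_mul {ψ : (Fin q → ℝ) → ℝ} (hψ : ConcaveOn ℝ (Spx q) ψ) {u : Fin q → ℝ}
    (hu : ∀ i, 0 ≤ u i) : ConcaveOn ℝ (Spx q) (fun p => hat ψ (fun i => p i * u i)) := by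
  refine ⟨convex_Spx, fun p hp p' hp' a b ha hb _ => ?_⟩
  simp only [smul_eq_mul, ← hat_smul]
  refine (hat_add_ge hψ (fun i => mul_nonneg ha (mul_nonneg (hp.1 i) (hu i)))
    fun i => mul_nonneg hb (mul_nonneg (hp'.1 i) (hu i))).trans_eq ?_
  congr 1
  funext i
  simp only [Pi.add_apply, Pi.smul_apply, smul_eq_mul]
  ring

/-- `|hat ψ (p * u)| ≤ C * av (p * u) ≤ C * q` (`abs_hat_le`, `av_mul_le`). -/
theorem bd_hat_mul {ψ : (Fin q → ℝ) → ℝ} (hψ : Bd ψ) :
    ∃ C : ℝ, ∀ p ∈ Spx q, ∀ u ∈ Spx q, |hat ψ (fun i => p i * u i)| ≤ C := by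
  obtain ⟨C, hC⟩ := hψ
  exact ⟨C * q, fun p hp u hu => ExB_abs_hat_le hC hp hu⟩

/-- `ch lam` is affine and maps `Spx q` to itself. -/
theorem concaveOn_ch {lam : ℝ} (hc : ∀ i j : Fin q, 0 ≤ channel q lam i j)
    {ψ : (Fin q → ℝ) → ℝ} (hψ : ConcaveOn ℝ (Spx q) ψ) :
    ConcaveOn ℝ (Spx q) (fun p => ψ (ch lam p)) := by
  refine ⟨convex_Spx, fun p hp p' hp' a b ha hb hab => ?_⟩
  refine (hψ.2 (ch_mem hc hp) (ch_mem hc hp') ha hb hab).trans_eq ?_
  congr 1
  funext i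
  simp only [ch, Pi.add_apply, Pi.smul_apply, smul_eq_mul, Finset.mul_sum, ← Finset.sum_add_distrib]
  exact Finset.sum_congr rfl fun j _ => by ring

/-- `E L (fun p => p i) = 1` (`hat (fun p => p i) u = u i` for `u ≥ 0`). -/
theorem E_coord {L : Ω → Fin q → ℝ} (hL : Ex L) (i : Fin q) : E L (fun p => p i) = 1 := by
  rw [← (hL.hasSum i).tsum_eq]
  exact tsum_congr fun o => ExB_mul_div (hL.nonneg o) i

/-- `ψ p ≥ ∑ o, (p o / q) * ψ (vtx o)` (`ConcaveOn.le_map_sum`), then `E_coord`, `E_leaf`. -/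
theorem Dg.leaf {L : Ω → Fin q → ℝ} (hL : Ex L) : Dg (leaf q) L := by
  intro ψ hψ hb
  have hq : (0 : ℝ) < q := Nat.cast_pos.2 (NeZero.pos q)
  have h1 : ∀ o : Fin q, Bd fun p : Fin q → ℝ => ψ (vtx o) / q * p o := fun o =>
    Bd.of_continuous (by fun_prop)
  calc E (R163.leaf q) ψ = E L fun p => ∑ o, ψ (vtx o) / q * p o := by
        rw [E_sum hL _ fun o _ => h1 o, E_leaf, Finset.sum_div]
        simp only [E_const_mul, E_coord hL, mul_one]
    _ ≤ E L ψ := E_mono hL (Bd.sum _ fun o _ => h1 o) hb fun p hp => by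
        have h2 := hψ.le_map_sum (t := Finset.univ) (w := fun o => p o / q) (p := vtx)
          (fun o _ => div_nonneg (hp.1 o) hq.le)
          (by rw [← Finset.sum_div, hp.2, div_self hq.ne']) fun o _ => vtx_mem o
        have h3 : ∑ o, (p o / q) • vtx o = p := by
          funext i
          simp [Finset.sum_apply, vtx, hq.ne']
        rw [h3] at h2
        exact (Finset.sum_congr rfl fun o _ => by rw [smul_eq_mul]; ring).trans_le h2

/-- Jensen by symmetry: `q! * E L ψ = E L (∑ σ, ψ (p ∘ σ)) ≤ q! * ψ 1` since the average of the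
`p ∘ σ` is `1` (`E_symm`, `sum_perm_apply`, `ConcaveOn.le_map_sum`). -/
theorem Dg.triv {L : Ω → Fin q → ℝ} (hL : Ex L) : Dg L (triv q) := by
  intro ψ hψ hb
  have hq : (0 : ℝ) < q.factorial := Nat.cast_pos.2 q.factorial_pos
  rw [E_triv, ← mul_le_mul_iff_right₀ hq, ← E_symm hL hb, ← E_const hL (_ * _)]
  refine E_mono hL (Bd.sum _ fun σ _ => hb.perm σ) (Bd.const _) fun p hp => ?_
  have h2 := hψ.le_map_sum (t := Finset.univ)
    (w := fun _ : Equiv.Perm (Fin q) => (q.factorial : ℝ)⁻¹) (p := fun σ i => p (σ i))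
    (fun _ _ => by positivity) (by simp [Fintype.card_perm, hq.ne']) fun σ _ => perm_mem hp σ
  have h3 : (∑ σ : Equiv.Perm (Fin q), (q.factorial : ℝ)⁻¹ • fun i => p (σ i)) = fun _ => 1 := by
    funext i
    simp [Finset.sum_apply, ← Finset.mul_sum, sum_perm_apply hp, hq.ne']
  simpa only [h3, smul_eq_mul, ← Finset.mul_sum, inv_mul_le_iff₀ hq] using h2

/-- `E_pr`; for fixed `p` the function `p' ↦ hat ψ (p * p')` is concave and bounded; `E_mono`. -/
theorem Dg.pr_right {L : Ω → Fin q → ℝ} {L' : Ω' → Fin q → ℝ} {L'' : Ω'' → Fin q → ℝ}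
    (hL : Ex L) (hL' : Ex L') (hL'' : Ex L'') (h : Dg L' L'') : Dg (pr L L') (pr L L'') := by
  intro ψ hψ hb
  obtain ⟨C, hC⟩ := bd_hat_mul hb
  rw [E_pr hL hL' hb, E_pr hL hL'' hb]
  refine E_mono hL ⟨C, fun p hp => abs_E_le hL' (hC p hp)⟩ ⟨C, fun p hp => abs_E_le hL'' (hC p hp)⟩
    fun p hp => h _ ?_ ⟨C, hC p hp⟩
  simpa only [mul_comm] using concaveOn_hat_mul hψ hp.1

/-- twice `Dg.pr_right`, with `E_pr_comm`. -/
theorem Dg.pr {L : Ω → Fin q → ℝ} {L' : Ω' → Fin q → ℝ} {M : Ω'' → Fin q → ℝ}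
    {M' : Ω''' → Fin q → ℝ} (hL : Ex L) (hL' : Ex L') (hM : Ex M) (hM' : Ex M')
    (h : Dg L L') (h' : Dg M M') : Dg (pr L M) (pr L' M') := by
  refine (Dg.pr_right hL hM hM' h').trans fun ψ a b => ?_
  rw [E_pr_comm L, E_pr_comm L']
  exact Dg.pr_right hM' hL hL' h ψ a b

theorem Dg.chL {lam : ℝ} (hc : ∀ i j : Fin q, 0 ≤ channel q lam i j) {L : Ω → Fin q → ℝ}
    {L' : Ω' → Fin q → ℝ} (hL : Ex L) (hL' : Ex L') (h : Dg L L') :
    Dg (chL lam L) (chL lam L') := by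
  intro ψ a b
  rw [E_chL lam hL, E_chL lam hL']
  exact h _ (concaveOn_ch hc a) (b.ch hc)

/-- `ψ (ch θ p) = ψ (θ p + (1 - θ) 1) ≥ θ ψ p + (1 - θ) ψ 1` and `ψ 1 ≥ E L ψ` (`Dg.triv`). -/
theorem Dg.ch_self {θ : ℝ} (h0 : 0 ≤ θ) (h1 : θ ≤ 1) {L : Ω → Fin q → ℝ} (hL : Ex L) :
    Dg L (R163.chL θ L) := by
  intro ψ a b
  have h2 := Dg.triv hL ψ a b
  have h3 := E_mono hL (φ := fun p => θ * ψ p + (1 - θ) * ψ fun _ => 1)
    ((b.const_mul θ).add (Bd.const _)) (b.ch (channel_nonneg h0 h1)) fun p hp => by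
      refine (a.2 hp one_mem_Spx h0 (sub_nonneg.2 h1) (add_sub_cancel _ _)).trans_eq ?_
      congr 1
      funext i
      simp [ch_apply, av_of_mem hp]
  rw [E_add hL (b.const_mul θ) (Bd.const _), E_const_mul, E_const hL] at h3
  rw [E_triv] at h2
  rw [E_chL θ hL]
  nlinarith

theorem chL_chL (θ lam : ℝ) (L : Ω → Fin q → ℝ) : chL θ (chL lam L) = chL (θ * lam) L := by
  funext o i
  simp only [chL, ch_apply, av_ch]
  ring

theorem Dg.pw {L : Ω → Fin q → ℝ} {L' : Ω' → Fin q → ℝ} (hL : Ex L) (hL' : Ex L')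
    (h : Dg L L') (c : ℕ) : Dg (pw c L) (pw c L') := by
  induction c with
  | zero =>
    obtain ⟨e, he⟩ := pw_zero L
    obtain ⟨e', he'⟩ := pw_zero L'
    rw [he, he']
    exact (Dg.refl _).equiv e e'
  | succ c ih =>
    obtain ⟨e, he⟩ := pw_succ c L
    obtain ⟨e', he'⟩ := pw_succ c L'
    rw [he, he']
    exact (Dg.pr hL hL' (hL.pw c) (hL'.pw c) h ih).equiv e e'

/-- one copy fewer: `pr L (pw c L)` is above `pr triv (pw c L)`, which has the same `E` as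
`pw c L`. -/
theorem Dg.pw_le {L : Ω → Fin q → ℝ} (hL : Ex L) {c c' : ℕ} (h : c ≤ c') :
    Dg (R163.pw c' L) (R163.pw c L) := by
  induction c', h using Nat.le_induction with
  | base => exact Dg.refl _
  | succ c' _ ih =>
    refine Dg.trans ?_ ih
    obtain ⟨e, he⟩ := pw_succ c' L
    have := (Dg.pr hL Ex.triv (hL.pw c') (hL.pw c') (Dg.triv hL) (Dg.refl _)).equiv e
      (Equiv.uniqueProd _ Unit).symm
    rw [he]
    convert this using 1
    funext o i
    simp [R163.pr, R163.triv]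

theorem Dg.mixL {a : ℕ → ℝ} (ha : ∀ c, 0 ≤ a c) (h1 : HasSum a 1) {L : Ω → Fin q → ℝ}
    {L' : Ω' → Fin q → ℝ} (hL : Ex L) (hL' : Ex L') (h : Dg L L') :
    Dg (mixL a L) (mixL a L') := by
  intro ψ c b
  exact hasSum_le (fun n => mul_le_mul_of_nonneg_left (h.pw hL hL' n ψ c b) (ha n))
    (hasSum_mixL ha h1 hL b) (hasSum_mixL ha h1 hL' b)

/-- Stochastic monotonicity of the Poisson law: `pois d' n = ∑_{i+j=n} pois d i * pois (d'-d) j`
(binomial theorem), so `∑ pois d' n f n = ∑_{(i,j)} pois d i * pois (d'-d) j * f (i+j)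
≤ ∑_{(i,j)} pois d i * pois (d'-d) j * f i`. -/
theorem pois_antitone {d d' : ℝ} (hd : 0 ≤ d) (h : d ≤ d') {f : ℕ → ℝ} (hf : Antitone f)
    {C : ℝ} (hC : ∀ n, |f n| ≤ C) :
    ∑' n, pois d' n * f n ≤ ∑' n, pois d n * f n := by
  have hs : ∀ d, 0 ≤ d → Summable fun n => ‖pois d n * f n‖ := fun d hd =>
    ((hasSum_pois d).summable.mul_right C).of_nonneg_of_le (fun _ => norm_nonneg _) fun n => by
      rw [norm_mul, Real.norm_of_nonneg (pois_nonneg hd n)]
      exact mul_le_mul_of_nonneg_left (hC n) (pois_nonneg hd n)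
  have h1 := sub_nonneg.2 h
  have h2 : Summable fun n => ‖pois (d' - d) n‖ := (hasSum_pois _).summable.norm
  rw [← mul_one (∑' n, pois d n * f n), ← (hasSum_pois (d' - d)).tsum_eq,
    tsum_mul_tsum_eq_tsum_sum_antidiagonal_of_summable_norm (hs d hd) h2]
  refine Summable.tsum_le_tsum (fun n => ?_) (hs d' (hd.trans h)).of_norm
    (summable_norm_sum_mul_antidiagonal_of_summable_norm (hs d hd) h2).of_norm
  have h3 : pois d' n = ∑ m ∈ Finset.HasAntidiagonal.antidiagonal n, pois d m.1 * pois (d' - d) m.2 := by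
    rw [pois, show d' ^ n = (d + (d' - d)) ^ n by ring, (Commute.all _ _).add_pow', Finset.mul_sum,
      Finset.sum_div]
    refine Finset.sum_congr rfl fun m hm => ?_
    rw [← Finset.HasAntidiagonal.mem_antidiagonal.1 hm, nsmul_eq_mul, Nat.cast_add_choose, pois, pois,
      show -d' = -d + -(d' - d) by ring, Real.exp_add]
    field_simp
  rw [h3, Finset.sum_mul]
  refine Finset.sum_le_sum fun m hm => ?_
  rw [mul_right_comm _ (f _)]
  exact mul_le_mul_of_nonneg_left (hf (Finset.HasAntidiagonal.mem_antidiagonal.1 hm ▸ Nat.le_add_right _ _))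
    (mul_nonneg (pois_nonneg hd _) (pois_nonneg h1 _))

/-- `hasSum_mixL`, `Dg.pw_le`, `pois_antitone`, `abs_E_le`. -/
theorem Dg.pois_le {d d' : ℝ} (hd : 0 ≤ d) (h : d ≤ d') {L : Ω → Fin q → ℝ} (hL : Ex L) :
    Dg (R163.mixL (pois d') L) (R163.mixL (pois d) L) := by
  intro ψ a b
  rw [← (hasSum_mixL (pois_nonneg hd) (hasSum_pois d) hL b).tsum_eq,
    ← (hasSum_mixL (pois_nonneg (hd.trans h)) (hasSum_pois d') hL b).tsum_eq]
  obtain ⟨C, hC⟩ := id b
  exact pois_antitone hd h (fun c c' hc => Dg.pw_le hL hc ψ a b) fun n => abs_E_le (hL.pw n) hC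

/-- induction on `l` with `regL_zero`, `regL_succ`, `Dg.leaf`, `Dg.chL`, `Dg.pw`, `Dg.equiv`. -/
theorem Dg.reg_step {lam : ℝ} (hc : ∀ i j : Fin q, 0 ≤ channel q lam i j) (b l : ℕ) :
    Dg (regL q b lam l) (regL q b lam (l + 1)) := by
  induction l with
  | zero =>
    obtain ⟨e, he⟩ := regL_zero (q := q) b lam
    rw [he]
    exact (Dg.leaf (Ex.regL hc b 1)).equiv e (Equiv.refl _)
  | succ l ih =>
    obtain ⟨e, he⟩ := regL_succ (q := q) b lam l
    obtain ⟨e', he'⟩ := regL_succ (q := q) b lam (l + 1)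
    have := (((ih.chL hc (Ex.regL hc b _) (Ex.regL hc b _)).pw ((Ex.regL hc b _).chL hc)
      ((Ex.regL hc b _).chL hc) b)).equiv e e'
    rwa [← he, ← he'] at this

theorem Dg.gw_step {lam d : ℝ} (hc : ∀ i j : Fin q, 0 ≤ channel q lam i j) (hd : 0 ≤ d)
    (l : ℕ) : Dg (gwL q lam d l) (gwL q lam d (l + 1)) := by
  induction l with
  | zero =>
    rw [gwL_zero]
    exact Dg.leaf (Ex.gwL hc hd 1)
  | succ l ih =>
    have := (ih.chL hc (Ex.gwL hc hd _) (Ex.gwL hc hd _)).mixL (pois_nonneg hd) (hasSum_pois d)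
      ((Ex.gwL hc hd _).chL hc) ((Ex.gwL hc hd _).chL hc)
    rwa [← gwL_succ, ← gwL_succ] at this

theorem Dg_noise {lam θ : ℝ} (hc : ∀ i j : Fin q, 0 ≤ channel q lam i j)
    (hc' : ∀ i j : Fin q, 0 ≤ channel q (θ * lam) i j) (h0 : 0 ≤ θ) (h1 : θ ≤ 1)
    {L : Ω → Fin q → ℝ} {L' : Ω' → Fin q → ℝ} (hL : Ex L) (hL' : Ex L') (h : Dg L L') :
    Dg (chL lam L) (chL (θ * lam) L') :=
  (chL_chL θ lam L ▸ Dg.ch_self h0 h1 (hL.chL hc)).trans (h.chL hc' hL hL')

/-- fewer children and more noise (`chL_chL`, `Dg.ch_self`, `Dg.pw_le`). -/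
theorem Dg.reg_mono {lam θ : ℝ} (hc : ∀ i j : Fin q, 0 ≤ channel q lam i j)
    (hc' : ∀ i j : Fin q, 0 ≤ channel q (θ * lam) i j) (h0 : 0 ≤ θ) (h1 : θ ≤ 1) {b b' : ℕ}
    (hb : b ≤ b') (l : ℕ) : Dg (regL q b' lam l) (regL q b (θ * lam) l) := by
  induction l with
  | zero =>
    obtain ⟨e, he⟩ := regL_zero (q := q) b' lam
    obtain ⟨e', he'⟩ := regL_zero (q := q) b (θ * lam)
    rw [he, he']
    exact (Dg.refl _).equiv e e'
  | succ l ih =>
    obtain ⟨e, he⟩ := regL_succ (q := q) b' lam l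
    obtain ⟨e', he'⟩ := regL_succ (q := q) b (θ * lam) l
    rw [he, he']
    exact ((Dg.pw_le ((Ex.regL hc b' l).chL hc) hb).trans
      ((Dg_noise hc hc' h0 h1 (Ex.regL hc b' l) (Ex.regL hc' b l) ih).pw ((Ex.regL hc b' l).chL hc)
        ((Ex.regL hc' b l).chL hc') b)).equiv e e'

theorem Dg.gw_mono {lam θ d d' : ℝ} (hc : ∀ i j : Fin q, 0 ≤ channel q lam i j)
    (hc' : ∀ i j : Fin q, 0 ≤ channel q (θ * lam) i j) (h0 : 0 ≤ θ) (h1 : θ ≤ 1) (hd : 0 ≤ d)
    (hdd : d ≤ d') (l : ℕ) : Dg (gwL q lam d' l) (gwL q (θ * lam) d l) := by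
  have hd' := hd.trans hdd
  induction l with
  | zero =>
    rw [gwL_zero, gwL_zero]
    exact Dg.refl _
  | succ l ih =>
    rw [gwL_succ, gwL_succ]
    exact (Dg.pois_le hd hdd ((Ex.gwL hc hd' l).chL hc)).trans
      ((Dg_noise hc hc' h0 h1 (Ex.gwL hc hd' l) (Ex.gwL hc' hd l) ih).mixL (pois_nonneg hd)
        (hasSum_pois d) ((Ex.gwL hc hd' l).chL hc) ((Ex.gwL hc' hd l).chL hc'))

theorem concaveOn_neg_chi : ConcaveOn ℝ (Spx q) (fun p : Fin q → ℝ => -chi p) := by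
  refine ⟨convex_Spx, fun p _ p' _ a b ha hb hab => ?_⟩
  simp only [chi, smul_eq_mul, mul_neg, ← neg_add, neg_le_neg_iff, ← mul_div_assoc, ← add_div,
    Finset.mul_sum, ← Finset.sum_add_distrib, Pi.add_apply, Pi.smul_apply]
  refine div_le_div_of_nonneg_right (Finset.sum_le_sum fun i _ => ?_) (Nat.cast_nonneg _)
  obtain rfl : b = 1 - a := by linarith
  nlinarith [mul_nonneg (mul_nonneg ha hb) (sq_nonneg (p i - p' i))]

theorem Dg.chi_le {L : Ω → Fin q → ℝ} {L' : Ω' → Fin q → ℝ} (h : Dg L L') :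
    E L' chi ≤ E L chi := by
  simpa only [E_neg, neg_le_neg_iff] using h _ concaveOn_neg_chi Bd.chi.neg

end Crest.Agent.R163
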