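import Mathlib

/-!
# Kronecker substitution for polynomials with natural coefficients

A polynomial `P` in four variables with coefficients in `ℕ` is represented by the single natural
number `P (2^w, 2^(w D1), 2^(w D1 D2), 2^(w D1 D2 D3))`, together with a bound `l` for the sum of
its coefficients and bounds for its degrees in the first three variables.  `Rep c s k x` says
that `k` represents some polynomial whose value at the real point `s` is `x`.  If the
coefficients of `P` are below those of `Q` and `s ≥ 0`, then `P s ≤ Q s`; the comparison of all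
coefficients is one subtraction and one bitwise `and`.
-/

set_option autoImplicit false

namespace Crest.Agent.R163

structure Ctx where
  w : ℕ
  D1 : ℕ
  D2 : ℕ
  D3 : ℕ
  /-- the mask has `2^lg` lanes -/
  lg : ℕ

def Ctx.pt (c : Ctx) : Fin 4 → ℕ :=
  ![2 ^ c.w, 2 ^ (c.w * c.D1), 2 ^ (c.w * c.D1 * c.D2), 2 ^ (c.w * c.D1 * c.D2 * c.D3)]

structure K where
  n : ℕ
  l : ℕ
  d1 : ℕ
  d2 : ℕ
  d3 : ℕ

def Rep (c : Ctx) (s : Fin 4 → ℝ) (k : K) (x : ℝ) : Prop :=
  ∃ P : MvPolynomial (Fin 4) ℕ, k.n = MvPolynomial.eval c.pt P ∧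
    MvPolynomial.eval (fun _ => 1) P ≤ k.l ∧ P.degreeOf 0 ≤ k.d1 ∧ P.degreeOf 1 ≤ k.d2 ∧
    P.degreeOf 2 ≤ k.d3 ∧ x = MvPolynomial.eval₂ (Nat.castRingHom ℝ) s P

/-- maximum, evaluated with `Nat.ble` -/
def mx (a b : ℕ) : ℕ := cond (Nat.ble a b) b a

def K.cst (a : ℕ) : K := ⟨a, a, 0, 0, 0⟩
def K.v1 (c : Ctx) : K := ⟨Nat.shiftLeft 1 c.w, 1, 1, 0, 0⟩
def K.v2 (c : Ctx) : K := ⟨Nat.shiftLeft 1 (c.w * c.D1), 1, 0, 1, 0⟩
def K.v3 (c : Ctx) : K := ⟨Nat.shiftLeft 1 (c.w * c.D1 * c.D2), 1, 0, 0, 1⟩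
def K.v4 (c : Ctx) : K := ⟨Nat.shiftLeft 1 (c.w * c.D1 * c.D2 * c.D3), 1, 0, 0, 0⟩
def K.add (a b : K) : K :=
  ⟨Nat.add a.n b.n, Nat.add a.l b.l, mx a.d1 b.d1, mx a.d2 b.d2, mx a.d3 b.d3⟩
def K.mul (a b : K) : K :=
  ⟨Nat.mul a.n b.n, Nat.mul a.l b.l, Nat.add a.d1 b.d1, Nat.add a.d2 b.d2, Nat.add a.d3 b.d3⟩
def K.smul (t : ℕ) (a : K) : K := ⟨Nat.mul t a.n, Nat.mul t a.l, a.d1, a.d2, a.d3⟩
def K.pow (a : K) (e : ℕ) : K :=
  ⟨Nat.pow a.n e, Nat.pow a.l e, Nat.mul e a.d1, Nat.mul e a.d2, Nat.mul e a.d3⟩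
/-- the value `n` with the bounds of `b` -/
def K.wn (b : K) (n : ℕ) : K := ⟨n, b.l, b.d1, b.d2, b.d3⟩
/-- common bounds -/
def K.sup (a b : K) : K := ⟨0, mx a.l b.l, mx a.d1 b.d1, mx a.d2 b.d2, mx a.d3 b.d3⟩
/-- common bounds of a list -/
def K.supL (ks : List K) : K := List.rec (motive := fun _ => K) (K.cst 0) (fun k _ ih => K.sup k ih) ks
/-- `a0 + a1 * v` -/
def K.lin (a0 a1 : ℕ) (v : K) : K := K.add (K.cst a0) (K.smul a1 v)

/-- top bit of each of `2^k` lanes of width `w` -/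
def mkMask (w k : ℕ) : ℕ :=
  Nat.rec (motive := fun _ => ℕ) (Nat.shiftLeft 1 (w - 1))
    (fun j ih => Nat.lor ih (Nat.shiftLeft ih (w * 2 ^ j))) k

def Ctx.mask (c : Ctx) : ℕ := mkMask c.w c.lg
def Ctx.top (c : Ctx) : ℕ := Nat.shiftLeft 1 (c.w * 2 ^ c.lg)

/-- lanewise comparison -/
def rawLe (mask top a b : ℕ) : Bool :=
  Nat.ble a b && Nat.blt b top && Nat.beq (Nat.land (Nat.sub b a) mask) 0

/-- the bounds of `k` are compatible with the lanes -/
def K.fits (c : Ctx) (k : K) : Bool :=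
  Nat.blt 0 c.w && Nat.blt k.l (Nat.shiftLeft 1 (c.w - 1)) && Nat.blt k.d1 c.D1 &&
    Nat.blt k.d2 c.D2 && Nat.blt k.d3 c.D3

def K.le (c : Ctx) (a b : K) : Bool :=
  K.fits c a && K.fits c b && rawLe c.mask c.top a.n b.n

/-- map, by the recursor -/
def mapR {α β : Type} (f : α → β) (l : List α) : List β :=
  List.rec (motive := fun _ => List β) [] (fun a _ ih => f a :: ih) l

/-- sum, by the recursor -/
def sumR (l : List ℕ) : ℕ := List.rec (motive := fun _ => ℕ) 0 (fun a _ ih => Nat.add a ih) l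

/-- all, by the recursor -/
def allR {α : Type} (f : α → Bool) (l : List α) : Bool :=
  List.rec (motive := fun _ => Bool) true (fun a _ ih => f a && ih) l

/-- `∑ c i * f i` (terms with `c i = 0` are skipped) -/
def dot (cs : List ℕ) : List ℕ → ℕ :=
  List.rec (motive := fun _ => List ℕ → ℕ) (fun _ => 0)
    (fun c _ ih fs => List.rec (motive := fun _ => ℕ) 0
      (fun f fs' _ => Nat.rec (motive := fun _ => ℕ) (ih fs')
        (fun _ _ => Nat.add (ih fs') (Nat.mul c f)) c) fs) cs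

noncomputable def dotR (cs : List ℕ) (xs : List ℝ) : ℝ :=
  (List.zipWith (fun (c : ℕ) (x : ℝ) => (c : ℝ) * x) cs xs).sum

/-- `[a^d, a^(d-1) b, ..., b^d]` -/
def K.bas (a b : K) (d : ℕ) : List K :=
  mapR (fun i => K.mul (K.pow a (d - i)) (K.pow b i)) (List.range (d + 1))

noncomputable def basR (a b : ℝ) (d : ℕ) : List ℝ :=
  (List.range (d + 1)).map fun i => a ^ (d - i) * b ^ i

/-- coefficient array of a polynomial in three pairs of homogeneous variables -/
abbrev P3 := List (List (List ℕ))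

def P3.tot (P : P3) : ℕ := sumR (mapR (fun Q => sumR (mapR sumR Q)) P)

def P3.evN (P : P3) (A B C : List ℕ) : ℕ :=
  dot (mapR (fun Q => dot (mapR (fun r => dot r A) Q) B) P) C

noncomputable def dotRR (xs ys : List ℝ) : ℝ := (List.zipWith (fun x y : ℝ => x * y) xs ys).sum

noncomputable def P3.evR (P : P3) (A B C : List ℝ) : ℝ :=
  dotRR (P.map fun Q => dotRR (Q.map fun r => dotR r A) B) C

/-- evaluation on bases with common bounds; `cs` bounds the sum of the coefficients -/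
def P3.evK (P : P3) (cs : ℕ) (A B C : List K) : K :=
  (K.smul cs (K.mul (K.mul (K.supL A) (K.supL B)) (K.supL C))).wn
    (P.evN (mapR K.n A) (mapR K.n B) (mapR K.n C))

theorem mx_eq (a b : ℕ) : mx a b = max a b := by
  unfold mx
  cases h : Nat.ble a b
  · have : ¬ a ≤ b := fun h' => by rw [Nat.ble_eq_true_of_le h'] at h; exact Bool.noConfusion h
    exact (max_eq_left (not_le.1 this).le).symm
  · exact (max_eq_right (Nat.le_of_ble_eq_true h)).symm

theorem mapR_eq {α β : Type} (f : α → β) (l : List α) : mapR f l = l.map f := by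
  induction l with
  | nil => rfl
  | cons a l ih => exact congrArg (f a :: ·) ih

theorem sumR_eq (l : List ℕ) : sumR l = l.sum := by
  induction l with
  | nil => rfl
  | cons a l ih => exact congrArg (a + ·) ih

theorem allR_eq {α : Type} (f : α → Bool) (l : List α) : allR f l = l.all f := by
  induction l with
  | nil => rfl
  | cons a l ih => exact congrArg (f a && ·) ih

theorem dot_eq (cs fs : List ℕ) : dot cs fs = (List.zipWith (· * ·) cs fs).sum := by
  induction cs generalizing fs with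
  | nil => rfl
  | cons a cs ih =>
    cases fs with
    | nil => rfl
    | cons f fs =>
      rw [List.zipWith_cons_cons, List.sum_cons, ← ih]
      cases a with
      | zero => rw [zero_mul, zero_add]; rfl
      | succ a => exact add_comm _ _

variable {c : Ctx} {s : Fin 4 → ℝ}

theorem Rep.nonneg (hs : ∀ i, 0 ≤ s i) {k : K} {x : ℝ} (h : Rep c s k x) : 0 ≤ x := by
  obtain ⟨P, -, -, -, -, -, rfl⟩ := h
  rw [MvPolynomial.eval₂_eq']
  exact Finset.sum_nonneg fun d _ => mul_nonneg (Nat.cast_nonneg _)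
    (Finset.prod_nonneg fun i _ => pow_nonneg (hs i) _)

theorem Rep.congr {k : K} {x y : ℝ} (h : Rep c s k x) (e : x = y) : Rep c s k y := e ▸ h

theorem Rep.mono {k k' : K} {x : ℝ} (h : Rep c s k x) (hn : k'.n = k.n) (hl : k.l ≤ k'.l)
    (h1 : k.d1 ≤ k'.d1) (h2 : k.d2 ≤ k'.d2) (h3 : k.d3 ≤ k'.d3) : Rep c s k' x := by
  obtain ⟨P, a0, a1, a2, a3, a4, a5⟩ := h
  exact ⟨P, hn.trans a0, a1.trans hl, a2.trans h1, a3.trans h2, a4.trans h3, a5⟩

theorem Rep.cst (a : ℕ) : Rep c s (K.cst a) a := by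
  exact ⟨MvPolynomial.C a, by simp [K.cst], by simp [K.cst], (MvPolynomial.degreeOf_C _ _).le,
    (MvPolynomial.degreeOf_C _ _).le, (MvPolynomial.degreeOf_C _ _).le, by simp⟩

theorem Rep.v1 : Rep c s (K.v1 c) (s 0) := by
  refine ⟨MvPolynomial.X 0, ?_, by simp [K.v1], by simp [K.v1, MvPolynomial.degreeOf_X],
    by simp [K.v1, MvPolynomial.degreeOf_X], by simp [K.v1, MvPolynomial.degreeOf_X], by simp⟩
  rw [MvPolynomial.eval_X]
  exact Nat.one_shiftLeft _

theorem Rep.v2 : Rep c s (K.v2 c) (s 1) := by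
  refine ⟨MvPolynomial.X 1, ?_, by simp [K.v2], by simp [K.v2, MvPolynomial.degreeOf_X],
    by simp [K.v2, MvPolynomial.degreeOf_X], by simp [K.v2, MvPolynomial.degreeOf_X], by simp⟩
  rw [MvPolynomial.eval_X]
  exact Nat.one_shiftLeft _

theorem Rep.v3 : Rep c s (K.v3 c) (s 2) := by
  refine ⟨MvPolynomial.X 2, ?_, by simp [K.v3], by simp [K.v3, MvPolynomial.degreeOf_X],
    by simp [K.v3, MvPolynomial.degreeOf_X], by simp [K.v3, MvPolynomial.degreeOf_X], by simp⟩
  rw [MvPolynomial.eval_X]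
  exact Nat.one_shiftLeft _

theorem Rep.v4 : Rep c s (K.v4 c) (s 3) := by
  refine ⟨MvPolynomial.X 3, ?_, by simp [K.v4], by simp [K.v4, MvPolynomial.degreeOf_X],
    by simp [K.v4, MvPolynomial.degreeOf_X], by simp [K.v4, MvPolynomial.degreeOf_X], by simp⟩
  rw [MvPolynomial.eval_X]
  exact Nat.one_shiftLeft _

theorem Rep.add {a b : K} {x y : ℝ} (ha : Rep c s a x) (hb : Rep c s b y) :
    Rep c s (a.add b) (x + y) := by
  obtain ⟨P, a0, a1, a2, a3, a4, a5⟩ := ha
  obtain ⟨Q, b0, b1, b2, b3, b4, b5⟩ := hb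
  refine ⟨P + Q, ?_, ?_, ?_, ?_, ?_, by rw [MvPolynomial.eval₂_add, a5, b5]⟩
  · rw [map_add, ← a0, ← b0]; rfl
  · rw [map_add]; exact add_le_add a1 b1
  all_goals
    simp only [K.add, mx_eq]
    exact (MvPolynomial.degreeOf_add_le _ _ _).trans (max_le_max ‹_› ‹_›)

theorem Rep.mul {a b : K} {x y : ℝ} (ha : Rep c s a x) (hb : Rep c s b y) :
    Rep c s (a.mul b) (x * y) := by
  obtain ⟨P, a0, a1, a2, a3, a4, a5⟩ := ha
  obtain ⟨Q, b0, b1, b2, b3, b4, b5⟩ := hb
  refine ⟨P * Q, ?_, ?_, (MvPolynomial.degreeOf_mul_le _ _ _).trans (add_le_add a2 b2),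
    (MvPolynomial.degreeOf_mul_le _ _ _).trans (add_le_add a3 b3),
    (MvPolynomial.degreeOf_mul_le _ _ _).trans (add_le_add a4 b4),
    by rw [MvPolynomial.eval₂_mul, a5, b5]⟩
  · rw [map_mul, ← a0, ← b0]; rfl
  · rw [map_mul]; exact Nat.mul_le_mul a1 b1

theorem Rep.smul (t : ℕ) {a : K} {x : ℝ} (ha : Rep c s a x) : Rep c s (K.smul t a) (t * x) := by
  exact ((Rep.cst t).mul ha).mono rfl le_rfl (Nat.zero_add _).le (Nat.zero_add _).le
    (Nat.zero_add _).le

theorem Rep.pow {a : K} {x : ℝ} (ha : Rep c s a x) (e : ℕ) : Rep c s (a.pow e) (x ^ e) := by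
  obtain ⟨P, a0, a1, a2, a3, a4, a5⟩ := ha
  refine ⟨P ^ e, ?_, ?_, (MvPolynomial.degreeOf_pow_le _ _ _).trans (Nat.mul_le_mul_left e a2),
    (MvPolynomial.degreeOf_pow_le _ _ _).trans (Nat.mul_le_mul_left e a3),
    (MvPolynomial.degreeOf_pow_le _ _ _).trans (Nat.mul_le_mul_left e a4),
    by rw [MvPolynomial.eval₂_pow, a5]⟩
  · rw [map_pow, ← a0]; rfl
  · rw [map_pow]; exact Nat.pow_le_pow_left a1 e

theorem Rep.lin (a0 a1 : ℕ) {v : K} {x : ℝ} (hv : Rep c s v x) :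
    Rep c s (K.lin a0 a1 v) (a0 + a1 * x) :=
  (Rep.cst a0).add (hv.smul a1)

theorem K_supL_le {ks : List K} {k : K} (hk : k ∈ ks) : k.l ≤ (K.supL ks).l ∧
    k.d1 ≤ (K.supL ks).d1 ∧ k.d2 ≤ (K.supL ks).d2 ∧ k.d3 ≤ (K.supL ks).d3 := by
  induction ks with
  | nil => cases hk
  | cons a ks ih =>
    have e : K.supL (a :: ks) = K.sup a (K.supL ks) := rfl
    rw [e]
    simp only [K.sup, mx_eq]
    rcases List.mem_cons.1 hk with rfl | h
    · exact ⟨le_max_left _ _, le_max_left _ _, le_max_left _ _, le_max_left _ _⟩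
    · obtain ⟨h0, h1, h2, h3⟩ := ih h
      exact ⟨le_max_of_le_right h0, le_max_of_le_right h1, le_max_of_le_right h2,
        le_max_of_le_right h3⟩

theorem K_common (b : K) {ks : List K} {xs : List ℝ} (h : List.Forall₂ (Rep c s) ks xs)
    (hb : ∀ k ∈ ks, k.l ≤ b.l ∧ k.d1 ≤ b.d1 ∧ k.d2 ≤ b.d2 ∧ k.d3 ≤ b.d3) :
    List.Forall₂ (fun n x => Rep c s (b.wn n) x) (ks.map K.n) xs := by
  induction h with
  | nil => exact List.Forall₂.nil
  | @cons k x ks xs h1 _ ih =>
    obtain ⟨h0, h2, h3, h4⟩ := hb k List.mem_cons_self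
    exact List.Forall₂.cons (h1.mono rfl h0 h2 h3 h4)
      (ih fun k hk => hb k (List.mem_cons_of_mem _ hk))

theorem K_zero (b : K) : Rep c s (b.wn 0) 0 :=
  ((Rep.cst 0).mono (k' := b.wn 0) rfl (Nat.zero_le _) (Nat.zero_le _) (Nat.zero_le _) (Nat.zero_le _)).congr
    Nat.cast_zero

theorem K_step {b : K} {t t' n n' : ℕ} {x y : ℝ} (h : Rep c s ((K.smul t b).wn n) x)
    (h' : Rep c s ((K.smul t' b).wn n') y) : Rep c s ((K.smul (t + t') b).wn (n + n')) (x + y) :=
  (h.add h').mono rfl (add_mul t t' b.l).ge ((mx_eq _ _).trans (max_self _)).le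
    ((mx_eq _ _).trans (max_self _)).le ((mx_eq _ _).trans (max_self _)).le

theorem K_dot2 {ι : Type} (a b : K) (t n : ι → ℕ) (x : ι → ℝ) {fs : List ℕ} {ys : List ℝ}
    (h : List.Forall₂ (fun n x => Rep c s (b.wn n) x) fs ys) (Q : List ι)
    (hQ : ∀ i, Rep c s ((K.smul (t i) a).wn (n i)) (x i)) :
    Rep c s ((K.smul (sumR (mapR t Q)) (a.mul b)).wn (dot (mapR n Q) fs)) (dotRR (Q.map x) ys) := by
  rw [sumR_eq, dot_eq, mapR_eq, mapR_eq, dotRR]
  induction h generalizing Q with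
  | nil =>
    rw [List.zipWith_nil_right, List.zipWith_nil_right]
    exact K_zero _
  | @cons f y fs ys h1 _ ih =>
    cases Q with
    | nil => exact K_zero _
    | cons i Q =>
      simp only [List.map_cons, List.zipWith_cons_cons, List.sum_cons]
      exact K_step (((hQ i).mul h1).mono rfl (mul_assoc (t i) a.l b.l).le le_rfl le_rfl le_rfl) (ih Q)

/-- every member of a list is represented with the common bounds -/
theorem Rep.supL {ks : List K} {xs : List ℝ} (h : List.Forall₂ (Rep c s) ks xs) :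
    List.Forall₂ (fun n x => Rep c s ((K.supL ks).wn n) x) (mapR K.n ks) xs := by
  rw [mapR_eq]
  exact K_common _ h fun k hk => K_supL_le hk

theorem Rep.dot (b : K) (cs : List ℕ) {ns : List ℕ} {xs : List ℝ}
    (h : List.Forall₂ (fun n x => Rep c s (b.wn n) x) ns xs) :
    Rep c s ((K.smul (sumR cs) b).wn (dot cs ns)) (dotR cs xs) := by
  rw [sumR_eq, dot_eq, dotR]
  induction h generalizing cs with
  | nil =>
    rw [List.zipWith_nil_right, List.zipWith_nil_right]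
    exact K_zero _
  | @cons f y fs ys h1 _ ih =>
    cases cs with
    | nil => exact K_zero _
    | cons a cs =>
      simp only [List.zipWith_cons_cons, List.sum_cons]
      exact K_step (h1.smul a) (ih cs)

theorem Rep.bas {a b : K} {x y : ℝ} (ha : Rep c s a x) (hb : Rep c s b y) (d : ℕ) :
    List.Forall₂ (Rep c s) (K.bas a b d) (basR x y d) := by
  rw [K.bas, basR, mapR_eq, List.forall₂_map_left_iff, List.forall₂_map_right_iff, List.forall₂_same]
  exact fun i _ => (ha.pow _).mul (hb.pow _)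

theorem Rep.evK (P : P3) {cs : ℕ} (hcs : P.tot ≤ cs) {A B C : List K} {xs ys zs : List ℝ}
    (hA : List.Forall₂ (Rep c s) A xs) (hB : List.Forall₂ (Rep c s) B ys)
    (hC : List.Forall₂ (Rep c s) C zs) : Rep c s (P.evK cs A B C) (P.evR xs ys zs) := by
  exact (K_dot2 _ _ _ _ _ (Rep.supL hC) P fun Q => K_dot2 _ _ _ _ _ (Rep.supL hB) Q fun r =>
    Rep.dot _ r (Rep.supL hA)).mono rfl (Nat.mul_le_mul_right _ hcs) le_rfl le_rfl le_rfl

theorem K_basR (a b t : ℝ) (d : ℕ) :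
    basR (t * a) (t * b) d = (basR a b d).map (t ^ d * ·) := by
  rw [basR, basR, List.map_map]
  refine List.map_congr_left fun i hi => ?_
  have h : d - i + i = d := Nat.sub_add_cancel (Nat.lt_succ_iff.1 (List.mem_range.1 hi))
  have h2 : t ^ d = t ^ (d - i) * t ^ i := by rw [← pow_add, h]
  simp only [Function.comp_apply, mul_pow, h2]
  ring

theorem K_dotR (t : ℝ) (cs : List ℕ) (xs : List ℝ) :
    dotR cs (xs.map (t * ·)) = t * dotR cs xs := by
  unfold dotR
  induction cs generalizing xs with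
  | nil => simp
  | cons a cs ih =>
    cases xs with
    | nil => simp
    | cons x xs =>
      simp only [List.map_cons, List.zipWith_cons_cons, List.sum_cons, ih]
      ring

theorem K_dotRR {ι : Type} (t t' : ℝ) (x : ι → ℝ) (Q : List ι) (ys : List ℝ) :
    dotRR (Q.map fun i => t * x i) (ys.map (t' * ·)) = t * t' * dotRR (Q.map x) ys := by
  unfold dotRR
  induction Q generalizing ys with
  | nil => simp
  | cons a Q ih =>
    cases ys with
    | nil => simp
    | cons y ys =>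
      simp only [List.map_cons, List.zipWith_cons_cons, List.sum_cons, ih]
      ring

/-- homogeneity of the evaluation on bases -/
theorem P3.evR_smul (P : P3) (a b a' b' a'' b'' t t' t'' : ℝ) (d d' d'' : ℕ) :
    P.evR (basR (t * a) (t * b) d) (basR (t' * a') (t' * b') d') (basR (t'' * a'') (t'' * b'') d'')
      = t ^ d * t' ^ d' * t'' ^ d'' * P.evR (basR a b d) (basR a' b' d') (basR a'' b'' d'') := by
  simp only [P3.evR, K_basR, K_dotR, K_dotRR]

/-- `Nat.testBit_lor`, `Nat.testBit_shiftLeft`; induction on `k`. -/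
theorem testBit_mkMask {w k j : ℕ} (hw : 0 < w) (hj : j < 2 ^ k) :
    (mkMask w k).testBit (w * j + (w - 1)) = true := by
  induction k generalizing j with
  | zero =>
    have e : mkMask w 0 = 2 ^ (w - 1) := Nat.one_shiftLeft _
    obtain rfl : j = 0 := by omega
    rw [e, mul_zero, zero_add, Nat.testBit_two_pow_self]
  | succ k ih =>
    have e : mkMask w (k + 1) = mkMask w k ||| (mkMask w k <<< (w * 2 ^ k)) := rfl
    rw [e, Nat.testBit_or, Bool.or_eq_true]
    rcases lt_or_ge j (2 ^ k) with h | h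
    · exact Or.inl (ih h)
    · obtain ⟨j, rfl⟩ := Nat.exists_eq_add_of_le h
      refine Or.inr ?_
      rw [Nat.testBit_shiftLeft, mul_add, add_assoc, Nat.add_sub_cancel_left,
        ih (by rw [pow_succ] at hj; omega), Bool.and_true]
      exact decide_eq_true (Nat.le_add_right _ _)

/-- Uniqueness of the base `2^w` expansion: induction on `j` (generalising `U V D`) with
`Polynomial.divX`; reduce modulo `2^w`, then divide by `2^w`. -/
theorem coeff_le_of_digits {w : ℕ} (hw : 0 < w) (U V : Polynomial ℕ) (D : ℕ)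
    (hU : ∀ j, U.coeff j < 2 ^ (w - 1)) (hV : ∀ j, V.coeff j < 2 ^ w)
    (hD : ∀ j, D / 2 ^ (w * j) % 2 ^ w < 2 ^ (w - 1))
    (h : U.eval (2 ^ w) + D = V.eval (2 ^ w)) (j : ℕ) : U.coeff j ≤ V.coeff j := by
  have hB : 0 < 2 ^ w := by positivity
  have hB2 : 2 ^ w = 2 ^ (w - 1) * 2 := by rw [← pow_succ, Nat.sub_add_cancel hw]
  have ev : ∀ U : Polynomial ℕ, U.eval (2 ^ w) = U.coeff 0 + 2 ^ w * U.divX.eval (2 ^ w) := by
    intro U
    conv_lhs => rw [← U.divX_mul_X_add]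
    rw [Polynomial.eval_add, Polynomial.eval_mul, Polynomial.eval_X, Polynomial.eval_C]
    ring
  induction j generalizing U V D with
  | zero =>
    have h0 := hD 0
    rw [mul_zero, pow_zero, Nat.div_one] at h0
    have h1 := (Nat.div_mod_unique (a := V.eval (2 ^ w)) (c := U.coeff 0 + D % 2 ^ w)
      (d := U.divX.eval (2 ^ w) + D / 2 ^ w) hB).2
      ⟨by rw [← h, ev U]; linarith [Nat.mod_add_div D (2 ^ w)], by linarith [hU 0]⟩
    have h2 := (Nat.div_mod_unique hB).2 ⟨(ev V).symm, hV 0⟩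
    omega
  | succ j ih =>
    have h0 := hD 0
    rw [mul_zero, pow_zero, Nat.div_one] at h0
    have h1 := (Nat.div_mod_unique (a := V.eval (2 ^ w)) (c := U.coeff 0 + D % 2 ^ w)
      (d := U.divX.eval (2 ^ w) + D / 2 ^ w) hB).2
      ⟨by rw [← h, ev U]; linarith [Nat.mod_add_div D (2 ^ w)], by linarith [hU 0]⟩
    have h2 := (Nat.div_mod_unique hB).2 ⟨(ev V).symm, hV 0⟩
    rw [← Polynomial.coeff_divX, ← Polynomial.coeff_divX]
    refine ih U.divX V.divX (D / 2 ^ w) (fun i => by rw [Polynomial.coeff_divX]; exact hU _)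
      (fun i => by rw [Polynomial.coeff_divX]; exact hV _) (fun i => ?_) (h1.1.symm.trans h2.1)
    rw [Nat.div_div_eq_div_mul, ← pow_add, add_comm, ← mul_add_one]
    exact hD _

/-- position of a monomial -/
def K_pos (c : Ctx) (e : Fin 4 →₀ ℕ) : ℕ := e 0 + c.D1 * (e 1 + c.D2 * (e 2 + c.D3 * e 3))

theorem K_digit {D a b a' b' : ℕ} (h : a < D) (h' : a' < D) (e : a + D * b = a' + D * b') :
    a = a' ∧ b = b' := by
  have h1 := (Nat.div_mod_unique (Nat.zero_lt_of_lt h)).2 ⟨e, h⟩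
  have h2 := (Nat.div_mod_unique (d := b') (Nat.zero_lt_of_lt h)).2 ⟨rfl, h'⟩
  exact ⟨h1.2.symm.trans h2.2, h1.1.symm.trans h2.1⟩

theorem K_pos_inj {e e' : Fin 4 →₀ ℕ} (h : e 0 < c.D1 ∧ e 1 < c.D2 ∧ e 2 < c.D3)
    (h' : e' 0 < c.D1 ∧ e' 1 < c.D2 ∧ e' 2 < c.D3) (he : K_pos c e = K_pos c e') : e = e' := by
  obtain ⟨a0, h1⟩ := K_digit h.1 h'.1 he
  obtain ⟨a1, h2⟩ := K_digit h.2.1 h'.2.1 h1
  obtain ⟨a2, a3⟩ := K_digit h.2.2 h'.2.2 h2
  ext i
  fin_cases i
  exacts [a0, a1, a2, a3]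

/-- the univariate polynomial -/
noncomputable def K_uni (c : Ctx) (P : MvPolynomial (Fin 4) ℕ) : Polynomial ℕ :=
  ∑ e ∈ P.support, Polynomial.monomial (K_pos c e) (P.coeff e)

theorem K_uni_eval (P : MvPolynomial (Fin 4) ℕ) :
    (K_uni c P).eval (2 ^ c.w) = MvPolynomial.eval c.pt P := by
  rw [K_uni, Polynomial.eval_finsetSum, MvPolynomial.eval_eq']
  refine Finset.sum_congr rfl fun e _ => ?_
  rw [Polynomial.eval_monomial, Fin.prod_univ_four]
  congr 1
  change _ = (2 ^ c.w) ^ e 0 * (2 ^ (c.w * c.D1)) ^ e 1 * (2 ^ (c.w * c.D1 * c.D2)) ^ e 2 *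
    (2 ^ (c.w * c.D1 * c.D2 * c.D3)) ^ e 3
  simp only [← pow_mul, ← pow_add, K_pos]
  congr 1
  ring

theorem K_uni_coeff (P : MvPolynomial (Fin 4) ℕ) (j : ℕ) :
    (K_uni c P).coeff j = ∑ e ∈ P.support, if K_pos c e = j then P.coeff e else 0 := by
  simp only [K_uni, Polynomial.finsetSum_coeff, Polynomial.coeff_monomial]

theorem K_uni_le (P : MvPolynomial (Fin 4) ℕ) (j : ℕ) :
    (K_uni c P).coeff j ≤ MvPolynomial.eval (fun _ => 1) P := by
  rw [K_uni_coeff, MvPolynomial.eval_eq']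
  refine Finset.sum_le_sum fun e _ => ?_
  split_ifs <;> simp

theorem K_uni_pos {P : MvPolynomial (Fin 4) ℕ}
    (hP : ∀ e ∈ P.support, e 0 < c.D1 ∧ e 1 < c.D2 ∧ e 2 < c.D3) {e : Fin 4 →₀ ℕ}
    (he : e 0 < c.D1 ∧ e 1 < c.D2 ∧ e 2 < c.D3) : (K_uni c P).coeff (K_pos c e) = P.coeff e := by
  rw [K_uni_coeff, Finset.sum_eq_single e (fun e' h1 h2 => if_neg fun h => h2 (K_pos_inj (hP e' h1) he h))
    fun h => by rw [MvPolynomial.notMem_support_iff.1 h, ite_self], if_pos rfl]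

theorem K_lanes {w k D : ℕ} (hw : 0 < w) (h1 : D < 2 ^ (w * 2 ^ k)) (h2 : D &&& mkMask w k = 0)
    (j : ℕ) : D / 2 ^ (w * j) % 2 ^ w < 2 ^ (w - 1) := by
  rcases lt_or_ge j (2 ^ k) with h | h
  · refine Nat.lt_pow_two_of_testBit _ fun i hi => ?_
    rw [Nat.testBit_mod_two_pow, Nat.testBit_div_two_pow]
    rcases eq_or_lt_of_le hi with rfl | hi'
    · have h3 := congrArg (·.testBit (w * j + (w - 1))) h2
      simp only [Nat.testBit_and, testBit_mkMask hw h, Bool.and_true, Nat.zero_testBit] at h3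
      rw [add_comm, h3, Bool.and_false]
    · rw [decide_eq_false (by omega), Bool.false_and]
  · rw [Nat.div_eq_of_lt (h1.trans_le (Nat.pow_le_pow_right two_pos (Nat.mul_le_mul_left w h))),
      Nat.zero_mod]
    positivity

/-- Main lemma.  Let `pos e = e 0 + D1 * (e 1 + D2 * (e 2 + D3 * e 3))`, injective on exponents
with `e 0 < D1`, `e 1 < D2`, `e 2 < D3`, and `U = ∑ e ∈ P.support, monomial (pos e) (coeff e P)`.
Then `U.eval (2^w) = eval c.pt P`, every coefficient of `U` is at most `eval 1 P`, and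
`U.coeff (pos e) = coeff e P` for such `e`.  The digits of `b.n - a.n` are below `2^(w-1)`
(`testBit_mkMask` for lanes `< 2^lg`, zero above because of `top`). -/
theorem Rep.le_of_raw (hs : ∀ i, 0 ≤ s i) {a b : K} {x y : ℝ} (ha : Rep c s a x)
    (hb : Rep c s b y) (fa : K.fits c a = true) (fb : K.fits c b = true)
    (h : rawLe c.mask c.top a.n b.n = true) : x ≤ y := by
  obtain ⟨P, a0, a1, a2, a3, a4, rfl⟩ := ha
  obtain ⟨Q, b0, b1, b2, b3, b4, rfl⟩ := hb
  simp only [K.fits, rawLe, Bool.and_eq_true, Nat.blt_eq, Nat.ble_eq, Nat.beq_eq] at fa fb h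
  obtain ⟨⟨⟨⟨hw, fa1⟩, fa2⟩, fa3⟩, fa4⟩ := fa
  obtain ⟨⟨⟨⟨-, fb1⟩, fb2⟩, fb3⟩, fb4⟩ := fb
  obtain ⟨⟨h1, h2⟩, h3⟩ := h
  have e1 : Nat.shiftLeft 1 (c.w - 1) = 2 ^ (c.w - 1) := Nat.one_shiftLeft _
  have e2 : c.top = 2 ^ (c.w * 2 ^ c.lg) := Nat.one_shiftLeft _
  rw [e1] at fa1 fb1
  rw [e2] at h2
  have hP : ∀ e ∈ P.support, e 0 < c.D1 ∧ e 1 < c.D2 ∧ e 2 < c.D3 := fun e he =>
    ⟨((MvPolynomial.monomial_le_degreeOf 0 he).trans a2).trans_lt fa2,
      ((MvPolynomial.monomial_le_degreeOf 1 he).trans a3).trans_lt fa3,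
      ((MvPolynomial.monomial_le_degreeOf 2 he).trans a4).trans_lt fa4⟩
  have hQ : ∀ e ∈ Q.support, e 0 < c.D1 ∧ e 1 < c.D2 ∧ e 2 < c.D3 := fun e he =>
    ⟨((MvPolynomial.monomial_le_degreeOf 0 he).trans b2).trans_lt fb2,
      ((MvPolynomial.monomial_le_degreeOf 1 he).trans b3).trans_lt fb3,
      ((MvPolynomial.monomial_le_degreeOf 2 he).trans b4).trans_lt fb4⟩
  have key := coeff_le_of_digits hw (K_uni c P) (K_uni c Q) (b.n - a.n)
    (fun j => ((K_uni_le P j).trans a1).trans_lt fa1)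
    (fun j => (((K_uni_le Q j).trans b1).trans_lt fb1).trans_le
      (Nat.pow_le_pow_right two_pos (Nat.sub_le _ _)))
    (K_lanes hw ((Nat.sub_le _ _).trans_lt h2) h3)
    (by rw [K_uni_eval, K_uni_eval, ← a0, ← b0, Nat.add_sub_cancel' h1])
  have hc : ∀ e ∈ P.support, P.coeff e ≤ Q.coeff e := fun e he => by
    rw [← K_uni_pos hP (hP e he), ← K_uni_pos hQ (hP e he)]
    exact key _
  have hm : ∀ e : Fin 4 →₀ ℕ, 0 ≤ ∏ i, s i ^ e i := fun e =>
    Finset.prod_nonneg fun i _ => pow_nonneg (hs i) _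
  rw [MvPolynomial.eval₂_eq', MvPolynomial.eval₂_eq']
  refine (Finset.sum_le_sum fun e he => mul_le_mul_of_nonneg_right
    ((Nat.cast_le (α := ℝ)).2 (hc e he)) (hm e)).trans
    (Finset.sum_le_sum_of_subset_of_nonneg (fun e he => ?_)
      fun e _ _ => mul_nonneg (Nat.cast_nonneg _) (hm e))
  have h4 := hc e he
  rw [MvPolynomial.mem_support_iff] at he ⊢
  omega

theorem Rep.le (hs : ∀ i, 0 ≤ s i) {a b : K} {x y : ℝ} (ha : Rep c s a x)
    (hb : Rep c s b y) (h : K.le c a b = true) : x ≤ y := by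
  simp only [K.le, Bool.and_eq_true] at h
  exact ha.le_of_raw hs hb h.1.1 h.1.2 h.2

end Crest.Agent.R163
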