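import Crest.Agent.R163.Q3.Scal

/-!
# Branch and bound on the limiting moments: the pointwise side (definitions)

A sorted positive point of `Spx 3` is `pt m ρ σ = 3 (1, ρ^m, (ρσ)^m) / S`, `0 < ρ, σ ≤ 1`,
`S = 1 + ρ^m + (ρσ)^m`.  With `t = (1, ρ, ρσ)` one has `Zf m α (pt m ρ σ) = ZT / (2 S)` for the
polynomial `ZT = ∑_σ ∏ t ^ k`.  After the channel, `q i = ch (-μ) (pt m ρ σ) i`; on a *fit cell*
(a box in `(ρ, σ, μ)` with relative coordinates `y1, y2, y3 ∈ (0,1]`) polynomials `L`, `U` bound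
`ka0 (den1 den2)^m S q_i^(k/m)` from below and above.  A *check cell* is a box in the relative
coordinates, parametrised by `y = (hi + lo s) / (den (1 + s))`, `s ≥ 0`; there all quantities
become polynomials in `s` with natural coefficients.
-/

set_option autoImplicit false

namespace Crest.Agent.R163

noncomputable def sS (m : ℕ) (r t : ℝ) : ℝ := 1 + r ^ m + (r * t) ^ m

noncomputable def pt (m : ℕ) (r t : ℝ) : Fin 3 → ℝ :=
  ![3 / sS m r t, 3 * r ^ m / sS m r t, 3 * (r * t) ^ m / sS m r t]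

structure Box3 where
  I1 : Iv
  I2 : Iv
  I3 : Iv

structure Fit where
  dom : Box3
  ka0 : ℕ
  x1 : ℕ
  x2 : ℕ
  e : ℕ
  cs : ℕ
  /-- `L[k][i]` -/
  L : List (List P3)
  U : List (List P3)

def Fit.gL (f : Fit) (k i : ℕ) : P3 := (f.L.getD k []).getD i []
def Fit.gU (f : Fit) (k i : ℕ) : P3 := (f.U.getD k []).getD i []

noncomputable def Fit.val (f : Fit) (m : ℕ) (P : P3) (y1 y2 y3 : ℝ) : ℝ :=
  P.evR (basR y1 (1 - y1) (m + f.x1)) (basR y2 (1 - y2) (m + f.x2)) (basR y3 (1 - y3) f.e)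

noncomputable def Fit.tgt (f : Fit) (m k : ℕ) (i : Fin 3) (y1 y2 y3 : ℝ) : ℝ :=
  (f.ka0 : ℝ) * ((f.dom.I1.den : ℝ) * f.dom.I2.den) ^ m *
    sS m (f.dom.I1.at y1) (f.dom.I2.at y2) *
    ch (-(f.dom.I3.at y3)) (pt m (f.dom.I1.at y1) (f.dom.I2.at y2)) i ^ ((k : ℝ) / m)

/-- the bounds for the exponent `k` and the coordinate `i` -/
def FitOK1 (m : ℕ) (f : Fit) (k : ℕ) (i : Fin 3) : Prop :=
  (f.gL k i).tot ≤ f.cs ∧ (f.gU k i).tot ≤ f.cs ∧
    ∀ y1 y2 y3 : ℝ, 0 < y1 → y1 ≤ 1 → 0 < y2 → y2 ≤ 1 → 0 < y3 → y3 ≤ 1 →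
      f.val m (f.gL k i) y1 y2 y3 ≤ f.tgt m k i y1 y2 y3 ∧
        f.tgt m k i y1 y2 y3 ≤ f.val m (f.gU k i) y1 y2 y3

def FitOK (par : Par) (f : Fit) : Prop :=
  ∀ α ∈ par.als, ∀ k : ℕ, (k = α.1 ∨ k = α.2.1 ∨ k = α.2.2) → k ≠ 0 →
    ∀ i : Fin 3, FitOK1 par.m f k i

def Fit.wf (f : Fit) : Bool :=
  Nat.blt 0 f.ka0 && Nat.blt 0 f.dom.I1.den && Nat.blt 0 f.dom.I2.den && Nat.blt 0 f.dom.I3.den &&
    Nat.ble (2 * f.dom.I3.lo) f.dom.I3.den && Nat.ble (2 * f.dom.I3.hi) f.dom.I3.den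

/-- a range of relative coordinates -/
def Iv.wf (I : Iv) : Bool := Nat.blt 0 I.den && Nat.ble I.lo I.hi && Nat.blt 0 I.hi && Nat.ble I.hi I.den

def Box3.wf (B : Box3) : Bool := B.I1.wf && B.I2.wf && B.I3.wf

def Box3.unit : Box3 := ⟨⟨0, 1, 1⟩, ⟨0, 1, 1⟩, ⟨0, 1, 1⟩⟩

/-- `den (1 + s) * y` -/
def Iv.ka (I : Iv) (v : K) : K := K.lin I.hi I.lo v
/-- `den (1 + s) * (1 - y)` -/
def Iv.kb (I : Iv) (v : K) : K := K.lin (I.den - I.hi) (I.den - I.lo) v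
/-- `den (1 + s)` -/
def Iv.kT (I : Iv) (v : K) : K := K.lin I.den I.den v
/-- `lo * b + hi * a` -/
def kcomb (lo hi : ℕ) (a b : K) : K := K.add (K.smul lo b) (K.smul hi a)

/-- the polynomials attached to a check cell -/
structure Geo where
  t0 : K
  t1 : K
  t2 : K
  p0 : K
  p1 : K
  p2 : K
  S : K
  R3 : K
  N3 : K
  M3 : K
  E : K
  A : List K
  B : List K
  C : List K

def geo (c : Ctx) (m : ℕ) (f : Fit) (cel : Box3) : Geo :=
  let a1 := cel.I1.ka (K.v1 c)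
  let b1 := cel.I1.kb (K.v1 c)
  let T1 := cel.I1.kT (K.v1 c)
  let a2 := cel.I2.ka (K.v2 c)
  let b2 := cel.I2.kb (K.v2 c)
  let T2 := cel.I2.kT (K.v2 c)
  let a3 := cel.I3.ka (K.v3 c)
  let b3 := cel.I3.kb (K.v3 c)
  let T3 := cel.I3.kT (K.v3 c)
  let R1 := kcomb f.dom.I1.lo f.dom.I1.hi a1 b1
  let R2 := kcomb f.dom.I2.lo f.dom.I2.hi a2 b2
  let N1 := K.smul f.dom.I1.den T1
  let N2 := K.smul f.dom.I2.den T2
  let t0 := K.mul N1 N2
  let t1 := K.mul R1 N2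
  let t2 := K.mul R1 R2
  { t0 := t0, t1 := t1, t2 := t2, p0 := K.pow t0 m, p1 := K.pow t1 m, p2 := K.pow t2 m,
    S := K.add (K.add (K.pow t0 m) (K.pow t1 m)) (K.pow t2 m),
    R3 := kcomb f.dom.I3.lo f.dom.I3.hi a3 b3,
    N3 := K.smul f.dom.I3.den T3,
    M3 := kcomb (f.dom.I3.den - 2 * f.dom.I3.lo) (f.dom.I3.den - 2 * f.dom.I3.hi) a3 b3,
    E := K.smul f.ka0 (K.mul (K.mul (K.pow T1 f.x1) (K.pow T2 f.x2)) (K.pow T3 f.e)),
    A := K.bas a1 b1 (m + f.x1), B := K.bas a2 b2 (m + f.x2), C := K.bas a3 b3 f.e }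

/-- `N3 * S * q i` -/
def Geo.Q (g : Geo) (i : ℕ) : K :=
  match i with
  | 0 => K.add (K.mul g.M3 g.p0) (K.mul (K.add g.N3 g.R3) (K.add g.p1 g.p2))
  | 1 => K.add (K.mul g.M3 g.p1) (K.mul (K.add g.N3 g.R3) (K.add g.p0 g.p2))
  | _ => K.add (K.mul g.M3 g.p2) (K.mul (K.add g.N3 g.R3) (K.add g.p0 g.p1))

def Geo.V (g : Geo) (cs : ℕ) (P : P3) : K := P.evK cs g.A g.B g.C

/-- with `k / m = k' / m'`: `L^m' N3^k' ≤ E^m' S^(m'-k') Q^k' ≤ U^m' N3^k'` -/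
def fitCore (c : Ctx) (g : Geo) (cs : ℕ) (L U : P3) (i k' m' : ℕ) : Bool :=
  let W := K.mul (K.mul (K.pow g.E m') (K.pow g.S (m' - k'))) (K.pow (g.Q i) k')
  K.le c (K.mul (K.pow (g.V cs L) m') (K.pow g.N3 k')) W &&
    K.le c W (K.mul (K.pow (g.V cs U) m') (K.pow g.N3 k'))

def fitChk (c : Ctx) (m : ℕ) (f : Fit) (k i : ℕ) : Bool :=
  f.wf && Nat.blt 0 m && Nat.ble k m && Nat.ble (f.gL k i).tot f.cs &&
    Nat.ble (f.gU k i).tot f.cs &&
    fitCore c (geo c m f Box3.unit) f.cs (f.gL k i) (f.gU k i) i (k / Nat.gcd k m) (m / Nat.gcd k m)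

/-- all exponents of the list occur in `0 :: ks` -/
def Par.ksOK (par : Par) (ks : List ℕ) : Bool :=
  allR (fun α : Al => (0 :: ks).elem α.1 && (0 :: ks).elem α.2.1 && (0 :: ks).elem α.2.2) par.als

/-- the permanent of `v (k r) i` -/
def perm3 (v : ℕ → ℕ → K) (α : Al) : K :=
  K.add (K.add
    (K.mul (v α.1 0) (K.add (K.mul (v α.2.1 1) (v α.2.2 2)) (K.mul (v α.2.1 2) (v α.2.2 1))))
    (K.mul (v α.1 1) (K.add (K.mul (v α.2.1 0) (v α.2.2 2)) (K.mul (v α.2.1 2) (v α.2.2 0)))))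
    (K.mul (v α.1 2) (K.add (K.mul (v α.2.1 0) (v α.2.2 1)) (K.mul (v α.2.1 1) (v α.2.2 0))))

def Geo.vT (g : Geo) (k i : ℕ) : K :=
  match i with
  | 0 => K.pow g.t0 k
  | 1 => K.pow g.t1 k
  | _ => K.pow g.t2 k

/-- the bound for the exponent `k` (exact for `k = 0`) -/
def Geo.vB (g : Geo) (cs : ℕ) (P : ℕ → ℕ → P3) (k i : ℕ) : K :=
  cond (Nat.beq k 0) (K.mul g.E g.S) (g.V cs (P k i))

/-- the numbers used by all steps on one check cell -/
structure Feat where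
  A0 : ℕ
  Gl : List ℕ
  Gu : List ℕ
  F2 : ℕ
  S3 : ℕ
  UT : List ℕ
  PP : ℕ
  Qp : ℕ
  Qm : ℕ

/-- the same as `K` values -/
structure FeatK where
  A0 : K
  Gl : List K
  Gu : List K
  F2 : K
  S3 : K
  UT : List K
  PP : K
  Qp : K
  Qm : K
  S2 : K
  P2 : K

def featK (par : Par) (f : Fit) (g : Geo) (near : Bool) : FeatK :=
  let Sn := cond near g.S (K.cst 1)
  let dd := cond par.crit (K.pow g.N3 2) (K.cst par.dd)
  let dn := cond par.crit (K.pow g.R3 2) (K.cst par.dn)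
  let S2 := K.pow g.S 2
  let P2 := K.add (K.add (K.pow g.p0 2) (K.pow g.p1 2)) (K.pow g.p2 2)
  let X := K.mul dd Sn
  let Y := K.smul 3 (K.mul S2 Sn)
  { A0 := K.smul 6 (K.mul (K.pow (K.mul g.E g.S) 3) X),
    Gl := mapR (fun α => K.mul (perm3 (g.vB f.cs f.gL) α) X) par.als,
    Gu := mapR (fun α => K.mul (perm3 (g.vB f.cs f.gU) α) X) par.als,
    F2 := K.mul dn (K.pow g.E 3),
    S3 := K.smul 2 (K.mul Y g.S),
    UT := mapR (fun α => K.mul (perm3 g.vT α) Y) par.als,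
    PP := K.smul 18 (K.mul (K.mul P2 g.S) Sn),
    Qp := cond near (K.add (K.smul 54 (K.pow P2 2)) (K.smul 6 (K.pow S2 2))) (K.cst 0),
    Qm := cond near (K.smul 36 (K.mul P2 S2)) (K.cst 0),
    S2 := S2, P2 := P2 }

def FeatK.raw (F : FeatK) : Feat :=
  ⟨F.A0.n, mapR K.n F.Gl, mapR K.n F.Gu, F.F2.n, F.S3.n, mapR K.n F.UT, F.PP.n, F.Qp.n, F.Qm.n⟩

/-- common bounds of both sides of the inequality when the multipliers sum to at most `G` -/
def FeatK.bd (F : FeatK) (G : ℕ) : K :=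
  K.smul G (K.add (K.sup F.A0 (K.sup (K.supL F.Gl) (K.supL F.Gu)))
    (K.mul F.F2 (K.sup (K.sup (K.sup F.S3 F.PP) (K.sup F.Qp F.Qm)) (K.supL F.UT))))

def Step.gp (st : Step) : List ℕ := mapR (fun t => ip t.ga) st.ts
def Step.gm (st : Step) : List ℕ := mapR (fun t => im t.ga) st.ts
def Step.wp (st : Step) : List ℕ := mapR (fun t => ip t.w) st.ts
def Step.wm (st : Step) : List ℕ := mapR (fun t => im t.w) st.ts

/-- One step on one check cell.  `np - im nu`, `zp - im z`, `kq` are the effective multipliers of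
`chi`, `1`, `chi^2`. -/
def stepCore (mask top G : ℕ) (F : Feat) (st : Step) (np zp kq : ℕ) : Bool :=
  Nat.ble (2 * (sumR st.gp + sumR st.gm + sumR st.wp + sumR st.wm) + 2 * (np + im st.nu)
      + zp + im st.z + kq) G &&
  rawLe mask top
    (Nat.add (Nat.add (Nat.mul (sumR st.gp) F.A0) (dot st.gm F.Gu))
      (Nat.mul F.F2 (Nat.add
        (Nat.add (Nat.mul (sumR st.wm + im st.nu + im st.z) F.S3) (dot st.wp F.UT))
        (Nat.add (Nat.mul np F.PP) (Nat.mul kq F.Qp)))))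
    (Nat.add (Nat.add (Nat.mul (sumR st.gm) F.A0) (dot st.gp F.Gl))
      (Nat.mul F.F2 (Nat.add
        (Nat.add (Nat.mul (sumR st.wp + np + zp) F.S3) (dot st.wm F.UT))
        (Nat.add (Nat.mul (im st.nu) F.PP) (Nat.mul kq F.Qm)))))

/-- Near the centre `2 X a - X^2 ≤ a^2`; where `a ≥ amin / XS ≥ x1 / XS` one has
`2 X a - X^2 ≤ 2 (x1 / XS) a - (x1 / XS)^2`. -/
def stepChk (XS n mask top G : ℕ) (near : Bool) (amin : ℕ) (F : Feat) (st : Step) : Bool :=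
  Nat.ble st.ts.length n &&
  cond near (stepCore mask top G F st (ip st.nu) (ip st.z) (st.ka * (XS * XS)))
    ((Nat.beq st.ka 0 || Nat.ble st.x1 amin) &&
      stepCore mask top G F st (ip st.nu + 2 * st.ka * st.x1 * XS) (ip st.z + st.ka * st.x1 * st.x1) 0)

def chkF (c : Ctx) (par : Par) (F : FeatK) (gb : ℕ) (near : Bool) (amin : ℕ) (C : List Step) :
    Bool :=
  K.fits c (F.bd (Nat.shiftLeft 1 gb)) &&
    (Nat.beq amin 0 || K.le c (K.smul (amin + par.XS) F.S2) (K.smul (3 * par.XS) F.P2)) &&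
    allR (stepChk par.XS par.als.length c.mask c.top (Nat.shiftLeft 1 gb) near amin F.raw) C

def chk (c : Ctx) (par : Par) (f : Fit) (gb : ℕ) (cel : Box3) (near : Bool) (amin : ℕ)
    (C : List Step) : Bool :=
  f.wf && cel.wf && (par.crit || Nat.blt 0 par.dd) &&
    chkF c par (featK par f (geo c par.m f cel) near) gb near amin C

/-- the inequality of `Pt` at the point `(ρ, σ, μ)` -/
def PtAt (par : Par) (st : Step) (r t mu : ℝ) : Prop :=
  ∀ D X : ℝ, par.dOK mu D → 0 ≤ X → X * par.XS ≤ st.x1 →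
    ptF par.m mu D X (tsR par.als st.ts) st.nu (st.ka * (par.XS : ℝ) ^ 2) (pt par.m r t) ≤ st.z

/-- on a check cell of a fit cell -/
def Ok (par : Par) (f : Fit) (cel : Box3) (C : List Step) : Prop :=
  ∀ st ∈ C, ∀ y1 y2 y3 : ℝ, cel.I1.mem y1 → cel.I2.mem y2 → cel.I3.mem y3 →
    PtAt par st (f.dom.I1.at y1) (f.dom.I2.at y2) (f.dom.I3.at y3)

/-- on a box in absolute coordinates -/
def OkD (par : Par) (d : Box3) (C : List Step) : Prop :=
  ∀ st ∈ C, ∀ r t mu : ℝ, d.I1.mem r → d.I2.mem t → d.I3.mem mu → PtAt par st r t mu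

def Iv.l (I : Iv) : Iv := ⟨2 * I.lo, I.lo + I.hi, 2 * I.den⟩
def Iv.r (I : Iv) : Iv := ⟨I.lo + I.hi, 2 * I.hi, 2 * I.den⟩

def Box3.l (B : Box3) (d : ℕ) : Box3 :=
  match d with
  | 0 => ⟨B.I1.l, B.I2, B.I3⟩
  | 1 => ⟨B.I1, B.I2.l, B.I3⟩
  | _ => ⟨B.I1, B.I2, B.I3.l⟩

def Box3.r (B : Box3) (d : ℕ) : Box3 :=
  match d with
  | 0 => ⟨B.I1.r, B.I2, B.I3⟩
  | 1 => ⟨B.I1, B.I2.r, B.I3⟩
  | _ => ⟨B.I1, B.I2, B.I3.r⟩

/-- the members whose bit in `M` equals `b` (lowest bit first) -/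
def selB (b : ℕ) (C : List Step) : ℕ → List Step :=
  List.rec (motive := fun _ => ℕ → List Step) (fun _ => [])
    (fun st _ ih M => cond (Nat.beq (Nat.mod M 2) b) (st :: ih (Nat.div M 2)) (ih (Nat.div M 2))) C

/-- adaptive subdivision -/
inductive PT where
  | chk (near : Bool) (amin : ℕ) : PT
  | part (M : ℕ) (l r : PT) : PT
  | split (d : ℕ) (l r : PT) : PT

noncomputable def runT (c : Ctx) (par : Par) (f : Fit) (gb : ℕ) (t : PT) :
    Box3 → List Step → Bool :=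
  PT.rec (motive := fun _ => Box3 → List Step → Bool)
    (fun near amin cel C => chk c par f gb cel near amin C)
    (fun M _ _ ihl ihr cel C => ihl cel (selB 1 C M) && ihr cel (selB 0 C M))
    (fun d _ _ ihl ihr cel C => ihl (cel.l d) C && ihr (cel.r d) C) t

/-- `I ⊆ J` -/
def Iv.sub (I J : Iv) : Bool :=
  (Nat.beq I.lo J.lo && Nat.beq I.hi J.hi && Nat.beq I.den J.den) ||
    (Nat.blt 0 I.den && Nat.blt 0 J.den && Nat.blt I.lo I.hi &&
      Nat.ble (J.lo * I.den) (I.lo * J.den) && Nat.ble (I.hi * J.den) (J.hi * I.den))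

def Box3.sub (A B : Box3) : Bool := A.I1.sub B.I1 && A.I2.sub B.I2 && A.I3.sub B.I3

/-- bisection tree whose leaves name boxes of a list -/
inductive DT where
  | leaf (i : ℕ) : DT
  | split (d : ℕ) (l r : DT) : DT

noncomputable def cov (ds : List Box3) (t : DT) : Box3 → Bool :=
  DT.rec (motive := fun _ => Box3 → Bool)
    (fun i B => Nat.blt i ds.length && B.sub (ds.getD i Box3.unit))
    (fun d _ _ ihl ihr B => ihl (B.l d) && ihr (B.r d)) t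

end Crest.Agent.R163
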