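import Crest.Agent.R163.Q3.Pt

/-!
# The polynomials of a check cell; soundness of the fit check
-/

set_option autoImplicit false

namespace Crest.Agent.R163

theorem sS_pos (m : ℕ) {r t : ℝ} (hr : 0 ≤ r) (ht : 0 ≤ t) : 0 < sS m r t := by
  unfold sS
  positivity

theorem pt_mem (m : ℕ) {r t : ℝ} (hr : 0 ≤ r) (ht : 0 ≤ t) : pt m r t ∈ Spx 3 := by
  have h := sS_pos m hr ht
  refine ⟨fun i => ?_, ?_⟩
  · fin_cases i <;> simp only [pt] <;> simp <;> positivity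
  · simp only [pt, Fin.sum_univ_three, Matrix.cons_val_zero, Matrix.cons_val_one, Matrix.cons_val]
    rw [← add_div, ← add_div, div_eq_iff h.ne', sS]
    push_cast
    ring

theorem Iv.at_nonneg (I : Iv) {y : ℝ} (h0 : 0 ≤ y) (h1 : y ≤ 1) : 0 ≤ I.at y := by
  have : 0 ≤ 1 - y := by linarith
  unfold Iv.at
  positivity

theorem pta_wf {I : Iv} (h : I.wf = true) :
    (0 : ℝ) < I.den ∧ I.lo ≤ I.hi ∧ (0 : ℝ) < I.hi ∧ I.hi ≤ I.den := by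
  simp only [Iv.wf, Bool.and_eq_true, Nat.blt_eq, Nat.ble_eq] at h
  exact ⟨by exact_mod_cast h.1.1.1, h.1.1.2, by exact_mod_cast h.1.2, h.2⟩

theorem Iv.mem_unit {I : Iv} (h : I.wf = true) {y : ℝ} (hy : I.mem y) : 0 < y ∧ y ≤ 1 := by
  obtain ⟨h1, h2, h3, h4⟩ := pta_wf h
  obtain ⟨z, z0, z1, rfl⟩ := hy
  have h2' : (I.lo : ℝ) ≤ I.hi := by exact_mod_cast h2
  have h4' : (I.hi : ℝ) ≤ I.den := by exact_mod_cast h4
  have h5 : 0 ≤ 1 - z := by linarith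
  unfold Iv.at
  refine ⟨by positivity, ?_⟩
  rw [div_le_one h1]
  nlinarith

/-- `s = 1 / y' - 1`. -/
theorem Iv.exists_s {I : Iv} (h : I.wf = true) {y : ℝ} (hy : I.mem y) :
    ∃ s : ℝ, 0 ≤ s ∧ I.den * (1 + s) * y = I.hi + I.lo * s := by
  obtain ⟨h1, -⟩ := pta_wf h
  obtain ⟨z, z0, z1, rfl⟩ := hy
  refine ⟨1 / z - 1, ?_, ?_⟩
  · rw [sub_nonneg, le_div_iff₀ z0]
    linarith
  · unfold Iv.at
    field_simp
    ring

/-- The values of the polynomials of `geo`; `T1 T2 T3` are the homogenising factors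
`den (1 + s)` of the check cell and `N = den1 T1 den2 T2` (denominators of the fit cell). -/
structure GeoRep (c : Ctx) (s : Fin 4 → ℝ) (m : ℕ) (f : Fit) (g : Geo)
    (y1 y2 y3 T1 T2 T3 N : ℝ) : Prop where
  T1_pos : 0 < T1
  T2_pos : 0 < T2
  T3_pos : 0 < T3
  N_eq : N = (f.dom.I1.den : ℝ) * f.dom.I2.den * (T1 * T2)
  t0 : Rep c s g.t0 N
  t1 : Rep c s g.t1 (N * f.dom.I1.at y1)
  t2 : Rep c s g.t2 (N * (f.dom.I1.at y1 * f.dom.I2.at y2))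
  p0 : Rep c s g.p0 (N ^ m)
  p1 : Rep c s g.p1 (N ^ m * f.dom.I1.at y1 ^ m)
  p2 : Rep c s g.p2 (N ^ m * (f.dom.I1.at y1 * f.dom.I2.at y2) ^ m)
  S : Rep c s g.S (N ^ m * sS m (f.dom.I1.at y1) (f.dom.I2.at y2))
  R3 : Rep c s g.R3 (f.dom.I3.den * T3 * f.dom.I3.at y3)
  N3 : Rep c s g.N3 (f.dom.I3.den * T3)
  M3 : Rep c s g.M3 (f.dom.I3.den * T3 * (1 - 2 * f.dom.I3.at y3))
  E : Rep c s g.E (f.ka0 * (T1 ^ f.x1 * T2 ^ f.x2 * T3 ^ f.e))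
  V : ∀ P : P3, P.tot ≤ f.cs → Rep c s (g.V f.cs P)
    (T1 ^ (m + f.x1) * T2 ^ (m + f.x2) * T3 ^ f.e * f.val m P y1 y2 y3)

theorem pta_iv {c : Ctx} {s : Fin 4 → ℝ} {I : Iv} (h : I.wf = true) {v : K} {σ y : ℝ}
    (hv : Rep c s v σ) (e : I.den * (1 + σ) * y = I.hi + I.lo * σ) :
    Rep c s (I.ka v) (I.den * (1 + σ) * y) ∧ Rep c s (I.kb v) (I.den * (1 + σ) * (1 - y)) ∧
      Rep c s (I.kT v) (I.den * (1 + σ)) := by
  obtain ⟨-, h2, -, h4⟩ := pta_wf h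
  refine ⟨(Rep.lin _ _ hv).congr e.symm, (Rep.lin _ _ hv).congr ?_, (Rep.lin _ _ hv).congr ?_⟩
  · rw [Nat.cast_sub h4, Nat.cast_sub (h2.trans h4)]
    linarith
  · ring

theorem pta_comb {c : Ctx} {s : Fin 4 → ℝ} (J : Iv) (hJ : (0 : ℝ) < J.den) {a b : K} {T y : ℝ}
    (ha : Rep c s a (T * y)) (hb : Rep c s b (T * (1 - y))) :
    Rep c s (kcomb J.lo J.hi a b) (J.den * T * J.at y) := by
  refine ((hb.smul _).add (ha.smul _)).congr ?_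
  unfold Iv.at
  field_simp

theorem pta_fwf {f : Fit} (hf : f.wf = true) :
    (0 : ℝ) < f.dom.I1.den ∧ (0 : ℝ) < f.dom.I2.den ∧ (0 : ℝ) < f.dom.I3.den ∧
      2 * f.dom.I3.lo ≤ f.dom.I3.den ∧ 2 * f.dom.I3.hi ≤ f.dom.I3.den := by
  simp only [Fit.wf, Bool.and_eq_true, Nat.blt_eq, Nat.ble_eq] at hf
  exact ⟨by exact_mod_cast hf.1.1.1.1.2, by exact_mod_cast hf.1.1.1.2, by exact_mod_cast hf.1.1.2,
    hf.1.2, hf.2⟩

/-- `s = ![s1, s2, s3, 0]` from `Iv.exists_s`; `Rep.lin`, `Rep.mul`, ..., `Rep.bas`, `Rep.evK`,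
`P3.evR_smul`. -/
theorem geo_rep (c : Ctx) (m : ℕ) {f : Fit} (hf : f.wf = true) {cel : Box3} (hc : cel.wf = true)
    {y1 y2 y3 : ℝ} (h1 : cel.I1.mem y1) (h2 : cel.I2.mem y2) (h3 : cel.I3.mem y3) :
    ∃ (s : Fin 4 → ℝ) (T1 T2 T3 N : ℝ), (∀ i, 0 ≤ s i) ∧
      GeoRep c s m f (geo c m f cel) y1 y2 y3 T1 T2 T3 N := by
  simp only [Box3.wf, Bool.and_eq_true] at hc
  obtain ⟨⟨c1, c2⟩, c3⟩ := hc
  obtain ⟨s1, p1, e1⟩ := Iv.exists_s c1 h1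
  obtain ⟨s2, p2, e2⟩ := Iv.exists_s c2 h2
  obtain ⟨s3, p3, e3⟩ := Iv.exists_s c3 h3
  obtain ⟨f1, f2, f3, f4, f5⟩ := pta_fwf hf
  obtain ⟨a1, b1, t1⟩ := pta_iv c1 (Rep.v1 (c := c) (s := ![s1, s2, s3, 0])) e1
  obtain ⟨a2, b2, t2⟩ := pta_iv c2 (Rep.v2 (c := c) (s := ![s1, s2, s3, 0])) e2
  obtain ⟨a3, b3, t3⟩ := pta_iv c3 (Rep.v3 (c := c) (s := ![s1, s2, s3, 0])) e3
  have q1 : (0 : ℝ) < cel.I1.den * (1 + ![s1, s2, s3, 0] 0) :=
    mul_pos (pta_wf c1).1 (show 0 < 1 + s1 by linarith)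
  have q2 : (0 : ℝ) < cel.I2.den * (1 + ![s1, s2, s3, 0] 1) :=
    mul_pos (pta_wf c2).1 (show 0 < 1 + s2 by linarith)
  have q3 : (0 : ℝ) < cel.I3.den * (1 + ![s1, s2, s3, 0] 2) :=
    mul_pos (pta_wf c3).1 (show 0 < 1 + s3 by linarith)
  have hs : ∀ i, 0 ≤ (![s1, s2, s3, 0] : Fin 4 → ℝ) i := fun i => by
    fin_cases i
    exacts [p1, p2, p3, le_rfl]
  generalize (cel.I1.den : ℝ) * (1 + ![s1, s2, s3, 0] 0) = T1 at *
  generalize (cel.I2.den : ℝ) * (1 + ![s1, s2, s3, 0] 1) = T2 at *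
  generalize (cel.I3.den : ℝ) * (1 + ![s1, s2, s3, 0] 2) = T3 at *
  generalize (![s1, s2, s3, 0] : Fin 4 → ℝ) = s at *
  obtain ⟨N, hN⟩ : ∃ N, N = (f.dom.I1.den : ℝ) * f.dom.I2.den * (T1 * T2) := ⟨_, rfl⟩
  have R1 := pta_comb f.dom.I1 f1 a1 b1
  have R2 := pta_comb f.dom.I2 f2 a2 b2
  have u0 := ((t1.smul f.dom.I1.den).mul (t2.smul f.dom.I2.den)).congr (y := N) (by rw [hN]; ring)
  have u1 := (R1.mul (t2.smul f.dom.I2.den)).congr (y := N * f.dom.I1.at y1) (by rw [hN]; ring)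
  have u2 := (R1.mul R2).congr (y := N * (f.dom.I1.at y1 * f.dom.I2.at y2)) (by rw [hN]; ring)
  refine ⟨s, T1, T2, T3, N, hs, q1, q2, q3, hN, u0, u1, u2, u0.pow m,
    (u1.pow m).congr (mul_pow _ _ _), (u2.pow m).congr (mul_pow _ _ _),
    (((u0.pow m).add (u1.pow m)).add (u2.pow m)).congr ?_, pta_comb f.dom.I3 f3 a3 b3,
    t3.smul _, ((b3.smul _).add (a3.smul _)).congr ?_,
    (((t1.pow _).mul (t2.pow _)).mul (t3.pow _)).smul _, fun P hP =>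
      (Rep.evK P hP (a1.bas b1 _) (a2.bas b2 _) (a3.bas b3 _)).congr
        (P3.evR_smul P _ _ _ _ _ _ _ _ _ _ _ _)⟩
  · rw [sS, mul_pow N, mul_pow N]
    ring
  · rw [Nat.cast_sub f4, Nat.cast_sub f5, Iv.at]
    push_cast
    field_simp
    ring

/-- `ch_apply`, `av_of_mem`: `q i = 1 + μ - μ * pt i`. -/
theorem GeoRep.Q {c : Ctx} {s : Fin 4 → ℝ} {m : ℕ} {f : Fit} {g : Geo} {y1 y2 y3 T1 T2 T3 N : ℝ}
    (h : GeoRep c s m f g y1 y2 y3 T1 T2 T3 N) (hr : 0 ≤ f.dom.I1.at y1) (ht : 0 ≤ f.dom.I2.at y2)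
    (i : Fin 3) :
    Rep c s (g.Q i) (f.dom.I3.den * T3 * (N ^ m * sS m (f.dom.I1.at y1) (f.dom.I2.at y2)) *
      ch (-(f.dom.I3.at y3)) (pt m (f.dom.I1.at y1) (f.dom.I2.at y2)) i) := by
  have hS := sS_pos m hr ht
  rw [ch_apply, av_of_mem (pt_mem m hr ht)]
  have e := h.N3.add h.R3
  fin_cases i
  · refine ((h.M3.mul h.p0).add (e.mul (h.p1.add h.p2))).congr ?_
    simp only [pt, Fin.zero_eta, Matrix.cons_val_zero]
    field_simp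
    rw [sS]
    ring
  · refine ((h.M3.mul h.p1).add (e.mul (h.p0.add h.p2))).congr ?_
    simp only [pt, Fin.mk_one, Matrix.cons_val_one, Matrix.cons_val_zero]
    field_simp
    rw [sS]
    ring
  · refine ((h.M3.mul h.p2).add (e.mul (h.p0.add h.p1))).congr ?_
    simp only [pt, Fin.reduceFinMk, Matrix.cons_val]
    field_simp
    rw [sS]
    ring

theorem Fit.mu_le {f : Fit} (hf : f.wf = true) {y : ℝ} (h0 : 0 ≤ y) (h1 : y ≤ 1) :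
    f.dom.I3.at y ≤ 1 / 2 := by
  obtain ⟨-, -, f3, f4, f5⟩ := pta_fwf hf
  have f4' : 2 * (f.dom.I3.lo : ℝ) ≤ f.dom.I3.den := by exact_mod_cast f4
  have f5' : 2 * (f.dom.I3.hi : ℝ) ≤ f.dom.I3.den := by exact_mod_cast f5
  rw [Iv.at, div_le_iff₀ f3]
  nlinarith

theorem pta_unit {y : ℝ} (h0 : 0 < y) (h1 : y ≤ 1) : (⟨0, 1, 1⟩ : Iv).mem y :=
  ⟨y, h0, h1, by simp [Iv.at]⟩

theorem pta_W {E S D q : ℝ} (hq : 0 ≤ q) {k m : ℕ} (hm : 0 < m) (hk : k ≤ m) :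
    E ^ (m / Nat.gcd k m) * S ^ (m / Nat.gcd k m - k / Nat.gcd k m) * (D * S * q) ^ (k / Nat.gcd k m)
      = (E * S * q ^ ((k : ℝ) / m)) ^ (m / Nat.gcd k m) * D ^ (k / Nat.gcd k m) := by
  have hg : 0 < Nat.gcd k m := Nat.gcd_pos_of_pos_right k hm
  have h1 : k / Nat.gcd k m ≤ m / Nat.gcd k m := Nat.div_le_div_right hk
  have h2 : (q ^ ((k : ℝ) / m)) ^ (m / Nat.gcd k m) = q ^ (k / Nat.gcd k m) := by
    rw [← Real.rpow_natCast, ← Real.rpow_mul hq, ← Real.rpow_natCast]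
    congr 1
    have hg' : (Nat.gcd k m : ℝ) ≠ 0 := by positivity
    have hm' : (m : ℝ) ≠ 0 := by positivity
    rw [Nat.cast_div (Nat.gcd_dvd_right k m) hg', Nat.cast_div (Nat.gcd_dvd_left k m) hg']
    field_simp
  obtain ⟨j, hj⟩ := Nat.exists_eq_add_of_le h1
  rw [mul_pow _ (q ^ _), h2, hj, Nat.add_sub_cancel_left]
  ring

/-- Use `geo_rep` on `Box3.unit` (there `mem y` means `0 < y ≤ 1`).  With `W = E S q^(k'/m')`
one has `W^m' N3^k' = E^m' S^(m'-k') Q^k'`; cancel `N3^k'`, take `m'`-th roots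
(`pow_le_pow_left_iff`), cancel the powers of `T`.  `q ≥ 0` by `ch_mem`, `channel_nonneg_anti`;
`(k : ℝ) / m = k' / m'` for `k' = k / gcd k m`, `m' = m / gcd k m`. -/
theorem fitChk_sound {c : Ctx} {m : ℕ} {f : Fit} {k : ℕ} {i : Fin 3}
    (h : fitChk c m f k i = true) : FitOK1 m f k i := by
  simp only [fitChk, fitCore, Bool.and_eq_true, Nat.blt_eq, Nat.ble_eq] at h
  obtain ⟨⟨⟨⟨⟨hf, hm⟩, hk⟩, hL⟩, hU⟩, h1, h2⟩ := h
  refine ⟨hL, hU, fun y1 y2 y3 a1 b1 a2 b2 a3 b3 => ?_⟩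
  obtain ⟨s, T1, T2, T3, N, hs, G⟩ := geo_rep c m hf (cel := Box3.unit) rfl (pta_unit a1 b1)
    (pta_unit a2 b2) (pta_unit a3 b3)
  have hr := f.dom.I1.at_nonneg a1.le b1
  have ht := f.dom.I2.at_nonneg a2.le b2
  have hq := (ch_mem (channel_nonneg_anti (f.dom.I3.at_nonneg a3.le b3) (Fit.mu_le hf a3.le b3))
    (pt_mem m hr ht)).1 i
  have hm' : m / Nat.gcd k m ≠ 0 :=
    (Nat.div_pos (Nat.gcd_le_right k hm) (Nat.gcd_pos_of_pos_right k hm)).ne'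
  have p1 := G.T1_pos
  have p2 := G.T2_pos
  have p3 := G.T3_pos
  have hτ : 0 < T1 ^ (m + f.x1) * T2 ^ (m + f.x2) * T3 ^ f.e := by positivity
  have hD : 0 < (f.dom.I3.den * T3) ^ (k / Nat.gcd k m) :=
    pow_pos (mul_pos (pta_fwf hf).2.2.1 p3) _
  have hW := (((G.E.pow (m / Nat.gcd k m)).mul (G.S.pow (m / Nat.gcd k m - k / Nat.gcd k m))).mul
    ((G.Q hr ht i).pow (k / Nat.gcd k m))).congr
      (y := (T1 ^ (m + f.x1) * T2 ^ (m + f.x2) * T3 ^ f.e * f.tgt m k i y1 y2 y3) ^ (m / Nat.gcd k m)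
        * (f.dom.I3.den * T3) ^ (k / Nat.gcd k m)) (by
      rw [pta_W hq hm hk, G.N_eq, Fit.tgt]
      congr 2
      ring)
  have hS := (sS_pos m hr ht).le
  have ht0 : 0 ≤ f.tgt m k i y1 y2 y3 := by
    unfold Fit.tgt
    positivity
  constructor
  · have := Rep.le hs (((G.V _ hL).pow _).mul (G.N3.pow _)) hW h1
    exact le_of_mul_le_mul_left (le_of_pow_le_pow_left₀ hm' (mul_nonneg hτ.le ht0)
      (le_of_mul_le_mul_right this hD)) hτ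
  · have := Rep.le hs hW (((G.V _ hU).pow _).mul (G.N3.pow _)) h2
    exact le_of_mul_le_mul_left (le_of_pow_le_pow_left₀ hm' ((G.V _ hU).nonneg hs)
      (le_of_mul_le_mul_right this hD)) hτ

theorem FitOK.of_list {par : Par} {f : Fit} (ks : List ℕ) (h : par.ksOK ks = true)
    (H : ∀ k ∈ ks, ∀ i : Fin 3, FitOK1 par.m f k i) : FitOK par f := by
  intro α hα k hk h0
  rw [Par.ksOK, allR_eq, List.all_eq_true] at h
  have h1 := h α hα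
  simp only [Bool.and_eq_true, List.elem_eq_contains, List.contains_iff_mem, List.mem_cons] at h1
  refine H k ?_
  rcases hk with rfl | rfl | rfl
  exacts [h1.1.1.resolve_left h0, h1.1.2.resolve_left h0, h1.2.resolve_left h0]

/-- all three coordinates at once -/
theorem fitChk3_sound {c : Ctx} {m : ℕ} {f : Fit} {k : ℕ}
    (h : (fitChk c m f k 0 && fitChk c m f k 1 && fitChk c m f k 2) = true) (i : Fin 3) :
    FitOK1 m f k i := by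
  simp only [Bool.and_eq_true] at h
  fin_cases i
  · exact fitChk_sound (i := 0) h.1.1
  · exact fitChk_sound (i := 1) h.1.2
  · exact fitChk_sound (i := 2) h.2

end Crest.Agent.R163
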