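import Crest.Agent.R163.Q3.PtA

/-!
# Soundness of the pointwise check on one cell

Notation: `S' = N^m * sS` (value of `g.S`), `E'` the value of `g.E`, `Sn = S'` or `1`,
`dd'`, `dn'` the values of `dd`, `dn`, so that `D * dn' = dd' > 0`.  The inequality of `PtAt`
multiplied by `M = 6 E'^3 S'^3 Sn dn' > 0` is the checked one:
* `M * D * (1 - Zf q) = A0 - dd' Sn * 6 (E' S')^3 Zf q`, and `6 (E' S')^3 Zf q` is the permanent
  of `E' S' q i ^ (k / m)` (`Zf_eq`), which lies between the permanents of the lower and of the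
  upper bounds (`FitOK`; all entries are nonnegative by `Rep.nonneg`);
* `M * (1 - Zf p) = F2 * (S3 - UT)`, since `Zf p = ZT / (2 S')`;
* `M * chi p = F2 * (PP - S3)`, since `chi p = 3 P2 / S'^2 - 1`; `M = F2 * S3`;
* near: `M * chi p ^ 2 = F2 * (Qp - Qm)`.
-/

set_option autoImplicit false

namespace Crest.Agent.R163

/-- `(3 x^m / S)^(k/m) = (3/S)^(k/m) x^k` and the exponents add up to one. -/
theorem Zf_pt {m : ℕ} {α : Al} (h : α.ok m) {r t : ℝ} (hr : 0 ≤ r) (ht : 0 ≤ t) :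
    Zf m α (pt m r t) * (2 * sS m r t) =
      1 ^ α.1 * (r ^ α.2.1 * (r * t) ^ α.2.2 + (r * t) ^ α.2.1 * r ^ α.2.2)
        + r ^ α.1 * (1 ^ α.2.1 * (r * t) ^ α.2.2 + (r * t) ^ α.2.1 * 1 ^ α.2.2)
        + (r * t) ^ α.1 * (1 ^ α.2.1 * r ^ α.2.2 + r ^ α.2.1 * 1 ^ α.2.2) := by
  have hS := sS_pos m hr ht
  have hm : (m : ℝ) ≠ 0 := Nat.cast_ne_zero.2 h.1.ne'
  have e : ∀ x : ℝ, 0 ≤ x → ∀ k : ℕ, (3 * x ^ m / sS m r t) ^ ((k : ℝ) / m) =
      (3 / sS m r t) ^ ((k : ℝ) / m) * x ^ k := fun x hx k => by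
    rw [mul_div_right_comm, Real.mul_rpow (by positivity) (by positivity), ← Real.rpow_natCast x m,
      ← Real.rpow_mul hx, mul_div_cancel₀ _ hm, Real.rpow_natCast]
  have e1 : (3 / sS m r t) ^ ((α.1 : ℝ) / m) * (3 / sS m r t) ^ ((α.2.1 : ℝ) / m) *
      (3 / sS m r t) ^ ((α.2.2 : ℝ) / m) * sS m r t = 3 := by
    rw [← Real.rpow_add (by positivity), ← Real.rpow_add (by positivity), ← add_div, ← add_div,
      ← Nat.cast_add, ← Nat.cast_add, h.2, div_self hm, Real.rpow_one, div_mul_cancel₀ _ hS.ne']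
  rw [Zf_eq]
  simp only [pt, Matrix.cons_val, e r hr, e _ (mul_nonneg hr ht), one_pow]
  linear_combination (r ^ α.2.1 * (r * t) ^ α.2.2 + (r * t) ^ α.2.1 * r ^ α.2.2 +
    r ^ α.1 * ((r * t) ^ α.2.2 + (r * t) ^ α.2.1) + (r * t) ^ α.1 * (r ^ α.2.2 + r ^ α.2.1)) / 3 * e1

theorem chi_pt (m : ℕ) {r t : ℝ} (hr : 0 ≤ r) (ht : 0 ≤ t) :
    chi (pt m r t) * sS m r t ^ 2 =
      3 * (1 + (r ^ m) ^ 2 + ((r * t) ^ m) ^ 2) - sS m r t ^ 2 := by
  have hS := (sS_pos m hr ht).ne'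
  simp only [chi, pt, Fin.sum_univ_three, Matrix.cons_val, Nat.cast_ofNat]
  field_simp
  unfold sS
  ring

/-- The purely numerical part: real values of the features, related to a positive factor
`f2 * s3`.  `u α`, `v α` stand for `D * (1 - Zf q)` and `1 - Zf p`, `a` for `chi p`. -/
structure FeatRep (c : Ctx) (s : Fin 4 → ℝ) (F : FeatK) (als : List Al) (u v : Al → ℝ) (a : ℝ)
    (near : Bool) : Prop where
  ex : ∃ (a0 f2 s3 pp qp qm : ℝ) (gl gu ut : Al → ℝ),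
    0 < f2 ∧ 0 < s3 ∧ Rep c s F.A0 a0 ∧ Rep c s F.F2 f2 ∧ Rep c s F.S3 s3 ∧ Rep c s F.PP pp ∧
    Rep c s F.Qp qp ∧ Rep c s F.Qm qm ∧
    List.Forall₂ (Rep c s) F.Gl (als.map gl) ∧ List.Forall₂ (Rep c s) F.Gu (als.map gu) ∧
    List.Forall₂ (Rep c s) F.UT (als.map ut) ∧
    (∀ α ∈ als, f2 * s3 * u α ≤ a0 - gl α) ∧ (∀ α ∈ als, a0 - gu α ≤ f2 * s3 * u α) ∧
    (∀ α ∈ als, s3 * v α = s3 - ut α) ∧ s3 * a = pp - s3 ∧
    (near = true → s3 * a ^ 2 = qp - qm)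

/-- comparison of the bounds -/
def PtB_le (a b : K) : Prop := a.l ≤ b.l ∧ a.d1 ≤ b.d1 ∧ a.d2 ≤ b.d2 ∧ a.d3 ≤ b.d3

theorem PtB_le.l {a b : K} (h : PtB_le a b) (b' : K) : PtB_le a (b.sup b') := by
  simp only [PtB_le, K.sup, mx_eq] at h ⊢
  omega

theorem PtB_le.r {a b : K} (h : PtB_le a b) (b' : K) : PtB_le a (b'.sup b) := by
  simp only [PtB_le, K.sup, mx_eq] at h ⊢
  omega

theorem PtB_rfl (a : K) : PtB_le a a := ⟨le_rfl, le_rfl, le_rfl, le_rfl⟩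

section
variable {c : Ctx} {s : Fin 4 → ℝ} {b : K}

theorem PtB_add {j j' n n' : ℕ} {x x' : ℝ} (h : Rep c s ((K.smul j b).wn n) x)
    (h' : Rep c s ((K.smul j' b).wn n') x') :
    Rep c s ((K.smul (j + j') b).wn (Nat.add n n')) (x + x') :=
  (h.add h').mono rfl (add_mul j j' b.l).ge ((mx_eq _ _).trans (max_self _)).le
    ((mx_eq _ _).trans (max_self _)).le ((mx_eq _ _).trans (max_self _)).le

theorem PtB_mul {k : K} {x : ℝ} (h : Rep c s k x) (hk : PtB_le k b) (j : ℕ) :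
    Rep c s ((K.smul j b).wn (Nat.mul j k.n)) (j * x) :=
  (h.smul j).mono rfl (Nat.mul_le_mul_left j hk.1) hk.2.1 hk.2.2.1 hk.2.2.2

theorem PtB_dot {ks : List K} {xs : List ℝ} (h : List.Forall₂ (Rep c s) ks xs)
    (hk : PtB_le (K.supL ks) b) (cs : List ℕ) :
    Rep c s ((K.smul (sumR cs) b).wn (dot cs (mapR K.n ks))) (dotR cs xs) :=
  Rep.dot b cs ((Rep.supL h).imp fun _ _ h => h.mono rfl hk.1 hk.2.1 hk.2.2.1 hk.2.2.2)

theorem PtB_fin {b' f : K} {j j' n n' G : ℕ} {x x' y : ℝ} (h : Rep c s ((K.smul j b).wn n) x)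
    (hf : Rep c s f y) (h' : Rep c s ((K.smul j' b').wn n') x') (hj : j ≤ G) (hj' : j' ≤ G) :
    Rep c s ((K.smul G (K.add b (K.mul f b'))).wn (Nat.add n (Nat.mul f.n n'))) (x + y * x') := by
  refine (h.add (hf.mul h')).mono rfl ?_ le_rfl le_rfl le_rfl
  change j * b.l + f.l * (j' * b'.l) ≤ G * (b.l + f.l * b'.l)
  rw [mul_add, mul_left_comm]
  gcongr

end

theorem PtB_list {f2 s3 a0 : ℝ} {u v gl gu ut : Al → ℝ} (ts : List Tm) (als : List Al)
    (hl : ts.length ≤ als.length) (h1 : ∀ α ∈ als, f2 * s3 * u α ≤ a0 - gl α)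
    (h2 : ∀ α ∈ als, a0 - gu α ≤ f2 * s3 * u α) (h3 : ∀ α ∈ als, s3 * v α = s3 - ut α) :
    f2 * s3 * ((tsR als ts).map fun t => t.2.1 * u t.1 - t.2.2 * v t.1).sum ≤
      ((sumR (mapR (fun t => ip t.ga) ts) : ℝ) - sumR (mapR (fun t => im t.ga) ts)) * a0 +
        dotR (mapR (fun t => im t.ga) ts) (als.map gu) -
        dotR (mapR (fun t => ip t.ga) ts) (als.map gl) +
        f2 * (((sumR (mapR (fun t => im t.w) ts) : ℝ) - sumR (mapR (fun t => ip t.w) ts)) * s3 +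
          dotR (mapR (fun t => ip t.w) ts) (als.map ut) -
          dotR (mapR (fun t => im t.w) ts) (als.map ut)) := by
  simp only [mapR_eq, sumR_eq]
  induction ts generalizing als with
  | nil => simp [tsR, dotR]
  | cons t ts ih =>
    rcases als with _ | ⟨α, als⟩
    · simp at hl
    have a1 := mul_le_mul_of_nonneg_left (h1 α List.mem_cons_self) (ip t.ga).cast_nonneg
    have a2 := mul_le_mul_of_nonneg_left (h2 α List.mem_cons_self) (im t.ga).cast_nonneg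
    have a3 := h3 α List.mem_cons_self
    have a4 := ih als (by simpa using hl) (fun β hβ => h1 β (List.mem_cons_of_mem _ hβ))
      (fun β hβ => h2 β (List.mem_cons_of_mem _ hβ)) fun β hβ => h3 β (List.mem_cons_of_mem _ hβ)
    simp only [tsR, dotR, List.map_cons, List.zipWith_cons_cons, List.sum_cons, Nat.cast_add] at a4 ⊢
    rw [← ip_sub_im t.ga, ← ip_sub_im t.w]
    linear_combination a1 + a2 + a4 - f2 * ((ip t.w : ℝ) - im t.w) * a3

/-- Both sides are represented with the bounds `F.bd G` (`Rep.supL`, `Rep.dot`, `Rep.mono`), so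
`Rep.le_of_raw` compares their values; then induction on the list of terms (`ip_sub_im`) and
division by `f2 * s3`. -/
theorem stepCore_sound {c : Ctx} {s : Fin 4 → ℝ} (hs : ∀ i, 0 ≤ s i) {F : FeatK} {als : List Al}
    {u v : Al → ℝ} {a : ℝ} {near : Bool} (hF : FeatRep c s F als u v a near) {G : ℕ}
    (hG : K.fits c (F.bd G) = true) {st : Step} (hl : st.ts.length ≤ als.length) {np zp kq : ℕ}
    (hk : near = true ∨ kq = 0) (h : stepCore c.mask c.top G F.raw st np zp kq = true) :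
    ((tsR als st.ts).map fun t => t.2.1 * u t.1 - t.2.2 * v t.1).sum
      + ((np : ℝ) - im st.nu) * a + kq * a ^ 2 ≤ (zp : ℝ) - im st.z := by
  obtain ⟨a0, f2, s3, pp, qp, qm, gl, gu, ut, f0, s0, rA, rF, rS, rP, rp, rm, rl, ru, rt, h1, h2, h3,
    h4, h5⟩ := hF.ex
  obtain ⟨b1, b2⟩ := Bool.and_eq_true_iff.1 h
  rw [Nat.ble_eq] at b1
  have b3 := Rep.le_of_raw hs
    (PtB_fin (G := G) (PtB_add (PtB_mul rA ((PtB_rfl _).l _) (sumR st.gp))
      (PtB_dot ru (((PtB_rfl _).r _).r _) st.gm)) rF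
      (PtB_add (PtB_add (PtB_mul rS ((((PtB_rfl _).l _).l _).l _) (sumR st.wm + im st.nu + im st.z))
        (PtB_dot rt ((PtB_rfl _).r _) st.wp))
        (PtB_add (PtB_mul rP ((((PtB_rfl _).r _).l _).l _) np)
          (PtB_mul rp ((((PtB_rfl _).l _).r _).l _) kq))) (by omega) (by omega))
    (PtB_fin (G := G) (PtB_add (PtB_mul rA ((PtB_rfl _).l _) (sumR st.gm))
      (PtB_dot rl (((PtB_rfl _).l _).r _) st.gp)) rF
      (PtB_add (PtB_add (PtB_mul rS ((((PtB_rfl _).l _).l _).l _) (sumR st.wp + np + zp))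
        (PtB_dot rt ((PtB_rfl _).r _) st.wm))
        (PtB_add (PtB_mul rP ((((PtB_rfl _).r _).l _).l _) (im st.nu))
          (PtB_mul rm ((((PtB_rfl _).r _).r _).l _) kq))) (by omega) (by omega)) hG hG b2
  have b4 := PtB_list st.ts als hl h1 h2 h3
  have b5 : kq * (s3 * a ^ 2) = kq * (qp - qm) := by
    rcases hk with hk | rfl
    · rw [h5 hk]
    · simp
  refine le_of_mul_le_mul_left ?_ (mul_pos f0 s0)
  simp only [Step.gp, Step.gm, Step.wp, Step.wm, Nat.cast_add] at b3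
  linear_combination b3 + b4 + f2 * b5 + f2 * ((np : ℝ) - im st.nu) * h4

/-- the real permanent -/
def PtB_perm (w : ℕ → Fin 3 → ℝ) (α : Al) : ℝ :=
  w α.1 0 * (w α.2.1 1 * w α.2.2 2 + w α.2.1 2 * w α.2.2 1) +
    w α.1 1 * (w α.2.1 0 * w α.2.2 2 + w α.2.1 2 * w α.2.2 0) +
    w α.1 2 * (w α.2.1 0 * w α.2.2 1 + w α.2.1 1 * w α.2.2 0)

theorem PtB_perm_rep {c : Ctx} {s : Fin 4 → ℝ} {v : ℕ → ℕ → K} {w : ℕ → Fin 3 → ℝ} {α : Al}
    (h : ∀ k, (k = α.1 ∨ k = α.2.1 ∨ k = α.2.2) → ∀ i : Fin 3, Rep c s (v k i) (w k i)) :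
    Rep c s (perm3 v α) (PtB_perm w α) :=
  have a := h _ (.inl rfl)
  have b := h _ (.inr (.inl rfl))
  have d := h _ (.inr (.inr rfl))
  (((a 0).mul (((b 1).mul (d 2)).add ((b 2).mul (d 1)))).add
    ((a 1).mul (((b 0).mul (d 2)).add ((b 2).mul (d 0))))).add
    ((a 2).mul (((b 0).mul (d 1)).add ((b 1).mul (d 0))))

theorem PtB_perm_mono {w w' : ℕ → Fin 3 → ℝ} {α : Al}
    (h : ∀ k, (k = α.1 ∨ k = α.2.1 ∨ k = α.2.2) → ∀ i : Fin 3, 0 ≤ w k i ∧ w k i ≤ w' k i) :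
    PtB_perm w α ≤ PtB_perm w' α := by
  have a := h _ (.inl rfl)
  have b := h _ (.inr (.inl rfl))
  have d := h _ (.inr (.inr rfl))
  have k : ∀ i j l i' j', w α.1 l * (w α.2.1 i * w α.2.2 j + w α.2.1 i' * w α.2.2 j') ≤
      w' α.1 l * (w' α.2.1 i * w' α.2.2 j + w' α.2.1 i' * w' α.2.2 j') := fun i j l i' j' =>
    mul_le_mul (a l).2 (add_le_add (mul_le_mul (b i).2 (d j).2 (d j).1 ((b i).1.trans (b i).2))
      (mul_le_mul (b i').2 (d j').2 (d j').1 ((b i').1.trans (b i').2)))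
      (add_nonneg (mul_nonneg (b i).1 (d j).1) (mul_nonneg (b i').1 (d j').1))
      ((a l).1.trans (a l).2)
  exact add_le_add (add_le_add (k _ _ _ _ _) (k _ _ _ _ _)) (k _ _ _ _ _)

theorem PtB_map {c : Ctx} {s : Fin 4 → ℝ} {als : List Al} {v : Al → K} {w : Al → ℝ}
    (h : ∀ α ∈ als, Rep c s (v α) (w α)) : List.Forall₂ (Rep c s) (mapR v als) (als.map w) := by
  rwa [mapR_eq, List.forall₂_map_left_iff, List.forall₂_map_right_iff, List.forall₂_same]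

theorem PtB_P2 {c : Ctx} {s : Fin 4 → ℝ} {m : ℕ} {f : Fit} {g : Geo} {y1 y2 y3 T1 T2 T3 N : ℝ}
    (hg : GeoRep c s m f g y1 y2 y3 T1 T2 T3 N) (hr : 0 ≤ f.dom.I1.at y1) (ht : 0 ≤ f.dom.I2.at y2) :
    Rep c s (K.add (K.add (K.pow g.p0 2) (K.pow g.p1 2)) (K.pow g.p2 2))
      ((N ^ m * sS m (f.dom.I1.at y1) (f.dom.I2.at y2)) ^ 2 *
        (chi (pt m (f.dom.I1.at y1) (f.dom.I2.at y2)) + 1) / 3) :=
  (((hg.p0.pow 2).add (hg.p1.pow 2)).add (hg.p2.pow 2)).congr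
    (by linear_combination (-(N ^ m) ^ 2 / 3) * chi_pt m hr ht)

theorem PtB_N {c : Ctx} {s : Fin 4 → ℝ} {m : ℕ} {f : Fit} {g : Geo} {y1 y2 y3 T1 T2 T3 N : ℝ}
    (hg : GeoRep c s m f g y1 y2 y3 T1 T2 T3 N) (hf : f.wf = true) : 0 < N := by
  simp only [Fit.wf, Bool.and_eq_true, Nat.blt_eq] at hf
  obtain ⟨⟨⟨⟨⟨-, k1⟩, k2⟩, -⟩, -⟩, -⟩ := hf
  have := hg.T1_pos
  have := hg.T2_pos
  rw [hg.N_eq]
  positivity

theorem featK_rep {c : Ctx} {s : Fin 4 → ℝ} (hs : ∀ i, 0 ≤ s i) {par : Par} (hw : par.wf = true)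
    {f : Fit} (hf : FitOK par f) (hf' : f.wf = true) {g : Geo} {y1 y2 y3 T1 T2 T3 N : ℝ}
    (hg : GeoRep c s par.m f g y1 y2 y3 T1 T2 T3 N) (h1 : 0 < y1 ∧ y1 ≤ 1) (h2 : 0 < y2 ∧ y2 ≤ 1)
    (h3 : 0 < y3 ∧ y3 ≤ 1) (hd : (par.crit || Nat.blt 0 par.dd) = true) {D : ℝ}
    (hD : par.dOK (f.dom.I3.at y3) D) (near : Bool) :
    FeatRep c s (featK par f g near) par.als
      (fun α => D * (1 - Zf par.m α (ch (-(f.dom.I3.at y3))
        (pt par.m (f.dom.I1.at y1) (f.dom.I2.at y2)))))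
      (fun α => 1 - Zf par.m α (pt par.m (f.dom.I1.at y1) (f.dom.I2.at y2)))
      (chi (pt par.m (f.dom.I1.at y1) (f.dom.I2.at y2))) near := by
  have hN := PtB_N hg hf'
  have hf'' := hf'
  have hr := f.dom.I1.at_nonneg h1.1.le h1.2
  have ht := f.dom.I2.at_nonneg h2.1.le h2.2
  have rP := PtB_P2 hg hr ht
  simp only [Fit.wf, Bool.and_eq_true, Nat.blt_eq] at hf'
  obtain ⟨⟨⟨⟨⟨k0, -⟩, -⟩, k3⟩, -⟩, -⟩ := hf'
  have t1 := hg.T1_pos
  have t2 := hg.T2_pos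
  have t3 := hg.T3_pos
  have hS := sS_pos par.m hr ht
  have rS := hg.S
  have rE := hg.E
  set r := f.dom.I1.at y1 with hr'
  set t := f.dom.I2.at y2 with ht'
  set q := ch (-(f.dom.I3.at y3)) (pt par.m r t) with hq
  set S := N ^ par.m * sS par.m r t with hS'
  set E := (f.ka0 : ℝ) * (T1 ^ f.x1 * T2 ^ f.x2 * T3 ^ f.e) with hE
  have S0 : 0 < S := by positivity
  have E0 : 0 < E := by positivity
  obtain ⟨Sn, rn, n0, hn⟩ : ∃ Sn : ℝ, Rep c s (cond near g.S (K.cst 1)) Sn ∧ 0 < Sn ∧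
      (near = true → Sn = S) := by
    cases near
    · exact ⟨_, Rep.cst 1, by simp, by simp⟩
    · exact ⟨S, rS, S0, fun _ => rfl⟩
  obtain ⟨dd, dn, rd, rd', d0, hdd⟩ : ∃ dd dn : ℝ,
      Rep c s (cond par.crit (K.pow g.N3 2) (K.cst par.dd)) dd ∧
      Rep c s (cond par.crit (K.pow g.R3 2) (K.cst par.dn)) dn ∧ 0 < dd ∧ D * dn = dd := by
    unfold Par.dOK at hD
    cases hc : par.crit <;> rw [hc] at hD hd
    · exact ⟨_, _, Rep.cst _, Rep.cst _, by simpa using hd, by simpa using hD⟩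
    · refine ⟨_, _, hg.N3.pow 2, hg.R3.pow 2, by positivity, ?_⟩
      rw [if_pos rfl] at hD
      linear_combination (f.dom.I3.den * T3) ^ 2 * hD
  have d1 : 0 < dn := (rd'.nonneg hs).lt_of_ne' (by rintro rfl; linarith)
  obtain ⟨qp, qm, rp, rm, hpm⟩ : ∃ qp qm : ℝ,
      Rep c s (featK par f g near).Qp qp ∧ Rep c s (featK par f g near).Qm qm ∧
      (near = true → 6 * S ^ 4 * chi (pt par.m r t) ^ 2 = qp - qm) := by
    cases near
    · exact ⟨_, _, Rep.cst 0, Rep.cst 0, by simp⟩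
    · exact ⟨_, _, ((rP.pow 2).smul 54).add (((rS.pow 2).pow 2).smul 6),
        (rP.mul (rS.pow 2)).smul 36, fun _ => by push_cast; ring⟩
  have rX := rd.mul rn
  have rY := ((rS.pow 2).mul rn).smul 3
  set w : (ℕ → ℕ → P3) → ℕ → Fin 3 → ℝ := fun P k i => if k = 0 then E * S else
    T1 ^ (par.m + f.x1) * T2 ^ (par.m + f.x2) * T3 ^ f.e * f.val par.m (P k i) y1 y2 y3 with hw'
  have rw' : ∀ (P : ℕ → ℕ → P3) k (i : Fin 3), (k ≠ 0 → (P k i).tot ≤ f.cs) →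
      Rep c s (g.vB f.cs P k i) (w P k i) := fun P k i h => by
    rcases k with _ | k
    · exact rE.mul rS
    · exact hg.V _ (h k.succ_ne_zero)
  have hb : ∀ α ∈ par.als, ∀ k, (k = α.1 ∨ k = α.2.1 ∨ k = α.2.2) → ∀ i : Fin 3,
      Rep c s (g.vB f.cs f.gL k i) (w f.gL k i) ∧ Rep c s (g.vB f.cs f.gU k i) (w f.gU k i) ∧
      w f.gL k i ≤ E * S * q i ^ ((k : ℝ) / par.m) ∧
      E * S * q i ^ ((k : ℝ) / par.m) ≤ w f.gU k i := fun α hα k hk i => by
    refine ⟨rw' _ k i fun h => (hf α hα k hk h i).1, rw' _ k i fun h => (hf α hα k hk h i).2.1, ?_⟩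
    by_cases h : k = 0
    · simp [hw', h]
    obtain ⟨a1, a2⟩ := (hf α hα k hk h i).2.2 y1 y2 y3 h1.1 h1.2 h2.1 h2.2 h3.1 h3.2
    have e : E * S * q i ^ ((k : ℝ) / par.m) = T1 ^ (par.m + f.x1) * T2 ^ (par.m + f.x2) *
        T3 ^ f.e * f.tgt par.m k i y1 y2 y3 := by
      rw [hE, hS', hg.N_eq, Fit.tgt]
      ring
    simp only [hw', if_neg h, e]
    constructor <;> gcongr
  have hZ : ∀ α, PtB_perm (fun k i => E * S * q i ^ ((k : ℝ) / par.m)) α =
      6 * (E * S) ^ 3 * Zf par.m α q := fun α => by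
    rw [Zf_eq, PtB_perm]
    ring
  refine ⟨_, _, _, _, qp, qm, fun α => PtB_perm (w f.gL) α * (dd * Sn),
    fun α => PtB_perm (w f.gU) α * (dd * Sn),
    fun α => PtB_perm (fun k i => ![N, N * r, N * (r * t)] i ^ k) α * (((3 : ℕ) : ℝ) * (S ^ 2 * Sn)),
    by positivity, by positivity, (((rE.mul rS).pow 3).mul rX).smul 6, rd'.mul (rE.pow 3),
    (rY.mul rS).smul 2, ((rP.mul rS).mul rn).smul 18, rp, rm,
    PtB_map fun α hα => (PtB_perm_rep fun k hk i => (hb α hα k hk i).1).mul rX,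
    PtB_map fun α hα => (PtB_perm_rep fun k hk i => (hb α hα k hk i).2.1).mul rX,
    PtB_map fun α hα => (PtB_perm_rep fun k _ i => ?_).mul rY, fun α hα => ?_, fun α hα => ?_,
    fun α hα => ?_, by push_cast; ring, fun h => ?_⟩
  · fin_cases i
    exacts [hg.t0.pow k, hg.t1.pow k, hg.t2.pow k]
  · have := mul_le_mul_of_nonneg_right ((PtB_perm_mono fun k hk i =>
      ⟨(hb α hα k hk i).1.nonneg hs, (hb α hα k hk i).2.2.1⟩).trans_eq (hZ α)) (rX.nonneg hs)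
    push_cast
    linear_combination this + 6 * (E * S) ^ 3 * Sn * (1 - Zf par.m α q) * hdd
  · have hq0 : ∀ i, 0 ≤ q i := (ch_mem (channel_nonneg_anti (f.dom.I3.at_nonneg h3.1.le h3.2)
      (Fit.mu_le hf'' h3.1.le h3.2)) (pt_mem _ hr ht)).1
    have := mul_le_mul_of_nonneg_right ((hZ α).symm.trans_le (PtB_perm_mono fun k hk i =>
      ⟨mul_nonneg (by positivity) (Real.rpow_nonneg (hq0 i) _), (hb α hα k hk i).2.2.2⟩))
      (rX.nonneg hs)
    push_cast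
    linear_combination this - 6 * (E * S) ^ 3 * Sn * (1 - Zf par.m α q) * hdd
  · have a1 := Scal_ok hw α hα
    have a2 := Zf_pt a1 hr ht
    have a3 : N ^ par.m = N ^ α.1 * N ^ α.2.1 * N ^ α.2.2 := by rw [← a1.2, pow_add, pow_add]
    simp only [PtB_perm, Matrix.cons_val, mul_pow N, one_pow] at a2 ⊢
    push_cast
    linear_combination (-3 * S ^ 2 * Sn * (N ^ α.1 * N ^ α.2.1 * N ^ α.2.2)) * a2 -
      6 * S ^ 2 * Sn * Zf par.m α (pt par.m r t) * (hS' + sS par.m r t * a3)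
  · rw [← hpm h, hn h]
    push_cast
    ring

/-- `geo_rep`, `featK_rep`, `stepCore_sound`; the `amin` check gives `amin ≤ XS * chi p`
(`chi_pt`; `chi_nonneg` if `amin = 0`). -/
theorem chk_sound {c : Ctx} {par : Par} (hw : par.wf = true) {f : Fit} (hf : FitOK par f)
    {gb : ℕ} {cel : Box3} {near : Bool} {amin : ℕ} {C : List Step}
    (h : chk c par f gb cel near amin C = true) : Ok par f cel C := by
  intro st hst y1 y2 y3 m1 m2 m3 D X hD hX0 hX1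
  simp only [chk, chkF, Bool.and_eq_true, allR_eq, List.all_eq_true] at h
  obtain ⟨⟨⟨a1, a2⟩, a3⟩, ⟨a4, a5⟩, a6⟩ := h
  obtain ⟨s, T1, T2, T3, N, hs, hg⟩ := geo_rep c par.m a1 a2 m1 m2 m3
  simp only [Box3.wf, Bool.and_eq_true] at a2
  have u1 := Iv.mem_unit a2.1.1 m1
  have u2 := Iv.mem_unit a2.1.2 m2
  have hF := featK_rep hs hw hf a1 hg u1 u2 (Iv.mem_unit a2.2 m3) a3 hD near
  have hr := f.dom.I1.at_nonneg u1.1.le u1.2
  have ht := f.dom.I2.at_nonneg u2.1.le u2.2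
  have b1 : (amin : ℝ) ≤ par.XS * chi (pt par.m (f.dom.I1.at y1) (f.dom.I2.at y2)) := by
    rcases Bool.or_eq_true_iff.1 a5 with h | h
    · rw [Nat.eq_of_beq_eq_true h, Nat.cast_zero]
      exact mul_nonneg (Nat.cast_nonneg _) (chi_nonneg _)
    · have b2 := Rep.le hs ((hg.S.pow 2).smul _) ((PtB_P2 hg hr ht).smul _) h
      have b3 := PtB_N hg a1
      have b4 := sS_pos par.m hr ht
      refine le_of_mul_le_mul_left ?_
        (show 0 < (N ^ par.m * sS par.m (f.dom.I1.at y1) (f.dom.I2.at y2)) ^ 2 by positivity)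
      push_cast at b2
      linear_combination b2
  obtain ⟨c1, c2⟩ := Bool.and_eq_true_iff.1 (a6 st hst)
  rw [Nat.ble_eq] at c1
  unfold ptF
  rw [← ip_sub_im st.nu, ← ip_sub_im st.z]
  have k0 : (0 : ℝ) ≤ st.ka := Nat.cast_nonneg _
  cases near
  · obtain ⟨c3, c4⟩ := Bool.and_eq_true_iff.1 c2
    have c5 := stepCore_sound hs hF a4 c1 (Or.inr rfl) c4
    generalize chi (pt par.m (f.dom.I1.at y1) (f.dom.I2.at y2)) = a at *
    have c6 : 0 ≤ (st.ka : ℝ) * ((st.x1 - X * par.XS) * (2 * (par.XS * a) - st.x1 - X * par.XS)) := by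
      rcases Bool.or_eq_true_iff.1 c3 with h | h
      · simp [Nat.eq_of_beq_eq_true h]
      · have : (st.x1 : ℝ) ≤ amin := Nat.cast_le.2 (Nat.le_of_ble_eq_true h)
        exact mul_nonneg k0 (mul_nonneg (by linarith) (by linarith))
    push_cast at c5
    linear_combination c5 + c6
  · have c5 := stepCore_sound hs hF a4 c1 (Or.inl rfl) c2
    generalize chi (pt par.m (f.dom.I1.at y1) (f.dom.I2.at y2)) = a at *
    have c6 : 0 ≤ (st.ka : ℝ) * (par.XS * (a - X)) ^ 2 := by positivity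
    push_cast at c5
    linear_combination c5 + c6

end Crest.Agent.R163
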