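import Crest.Agent.R163.Q3.PtB

/-!
# Subdivision, covering, and the passage to all of `Spx 3`
-/

set_option autoImplicit false

namespace Crest.Agent.R163

/-- `y ≤ 1/2`: take `2 y`; otherwise `2 y - 1`. -/
theorem Iv.mem_l_or_r {I : Iv} {x : ℝ} (h : I.mem x) : I.l.mem x ∨ I.r.mem x := by
  obtain ⟨y, h0, h1, rfl⟩ := h
  rcases le_or_gt y (1 / 2) with hy | hy
  · refine Or.inl ⟨2 * y, by linarith, by linarith, ?_⟩
    simp only [Iv.at, Iv.l]
    push_cast
    rw [← mul_div_mul_left _ _ (two_ne_zero (α := ℝ))]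
    congr 1; ring
  · refine Or.inr ⟨2 * y - 1, by linarith, by linarith, ?_⟩
    simp only [Iv.at, Iv.r]
    push_cast
    rw [← mul_div_mul_left _ _ (two_ne_zero (α := ℝ))]
    congr 1; ring

theorem Iv.mem_of_sub {I J : Iv} (h : I.sub J = true) {x : ℝ} (hx : I.mem x) : J.mem x := by
  simp only [Iv.sub, Bool.or_eq_true, Bool.and_eq_true, Nat.beq_eq, Nat.blt_eq, Nat.ble_eq] at h
  rcases h with ⟨⟨h1, h2⟩, h3⟩ | ⟨⟨⟨⟨h1, h2⟩, h3⟩, h4⟩, h5⟩
  · obtain ⟨y, h0, h0', rfl⟩ := hx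
    exact ⟨y, h0, h0', by simp only [Iv.at, h1, h2, h3]⟩
  · obtain ⟨y, h0, h0', rfl⟩ := hx
    have a1 : (0 : ℝ) < I.den := by exact_mod_cast h1
    have a2 : (0 : ℝ) < J.den := by exact_mod_cast h2
    have a3 : (I.lo : ℝ) < I.hi := by exact_mod_cast h3
    have a4 : (J.lo : ℝ) * I.den ≤ I.lo * J.den := by exact_mod_cast h4
    have a5 : (I.hi : ℝ) * J.den ≤ J.hi * I.den := by exact_mod_cast h5
    have b1 : (I.lo : ℝ) < I.lo * (1 - y) + I.hi * y := by nlinarith [mul_pos h0 (sub_pos.2 a3)]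
    have b2 : (I.lo : ℝ) * (1 - y) + I.hi * y ≤ I.hi := by
      nlinarith [mul_nonneg (sub_nonneg.2 h0') (sub_pos.2 a3).le]
    refine Iv.mem_of_lt h2 ?_ ?_
    · rw [Iv.at, div_mul_eq_mul_div, lt_div_iff₀ a1]
      exact a4.trans_lt (mul_lt_mul_of_pos_right b1 a2)
    · rw [Iv.at, div_mul_eq_mul_div, div_le_iff₀ a1]
      exact (mul_le_mul_of_nonneg_right b2 a2.le).trans a5

theorem mem_selB {C : List Step} {st : Step} (h : st ∈ C) (M : ℕ) :
    st ∈ selB 1 C M ∨ st ∈ selB 0 C M := by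
  induction C generalizing M with
  | nil => cases h
  | cons a C ih =>
    have e : ∀ b, selB b (a :: C) M = cond (Nat.beq (Nat.mod M 2) b) (a :: selB b C (Nat.div M 2))
        (selB b C (Nat.div M 2)) := fun b => rfl
    rw [e, e]
    rcases List.mem_cons.1 h with rfl | h
    · rcases Nat.mod_two_eq_zero_or_one M with h2 | h2
      · right
        rw [show Nat.mod M 2 = 0 from h2]
        exact List.mem_cons_self
      · left
        rw [show Nat.mod M 2 = 1 from h2]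
        exact List.mem_cons_self
    · have k : ∀ b, st ∈ selB b C (Nat.div M 2) → st ∈ cond (Nat.beq (Nat.mod M 2) b)
          (a :: selB b C (Nat.div M 2)) (selB b C (Nat.div M 2)) := fun b hb => by
        cases Nat.beq (Nat.mod M 2) b
        · exact hb
        · exact List.mem_cons_of_mem _ hb
      exact (ih h _).imp (k 1) (k 0)

theorem Ok.part {par : Par} {f : Fit} {cel : Box3} {C : List Step} (M : ℕ)
    (h1 : Ok par f cel (selB 1 C M)) (h0 : Ok par f cel (selB 0 C M)) : Ok par f cel C := by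
  intro st hst
  exact (mem_selB hst M).elim (h1 st) (h0 st)

theorem PtC_split {B : Box3} (d : ℕ) {a b c : ℝ} (h1 : B.I1.mem a) (h2 : B.I2.mem b)
    (h3 : B.I3.mem c) :
    ((B.l d).I1.mem a ∧ (B.l d).I2.mem b ∧ (B.l d).I3.mem c) ∨
      ((B.r d).I1.mem a ∧ (B.r d).I2.mem b ∧ (B.r d).I3.mem c) := by
  match d with
  | 0 => exact (Iv.mem_l_or_r h1).imp (fun h => ⟨h, h2, h3⟩) fun h => ⟨h, h2, h3⟩
  | 1 => exact (Iv.mem_l_or_r h2).imp (fun h => ⟨h1, h, h3⟩) fun h => ⟨h1, h, h3⟩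
  | _ + 2 => exact (Iv.mem_l_or_r h3).imp (fun h => ⟨h1, h2, h⟩) fun h => ⟨h1, h2, h⟩

theorem Ok.split {par : Par} {f : Fit} {cel : Box3} {C : List Step} (d : ℕ)
    (h1 : Ok par f (cel.l d) C) (h0 : Ok par f (cel.r d) C) : Ok par f cel C := by
  intro st hst y1 y2 y3 a b c
  rcases PtC_split d a b c with ⟨a, b, c⟩ | ⟨a, b, c⟩
  · exact h1 st hst _ _ _ a b c
  · exact h0 st hst _ _ _ a b c

theorem Ok.run {par : Par} (hw : par.wf = true) {f : Fit} (hf : FitOK par f) (c : Ctx) (gb : ℕ)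
    (t : PT) {cel : Box3} {C : List Step} (h : runT c par f gb t cel C = true) :
    Ok par f cel C := by
  induction t generalizing cel C with
  | chk near amin => exact chk_sound hw hf h
  | part M l r ihl ihr =>
    have h' : (runT c par f gb l cel (selB 1 C M) && runT c par f gb r cel (selB 0 C M)) = true := h
    rw [Bool.and_eq_true] at h'
    exact Ok.part M (ihl h'.1) (ihr h'.2)
  | split d l r ihl ihr =>
    have h' : (runT c par f gb l (cel.l d) C && runT c par f gb r (cel.r d) C) = true := h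
    rw [Bool.and_eq_true] at h'
    exact Ok.split d (ihl h'.1) (ihr h'.2)

theorem PtC_unit {y : ℝ} (h0 : 0 < y) (h1 : y ≤ 1) : Iv.mem ⟨0, 1, 1⟩ y :=
  ⟨y, h0, h1, by simp [Iv.at]⟩

theorem OkD.of_ok {par : Par} {f : Fit} {C : List Step} (h : Ok par f Box3.unit C) :
    OkD par f.dom C := by
  rintro st hst _ _ _ ⟨y1, a1, b1, rfl⟩ ⟨y2, a2, b2, rfl⟩ ⟨y3, a3, b3, rfl⟩
  exact h st hst y1 y2 y3 (PtC_unit a1 b1) (PtC_unit a2 b2) (PtC_unit a3 b3)

theorem OkD.cover {par : Par} {C : List Step} (ds : List Box3) (t : DT) {d : Box3}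
    (h : cov ds t d = true) (H : ∀ d' ∈ ds, OkD par d' C) : OkD par d C := by
  induction t generalizing d with
  | leaf i =>
    have h' : (Nat.blt i ds.length && d.sub (ds.getD i Box3.unit)) = true := h
    simp only [Box3.sub, Bool.and_eq_true, Nat.blt_eq] at h'
    obtain ⟨hi, ⟨h1, h2⟩, h3⟩ := h'
    have hm : ds.getD i Box3.unit ∈ ds := by
      rw [List.getD_eq_getElem _ _ hi]
      exact List.getElem_mem hi
    intro st hst r t mu a b c
    exact H _ hm st hst r t mu (Iv.mem_of_sub h1 a) (Iv.mem_of_sub h2 b) (Iv.mem_of_sub h3 c)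
  | split k l r ihl ihr =>
    have h' : (cov ds l (d.l k) && cov ds r (d.r k)) = true := h
    rw [Bool.and_eq_true] at h'
    intro st hst y1 y2 y3 a b c
    rcases PtC_split k a b c with ⟨a, b, c⟩ | ⟨a, b, c⟩
    · exact ihl h'.1 st hst _ _ _ a b c
    · exact ihr h'.2 st hst _ _ _ a b c

/-- every sorted positive point is a `pt`: `r = (p 1 / p 0)^(1/m)`, `t = (p 2 / p 1)^(1/m)`. -/
theorem exists_pt {m : ℕ} (hm : 0 < m) {p : Fin 3 → ℝ} (hp : p ∈ Spx 3) (h2 : 0 < p 2)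
    (h21 : p 2 ≤ p 1) (h10 : p 1 ≤ p 0) :
    ∃ r t : ℝ, 0 < r ∧ r ≤ 1 ∧ 0 < t ∧ t ≤ 1 ∧ p = pt m r t := by
  have h1 : 0 < p 1 := h2.trans_le h21
  have h0 : 0 < p 0 := h1.trans_le h10
  have hs : p 0 + p 1 + p 2 = 3 := by
    have := hp.2
    rw [Fin.sum_univ_three] at this
    exact_mod_cast this
  have hi : (0 : ℝ) ≤ (m : ℝ)⁻¹ := by positivity
  have e1 : ((p 1 / p 0) ^ (m : ℝ)⁻¹) ^ m = p 1 / p 0 :=
    Real.rpow_inv_natCast_pow (by positivity) hm.ne'
  have e2 : ((p 2 / p 1) ^ (m : ℝ)⁻¹) ^ m = p 2 / p 1 :=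
    Real.rpow_inv_natCast_pow (by positivity) hm.ne'
  refine ⟨(p 1 / p 0) ^ (m : ℝ)⁻¹, (p 2 / p 1) ^ (m : ℝ)⁻¹, by positivity,
    Real.rpow_le_one (by positivity) ((div_le_one h0).2 h10) hi, by positivity,
    Real.rpow_le_one (by positivity) ((div_le_one h1).2 h21) hi, ?_⟩
  have e3 : sS m ((p 1 / p 0) ^ (m : ℝ)⁻¹) ((p 2 / p 1) ^ (m : ℝ)⁻¹) = 3 / p 0 := by
    rw [sS, mul_pow, e1, e2, ← hs]
    field_simp
  unfold pt
  rw [e3, mul_pow, e1, e2]
  funext i
  fin_cases i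
  · change p 0 = 3 / (3 / p 0)
    field_simp
  · change p 1 = 3 * (p 1 / p 0) / (3 / p 0)
    field_simp
  · change p 2 = 3 * (p 1 / p 0 * (p 2 / p 1)) / (3 / p 0)
    field_simp

theorem PtC_ch_perm (lam : ℝ) (p : Fin 3 → ℝ) (σ : Equiv.Perm (Fin 3)) :
    ch lam (fun i => p (σ i)) = fun i => ch lam p (σ i) := by
  funext i
  simp only [ch]
  rw [← Equiv.sum_comp σ fun j => Crest.ProbabilityR.Broadcast.channel 3 lam (σ i) j * p j]
  simp only [Crest.ProbabilityR.Broadcast.channel, EmbeddingLike.apply_eq_iff_eq]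

theorem PtC_chi_perm (p : Fin 3 → ℝ) (σ : Equiv.Perm (Fin 3)) :
    chi (fun i => p (σ i)) = chi p := by
  simp only [chi]
  rw [Equiv.sum_comp σ fun j => (p j - 1) ^ 2]

/-- `Zf_perm`; `ch` and `chi` commute with permutations. -/
theorem ptF_perm (m : ℕ) (mu D X : ℝ) (ts : List (Al × ℝ × ℝ)) (nu ka : ℝ) (p : Fin 3 → ℝ)
    (σ : Equiv.Perm (Fin 3)) :
    ptF m mu D X ts nu ka (fun i => p (σ i)) = ptF m mu D X ts nu ka p := by
  simp only [ptF, PtC_ch_perm, PtC_chi_perm, Zf_perm]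

theorem continuous_ptF (m : ℕ) (mu D X : ℝ) (ts : List (Al × ℝ × ℝ)) (nu ka : ℝ) :
    Continuous (ptF m mu D X ts nu ka) := by
  have h1 : Continuous (chi : (Fin 3 → ℝ) → ℝ) := by
    unfold chi; fun_prop
  have h2 : Continuous (ch (-mu) : (Fin 3 → ℝ) → Fin 3 → ℝ) := by
    unfold ch; fun_prop
  unfold ptF
  refine ((continuous_list_sum ts fun t _ => ?_).add (continuous_const.mul h1)).add
    (continuous_const.mul ((continuous_const.mul h1).sub continuous_const))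
  exact (continuous_const.mul (continuous_const.mul
    (continuous_const.sub ((continuous_Zf m t.1).comp h2)))).sub
    (continuous_const.mul (continuous_const.sub (continuous_Zf m t.1)))

/-- Positive points: sort (`Tuple.sort`, or six cases) and use `exists_pt`, `ptF_perm`.  General
points: `(1 - ε) p + ε → p` and `continuous_ptF`. -/
theorem PtAll.of_okD {par : Par} (hw : par.wf = true) {C : List Step}
    (h : OkD par ⟨⟨0, 1, 1⟩, ⟨0, 1, 1⟩, par.mu⟩ C) : PtAll par C := by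
  intro st hst mu D X hmu hD hX0 hX p hp
  have hm : 0 < par.m := by
    simp only [Par.wf, Bool.and_eq_true, Nat.blt_eq] at hw
    exact hw.1.1.1.1
  set F := ptF par.m mu D X (tsR par.als st.ts) st.nu (st.ka * (par.XS : ℝ) ^ 2) with hF
  have pos : ∀ q ∈ Spx 3, (∀ i, 0 < q i) → F q ≤ st.z := by
    intro q hq hq0
    let σ : Equiv.Perm (Fin 3) := (Fin.revPerm : Equiv.Perm (Fin 3)).trans (Tuple.sort q)
    have hmono := Tuple.monotone_sort q
    have hq' : (fun i => q (σ i)) ∈ Spx 3 :=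
      ⟨fun i => hq.1 _, by rw [Equiv.sum_comp σ q]; exact hq.2⟩
    obtain ⟨r, t, a1, a2, a3, a4, e⟩ := exists_pt hm hq' (hq0 _)
      (hmono (show Fin.rev (2 : Fin 3) ≤ Fin.rev 1 by decide))
      (hmono (show Fin.rev (1 : Fin 3) ≤ Fin.rev 0 by decide))
    rw [hF, ← ptF_perm _ _ _ _ _ _ _ q σ, e]
    exact h st hst r t mu (PtC_unit a1 a2) (PtC_unit a3 a4) hmu D X hD hX0 hX
  have hc : Continuous fun ε : ℝ => F fun i => (1 - ε) * p i + ε :=
    (continuous_ptF _ _ _ _ _ _ _).comp (by fun_prop)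
  have ht : Filter.Tendsto (fun ε : ℝ => F fun i => (1 - ε) * p i + ε) (nhdsWithin 0 (Set.Ioi 0))
      (nhds (F p)) := by
    have := (hc.tendsto 0).mono_left (nhdsWithin_le_nhds (s := Set.Ioi 0))
    simpa only [sub_zero, one_mul, add_zero] using this
  refine le_of_tendsto ht ?_
  filter_upwards [Ioo_mem_nhdsGT (zero_lt_one (α := ℝ))] with ε hε
  have hp0 : ∀ i, 0 < (1 - ε) * p i + ε := fun i =>
    add_pos_of_nonneg_of_pos (mul_nonneg (sub_nonneg.2 hε.2.le) (hp.1 i)) hε.1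
  refine pos _ ⟨fun i => (hp0 i).le, ?_⟩ hp0
  have := hp.2
  simp only [Fin.sum_univ_three] at this ⊢
  push_cast at this ⊢
  linear_combination (1 - ε) * this

end Crest.Agent.R163
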