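import Crest.Agent.R163.Q3.FP
import Crest.Agent.R163.Q3.K

/-!
# Branch and bound on the limiting moments: the scalar side

A box is a range `x0 / XS < X ≤ x1 / XS` and, for every exponent `α` of the list, quadratic
curves `lo X ≤ GS * g α ≤ hi X`.  A step cuts off a part of the box; it is justified by a
pointwise inequality (`Pt`, proved elsewhere) and a scalar computation (`stepOK`).
All scalar polynomial inequalities are checked in the coordinates
`X = (x1 + x0 s) / (XS (1 + s))`, `GS * g = (hi + r lo) / (1 + r)`, `s, r ≥ 0`.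
-/

set_option autoImplicit false

namespace Crest.Agent.R163

/-- `c0 + c1 X + c2 X^2` -/
structure Cv where
  c0 : ℤ
  c1 : ℤ
  c2 : ℤ

noncomputable def Cv.ev (c : Cv) (X : ℝ) : ℝ := c.c0 + c.c1 * X + c.c2 * X ^ 2

structure Box where
  x0 : ℕ
  x1 : ℕ
  lo : List Cv
  hi : List Cv

/-- multipliers `ga` of `g α`, `w` of `rho (g α)`, and a lower bound `B` of
`ga * g - w * rho g` on the box -/
structure Tm where
  ga : ℤ
  w : ℤ
  B : Cv

structure Step where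
  kind : ℕ
  j : ℕ
  tau : Cv
  /-- `0`: use the multipliers; `i + 1`: the range of the `i`-th moment is empty -/
  emp : ℕ
  ts : List Tm
  nu : ℤ
  z : ℤ
  ka : ℕ
  x1 : ℕ

/-- the points `(lo (1 - y) + hi y) / den`, `0 < y ≤ 1` -/
structure Iv where
  lo : ℕ
  hi : ℕ
  den : ℕ

noncomputable def Iv.at (I : Iv) (y : ℝ) : ℝ := (I.lo * (1 - y) + I.hi * y) / I.den

def Iv.mem (I : Iv) (x : ℝ) : Prop := ∃ y : ℝ, 0 < y ∧ y ≤ 1 ∧ x = I.at y

structure Par where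
  m : ℕ
  als : List Al
  XS : ℕ
  GS : ℕ
  J : ℕ
  bhi : ℕ
  blo : ℕ
  mu : Iv
  crit : Bool
  dn : ℕ
  dd : ℕ

def Par.dOK (par : Par) (mu D : ℝ) : Prop :=
  if par.crit = true then D * mu ^ 2 = 1 else D * par.dn = par.dd

def Par.wf (par : Par) : Bool :=
  Nat.blt 0 par.m && allR (fun α : Al => Nat.beq (α.1 + α.2.1 + α.2.2) par.m) par.als &&
    Nat.blt 0 par.XS && Nat.blt 0 par.GS && (Nat.beq par.bhi 0 || Nat.ble 4 par.bhi)

/-- positive part -/
def ip (z : ℤ) : ℕ := Int.casesOn (motive := fun _ => ℕ) z (fun n => n) (fun _ => 0)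
/-- negative part -/
def im (z : ℤ) : ℕ := Int.casesOn (motive := fun _ => ℕ) z (fun _ => 0) (fun n => Nat.succ n)
/-- `0 ≤ z` -/
def inn (z : ℤ) : Bool := Int.casesOn (motive := fun _ => Bool) z (fun _ => true) (fun _ => false)

def tsR (als : List Al) (ts : List Tm) : List (Al × ℝ × ℝ) :=
  List.zipWith (fun α t => (α, (t.ga : ℝ), (t.w : ℝ))) als ts

/-- the pointwise inequality of a step -/
def Pt (par : Par) (st : Step) : Prop :=
  ∀ mu D X : ℝ, par.mu.mem mu → par.dOK mu D → 0 ≤ X → X * par.XS ≤ st.x1 → ∀ p ∈ Spx 3,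
    ptF par.m mu D X (tsR par.als st.ts) st.nu (st.ka * (par.XS : ℝ) ^ 2) p ≤ st.z

def PtAll (par : Par) (C : List Step) : Prop := ∀ st ∈ C, Pt par st

def inLo (f : Al → ℝ) (X : ℝ) : List Al → List Cv → Prop
  | α :: as, c :: cs => c.ev X ≤ f α ∧ inLo f X as cs
  | _, _ => True

def inHi (f : Al → ℝ) (X : ℝ) : List Al → List Cv → Prop
  | α :: as, c :: cs => f α ≤ c.ev X ∧ inHi f X as cs
  | _, _ => True

def inBox (par : Par) (b : Box) (s : St) : Prop :=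
  (b.x0 : ℝ) < s.X * par.XS ∧ s.X * par.XS ≤ b.x1 ∧
    inLo (fun α => par.GS * s.g α) s.X par.als b.lo ∧ inHi (fun α => par.GS * s.g α) s.X par.als b.hi

/-- no limiting state lies in the box -/
def Inf (par : Par) (b : Box) : Prop :=
  ∀ s : St, FP par.m s → par.mu.mem s.mu → par.dOK s.mu s.D → ble par.bhi s.b → ble s.b par.blo →
    inBox par b s → False

def Box.setLo (b : Box) (j : ℕ) (t : Cv) : Box := ⟨b.x0, b.x1, b.lo.set j t, b.hi⟩
def Box.setHi (b : Box) (j : ℕ) (t : Cv) : Box := ⟨b.x0, b.x1, b.lo, b.hi.set j t⟩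
def Box.setX0 (b : Box) (t : ℕ) : Box := ⟨t, b.x1, b.lo, b.hi⟩
def Box.setX1 (b : Box) (t : ℕ) : Box := ⟨b.x0, t, b.lo, b.hi⟩

/-- the part that is cut off -/
def Step.cut (st : Step) (b : Box) : Box :=
  match st.kind with
  | 0 => b.setLo st.j st.tau
  | 1 => b.setHi st.j st.tau
  | 2 => b.setX0 (ip st.tau.c0)
  | _ => b.setX1 (ip st.tau.c0)

/-- the part that remains -/
def Step.rest (st : Step) (b : Box) : Box :=
  match st.kind with
  | 0 => b.setHi st.j st.tau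
  | 1 => b.setLo st.j st.tau
  | 2 => b.setX1 (ip st.tau.c0)
  | _ => b.setX0 (ip st.tau.c0)

/-- coefficients of `XS^2 (1 + s)^2 * c.ev X` in `s`, for `X = (x1 + x0 s) / (XS (1 + s))` -/
def Cv.bern (c : Cv) (XS x0 x1 : ℕ) : Cv :=
  ⟨c.c0 * (XS * XS : ℕ) + c.c1 * (XS * x1 : ℕ) + c.c2 * (x1 * x1 : ℕ),
   c.c0 * (2 * XS * XS : ℕ) + c.c1 * (XS * (x0 + x1) : ℕ) + c.c2 * (2 * x0 * x1 : ℕ),
   c.c0 * (XS * XS : ℕ) + c.c1 * (XS * x0 : ℕ) + c.c2 * (x0 * x0 : ℕ)⟩

def Cv.nn (c : Cv) : Bool := inn c.c0 && inn c.c1 && inn c.c2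
def Cv.add (a b : Cv) : Cv := ⟨a.c0 + b.c0, a.c1 + b.c1, a.c2 + b.c2⟩
def Cv.neg (a : Cv) : Cv := ⟨-a.c0, -a.c1, -a.c2⟩
def Cv.beq (a b : Cv) : Bool := decide (a.c0 = b.c0) && decide (a.c1 = b.c1) && decide (a.c2 = b.c2)

/-- positive part of the coefficients, as a polynomial in the first variable -/
def Cv.kp (c : Ctx) (b : Cv) : K :=
  K.add (K.cst (ip b.c0)) (K.mul (K.v1 c) (K.lin (ip b.c1) (ip b.c2) (K.v1 c)))
/-- negative part of the coefficients -/
def Cv.km (c : Ctx) (b : Cv) : K :=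
  K.add (K.cst (im b.c0)) (K.mul (K.v1 c) (K.lin (im b.c1) (im b.c2) (K.v1 c)))

/-- After `k` steps: `(∑_{j ≤ k odd} cn j G^j H^(k-j), ∑_{1 ≤ j ≤ k even} cn j G^j H^(k-j), G^k)`.
The flag is `true` when `k` is even. -/
def oe (b n : ℕ) (G H : K) (k : ℕ) : K × K × K × Bool :=
  Nat.rec (motive := fun _ => K × K × K × Bool) (K.cst 0, K.cst 0, K.cst 1, true)
    (fun k ih =>
      cond ih.2.2.2
        (K.add (K.mul ih.1 H) (K.smul (cn b n (k + 1)) (K.mul ih.2.2.1 G)), K.mul ih.2.1 H,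
          K.mul ih.2.2.1 G, false)
        (K.mul ih.1 H, K.add (K.mul ih.2.1 H) (K.smul (cn b n (k + 1)) (K.mul ih.2.2.1 G)),
          K.mul ih.2.2.1 G, true)) k

/-- `t.B X ≤ ga * g - w * P g` with `P = Pb b n`, `g = G / H`, multiplied by `cd b n * H^n`. -/
def tmCore (c : Ctx) (b n : ℕ) (G H R Bp Bm : K) (t : Tm) : Bool :=
  K.le c
    (K.add (K.mul (K.add (K.mul Bp R) (K.smul (im t.ga) G)) (K.smul (cd b n) (K.pow H (n - 1))))
      (K.add (K.smul (ip t.w) (oe b n G H n).1) (K.smul (im t.w) (oe b n G H n).2.1)))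
    (K.add (K.mul (K.add (K.mul Bm R) (K.smul (ip t.ga) G)) (K.smul (cd b n) (K.pow H (n - 1))))
      (K.add (K.smul (ip t.w) (oe b n G H n).2.1) (K.smul (im t.w) (oe b n G H n).1)))

/-- `t.B X ≤ ga * g - w * rho g` for `X` in the range and `lo ≤ GS g ≤ hi`, `0 ≤ g`. -/
def tmOK (par : Par) (c : Ctx) (x0 x1 : ℕ) (lo hi : Cv) (t : Tm) : Bool :=
  let lb := lo.bern par.XS x0 x1
  let hb := hi.bern par.XS x0 x1
  let R := K.smul par.GS (K.lin 1 1 (K.v2 c))
  let H := K.mul (K.smul (par.XS * par.XS) (K.pow (K.lin 1 1 (K.v1 c)) 2)) R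
  let G := K.add (hb.kp c) (K.mul (K.v2 c) (cond lb.nn (lb.kp c) (K.cst 0)))
  let Bb := t.B.bern par.XS x0 x1
  cond (Nat.blt 0 (ip t.w))
    (((Cv.add ⟨4 * par.GS, 0, 0⟩ hi.neg).bern par.XS x0 x1).nn &&
      tmCore c par.bhi (2 * par.J + 1) G H R (Bb.kp c) (Bb.km c) t)
    (cond (Nat.blt 0 (im t.w))
      (Nat.blt 0 par.J && tmCore c par.blo (2 * par.J) G H R (Bb.kp c) (Bb.km c) t)
      (tmCore c 0 1 G H R (Bb.kp c) (Bb.km c) t))

def tmsOK (par : Par) (c : Ctx) (x0 x1 : ℕ) (ts : List Tm) : List Cv → List Cv → Bool :=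
  List.rec (motive := fun _ => List Cv → List Cv → Bool) (fun _ _ => true)
    (fun t _ ih los his =>
      List.rec (motive := fun _ => Bool) false (fun lo los' _ =>
        List.rec (motive := fun _ => Bool) false (fun hi his' _ =>
          tmOK par c x0 x1 lo hi t && ih los' his') his) los) ts

def sumB (ts : List Tm) : Cv :=
  List.rec (motive := fun _ => Cv) ⟨0, 0, 0⟩ (fun t _ ih => Cv.add t.B ih) ts

/-- the box `b` is infeasible, given the pointwise inequality of `st` -/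
def certOK (par : Par) (c : Ctx) (st : Step) (b : Box) : Bool :=
  match st.emp with
  | 0 => Nat.ble st.ts.length par.als.length && Nat.ble b.x1 st.x1 &&
      ((Cv.add (sumB st.ts) ⟨-st.z, st.nu, (st.ka * (par.XS * par.XS) : ℕ) - 1⟩).bern
        par.XS b.x0 b.x1).nn && tmsOK par c b.x0 b.x1 st.ts b.lo b.hi
  | i + 1 => Nat.blt i par.als.length && Nat.blt i b.lo.length && Nat.blt i b.hi.length &&
      ((Cv.add (Cv.add (b.lo.getD i ⟨0, 0, 0⟩) (b.hi.getD i ⟨0, 0, 0⟩).neg) ⟨0, 0, -1⟩).bern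
        par.XS b.x0 b.x1).nn

def cvsEq (l : List Cv) : List Cv → Bool :=
  List.rec (motive := fun _ => List Cv → Bool)
    (fun l' => List.rec (motive := fun _ => Bool) true (fun _ _ _ => false) l')
    (fun a _ ih l' => List.rec (motive := fun _ => Bool) false
      (fun a' l'' _ => Cv.beq a a' && ih l'') l') l

def Box.beq (a b : Box) : Bool :=
  Nat.beq a.x0 b.x0 && Nat.beq a.x1 b.x1 && cvsEq a.lo b.lo && cvsEq a.hi b.hi

/-- run the steps from `b`; the result must be `b'` -/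
def stepsOK (par : Par) (c : Ctx) (b' : Box) (C : List Step) : Box → Bool :=
  List.rec (motive := fun _ => Box → Bool) (fun b => Box.beq b b')
    (fun st _ ih b => certOK par c st (st.cut b) && ih (st.rest b)) C

/-- the initial box -/
def box0 (par : Par) (x0 x1 : ℕ) : Box :=
  ⟨x0, x1, par.als.map fun _ => ⟨0, 0, 0⟩, par.als.map fun _ => ⟨32 * par.GS, 0, 0⟩⟩

theorem ip_sub_im (z : ℤ) : (ip z : ℝ) - im z = z := by
  cases z <;> simp [ip, im, Int.negSucc_eq]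

theorem inn_iff (z : ℤ) : inn z = true ↔ 0 ≤ z := by
  cases z <;> simp [inn]

/-- `s = (x1 - X XS) / (X XS - x0)`. -/
theorem exists_s {XS x0 x1 : ℕ} {X : ℝ} (h0 : (x0 : ℝ) < X * XS) (h1 : X * XS ≤ x1) :
    ∃ s : ℝ, 0 ≤ s ∧ X * XS * (1 + s) = x1 + x0 * s := by
  refine ⟨(x1 - X * XS) / (X * XS - x0), div_nonneg (by linarith) (by linarith), ?_⟩
  have : X * XS - x0 ≠ 0 := by linarith
  field_simp
  ring

theorem Cv.bern_ev (c : Cv) {XS x0 x1 : ℕ} {X s : ℝ} (h : X * XS * (1 + s) = x1 + x0 * s) :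
    (c.bern XS x0 x1).ev s = (XS : ℝ) ^ 2 * (1 + s) ^ 2 * c.ev X := by
  simp only [Cv.bern, Cv.ev]
  push_cast
  linear_combination (-(c.c1 : ℝ) * XS * (1 + s) - c.c2 * (X * XS * (1 + s) + x1 + x0 * s)) * h

theorem Cv.ev_nonneg_of_nn {c : Cv} (h : c.nn = true) {s : ℝ} (hs : 0 ≤ s) : 0 ≤ c.ev s := by
  simp only [Cv.nn, Bool.and_eq_true, inn_iff] at h
  obtain ⟨⟨h0, h1⟩, h2⟩ := h
  unfold Cv.ev
  positivity

theorem Scal_nn {c : Cv} {XS x0 x1 : ℕ} (hXS : 0 < XS) (h : (c.bern XS x0 x1).nn = true) {X : ℝ}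
    (h0 : (x0 : ℝ) < X * XS) (h1 : X * XS ≤ x1) : 0 ≤ c.ev X := by
  obtain ⟨s, hs, e⟩ := exists_s h0 h1
  have := Cv.ev_nonneg_of_nn h hs
  rw [c.bern_ev e] at this
  exact nonneg_of_mul_nonneg_right this (by positivity)

theorem Scal_ev_add (a b : Cv) (X : ℝ) : (a.add b).ev X = a.ev X + b.ev X := by
  simp only [Cv.add, Cv.ev]
  push_cast
  ring

theorem Scal_ev_neg (a : Cv) (X : ℝ) : a.neg.ev X = -a.ev X := by
  simp only [Cv.neg, Cv.ev]
  push_cast
  ring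

theorem Scal_oe {c : Ctx} {s : Fin 4 → ℝ} (b n : ℕ) {G H : K} {g h : ℝ} (hG : Rep c s G (g * h))
    (hH : Rep c s H h) (k : ℕ) (hk : k ≤ n) :
    ∃ o e : ℝ, Rep c s (oe b n G H k).1 o ∧ Rep c s (oe b n G H k).2.1 e ∧
      Rep c s (oe b n G H k).2.2.1 ((g * h) ^ k) ∧
      (-1 : ℝ) ^ k = cond (oe b n G H k).2.2.2 1 (-1) ∧ o - e = cd b n * h ^ k * Pb b k g := by
  induction k with
  | zero => exact ⟨_, _, Rep.cst 0, Rep.cst 0, (Rep.cst 1).congr (by simp), rfl, by simp [Pb]⟩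
  | succ k ih =>
    obtain ⟨o, e, h1, h2, h3, h4, h5⟩ := ih (by omega)
    have h6 := h3.mul hG
    have h7 := h6.smul (cn b n (k + 1))
    have e1 : oe b n G H (k + 1) = cond (oe b n G H k).2.2.2 (_, _, _, false) (_, _, _, true) := rfl
    rw [cn_eq b hk] at h7
    rw [e1, Pb, Finset.sum_range_succ, ← Pb, pow_succ (-1 : ℝ), h4]
    cases (oe b n G H k).2.2.2
    · exact ⟨_, _, h1.mul hH, (h2.mul hH).add h7, h6.congr (pow_succ _ _).symm, by simp,
        by simp only [cond_false]; linear_combination h * h5⟩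
    · exact ⟨_, _, (h1.mul hH).add h7, h2.mul hH, h6.congr (pow_succ _ _).symm, by simp,
        by simp only [cond_true]; linear_combination h * h5⟩

/-- Induction on `k`; then `Pb b n g * (cd b n * H^n) = O - E` by `cn_eq`. -/
theorem oe_rep {c : Ctx} {s : Fin 4 → ℝ} (b n : ℕ) {G H : K} {g h : ℝ} (hG : Rep c s G (g * h))
    (hH : Rep c s H h) :
    ∃ o e : ℝ, Rep c s (oe b n G H n).1 o ∧ Rep c s (oe b n G H n).2.1 e ∧
      o - e = cd b n * h ^ n * Pb b n g := by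
  obtain ⟨o, e, h1, h2, -, -, h3⟩ := Scal_oe b n hG hH n le_rfl
  exact ⟨o, e, h1, h2, h3⟩

/-- `h = x * r > 0`, `Bp - Bm = x * B`; divide by `cd b n * h^n`. -/
theorem tmCore_sound {c : Ctx} {s : Fin 4 → ℝ} (hs : ∀ i, 0 ≤ s i) {b n : ℕ} (hn : 0 < n)
    {G H R Bp Bm : K} {t : Tm} {g x r bp bm B : ℝ} (hx : 0 < x) (hr : 0 < r)
    (hG : Rep c s G (g * (x * r))) (hH : Rep c s H (x * r)) (hR : Rep c s R r)
    (hp : Rep c s Bp bp) (hm : Rep c s Bm bm) (hB : bp - bm = x * B)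
    (h : tmCore c b n G H R Bp Bm t = true) : B ≤ t.ga * g - t.w * Pb b n g := by
  obtain ⟨o, e, h1, h2, h3⟩ := oe_rep b n hG hH
  have h4 := (hH.pow (n - 1)).smul (cd b n)
  have h5 := Rep.le hs
    ((((hp.mul hR).add (hG.smul (im t.ga))).mul h4).add ((h1.smul (ip t.w)).add (h2.smul (im t.w))))
    ((((hm.mul hR).add (hG.smul (ip t.ga))).mul h4).add ((h2.smul (ip t.w)).add (h1.smul (im t.w))))
    h
  obtain ⟨n, rfl⟩ := Nat.exists_eq_succ_of_ne_zero hn.ne'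
  have h6 : (0 : ℝ) < cd b (n + 1) * (x * r) ^ (n + 1) :=
    mul_pos (Nat.cast_pos.2 (cd_pos _ _)) (by positivity)
  rw [← ip_sub_im t.ga, ← ip_sub_im t.w]
  refine le_of_mul_le_mul_left ?_ h6
  simp only [Nat.succ_eq_add_one, Nat.add_sub_cancel] at h3 h5
  linear_combination h5 - ((ip t.w : ℝ) - im t.w) * h3 - r * (cd b (n + 1) * (x * r) ^ n) * hB

theorem Scal_kp (c : Ctx) (s : Fin 4 → ℝ) (b : Cv) :
    Rep c s (b.kp c) (ip b.c0 + s 0 * (ip b.c1 + ip b.c2 * s 0)) :=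
  (Rep.cst _).add (Rep.v1.mul (Rep.v1.lin _ _))

theorem Scal_km (c : Ctx) (s : Fin 4 → ℝ) (b : Cv) :
    Rep c s (b.km c) (im b.c0 + s 0 * (im b.c1 + im b.c2 * s 0)) :=
  (Rep.cst _).add (Rep.v1.mul (Rep.v1.lin _ _))

theorem Scal_kpm (b : Cv) (s : ℝ) : (ip b.c0 + s * (ip b.c1 + ip b.c2 * s) : ℝ) -
    (im b.c0 + s * (im b.c1 + im b.c2 * s)) = b.ev s := by
  rw [Cv.ev, ← ip_sub_im, ← ip_sub_im b.c1, ← ip_sub_im b.c2]
  ring

theorem Scal_im {z : ℤ} (h : inn z = true) : im z = 0 := by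
  cases z
  · rfl
  · cases h

theorem Scal_core {XS GS : ℕ} (hXS : 0 < XS) (hGS : 0 < GS) {c : Ctx} {x0 x1 : ℕ} {lo hi : Cv}
    {t : Tm} {b n : ℕ} (hn : 0 < n)
    (h : tmCore c b n (K.add ((hi.bern XS x0 x1).kp c) (K.mul (K.v2 c)
        (cond (lo.bern XS x0 x1).nn ((lo.bern XS x0 x1).kp c) (K.cst 0))))
      (K.mul (K.smul (XS * XS) (K.pow (K.lin 1 1 (K.v1 c)) 2)) (K.smul GS (K.lin 1 1 (K.v2 c))))
      (K.smul GS (K.lin 1 1 (K.v2 c))) ((t.B.bern XS x0 x1).kp c) ((t.B.bern XS x0 x1).km c) t = true)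
    {X g : ℝ} (h0 : (x0 : ℝ) < X * XS) (h1 : X * XS ≤ x1) (hlo : lo.ev X ≤ GS * g)
    (hhi : GS * g ≤ hi.ev X) (hg : 0 ≤ g) : t.B.ev X ≤ t.ga * g - t.w * Pb b n g := by
  obtain ⟨s, hs, e⟩ := exists_s h0 h1
  set x : ℝ := (XS : ℝ) ^ 2 * (1 + s) ^ 2 with hx
  have x0' : 0 < x := by positivity
  have G0 : (0 : ℝ) < GS := Nat.cast_pos.2 hGS
  obtain ⟨u, hu, hu'⟩ : ∃ u : ℝ, (∀ r, Rep c ![s, r, 0, 0] ((hi.bern XS x0 x1).kp c) u) ∧
      x * (GS * g) ≤ u := by
    refine ⟨ip _ + s * (ip _ + ip _ * s), fun r => Scal_kp c ![s, r, 0, 0] _,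
      (mul_le_mul_of_nonneg_left hhi x0'.le).trans ?_⟩
    rw [hx, ← hi.bern_ev e, ← Scal_kpm]
    exact sub_le_self _ (by positivity)
  obtain ⟨v, hv, hv'⟩ : ∃ v : ℝ, (∀ r, Rep c ![s, r, 0, 0]
      (cond (lo.bern XS x0 x1).nn ((lo.bern XS x0 x1).kp c) (K.cst 0)) v) ∧ v ≤ x * (GS * g) := by
    cases hl : (lo.bern XS x0 x1).nn
    · exact ⟨_, fun r => Rep.cst 0, by push_cast; positivity⟩
    · refine ⟨ip _ + s * (ip _ + ip _ * s), fun r => Scal_kp c ![s, r, 0, 0] _,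
        le_trans ?_ (mul_le_mul_of_nonneg_left hlo x0'.le)⟩
      simp only [Cv.nn, Bool.and_eq_true] at hl
      rw [hx, ← lo.bern_ev e, ← Scal_kpm, Scal_im hl.1.1, Scal_im hl.1.2, Scal_im hl.2]
      simp
  set A := {a : ℝ | t.B.ev X ≤ t.ga * (a / (x * GS)) - t.w * Pb b n (a / (x * GS))}
  have hA : IsClosed A := isClosed_le continuous_const (by unfold Pb; fun_prop)
  have key : ∀ r a : ℝ, 0 ≤ r → u + r * v = a * (1 + r) → a ∈ A := fun r a hr ha => by
    have hR : Rep c ![s, r, 0, 0] _ (GS * (1 + r)) :=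
      ((Rep.v2.lin 1 1).smul GS).congr (by simp)
    refine tmCore_sound (s := ![s, r, 0, 0]) (fun i => by fin_cases i <;> simp [hs, hr]) hn x0'
      (by positivity) (((hu r).add (Rep.v2.mul (hv r))).congr ?_)
      ((((Rep.v1.lin 1 1).pow 2).smul _ |>.congr (by simp [hx, sq])).mul hR) hR
      (Scal_kp c _ _) (Scal_km c _ _) ((Scal_kpm _ _).trans (t.B.bern_ev e)) h
    refine ha.trans ?_
    field_simp
  have h2 : Set.Icc v u ⊆ A := by
    rcases (hv'.trans hu').eq_or_lt with h3 | h3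
    · exact fun a ha => key 0 a le_rfl (by linarith [ha.1, ha.2])
    · rw [← closure_Ioc h3.ne, hA.closure_subset_iff]
      intro a ha
      have h4 := sub_pos.2 ha.1
      refine key ((u - a) / (a - v)) a (div_nonneg (sub_nonneg.2 ha.2) h4.le) ?_
      field_simp
      ring
  have h3 := h2 ⟨hv', hu'⟩
  rwa [Set.mem_ofPred_eq, ← mul_assoc x, mul_div_cancel_left₀ _ (by positivity)] at h3

/-- Let `x = XS^2 (1+s)^2`, let `u` be the value of `hb.kp` (so `x * hi.ev X ≤ u`) and `v` the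
value of the lower polynomial (`v = x * lo.ev X` or `v = 0`), so `v ≤ x GS g ≤ u`.  For every
`r ≥ 0` the point `g_r = (u + r v) / (x GS (1 + r))` satisfies `B ≤ ga g_r - w P g_r`
(`tmCore_sound` at `![s, r, 0, 0]`).  These points fill `(v, u] / (x GS)`; the end `v` follows
by continuity of the polynomial (or `g_r → v / (x GS)`).  Finally `rho_le_Pb` (if `w > 0`; here
`g ≤ 4` by the first check), `Pb_le_rho` (if `w < 0`), nothing if `w = 0`. -/
theorem tmOK_sound {par : Par} (hw : par.wf = true) {c : Ctx} {x0 x1 : ℕ} {lo hi : Cv} {t : Tm}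
    (h : tmOK par c x0 x1 lo hi t = true) {X g : ℝ} {b : ℕ} (h0 : (x0 : ℝ) < X * par.XS)
    (h1 : X * par.XS ≤ x1) (hlo : lo.ev X ≤ par.GS * g) (hhi : par.GS * g ≤ hi.ev X) (hg : 0 ≤ g)
    (hb : b ≠ 0 → g ≤ b) (b1 : ble par.bhi b) (b2 : ble b par.blo) :
    t.B.ev X ≤ t.ga * g - t.w * rho b g := by
  simp only [Par.wf, Bool.and_eq_true, Bool.or_eq_true, Nat.blt_eq, Nat.beq_eq, Nat.ble_eq] at hw
  obtain ⟨⟨⟨-, hX⟩, hG⟩, h4⟩ := hw
  have e := ip_sub_im t.w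
  have a0 : (0 : ℝ) < par.GS := Nat.cast_pos.2 hG
  simp only [tmOK] at h
  obtain ⟨ga, w, B⟩ := t
  rcases w with (_ | w) | w
  · simpa using Scal_core hX hG one_pos h h0 h1 hlo hhi hg
  · obtain ⟨a1, a2⟩ := Bool.and_eq_true_iff.1 h
    have a3 := Scal_nn hX a1 h0 h1
    rw [Scal_ev_add, Scal_ev_neg] at a3
    have a4 : g ≤ 4 := by
      simp only [Cv.ev] at a3 hhi
      push_cast at a3
      nlinarith
    refine (Scal_core hX hG (Nat.succ_pos _) a2 h0 h1 hlo hhi hg).trans (sub_le_sub_left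
      (mul_le_mul_of_nonneg_left (rho_le_Pb b1 h4 hg a4 _) ?_) _)
    exact Int.cast_nonneg (Int.natCast_nonneg _)
  · obtain ⟨a1, a2⟩ := Bool.and_eq_true_iff.1 h
    rw [Nat.blt_eq] at a1
    refine (Scal_core hX hG (by omega) a2 h0 h1 hlo hhi hg).trans (sub_le_sub_left
      (mul_le_mul_of_nonpos_left (Pb_le_rho b2 hg hb _) ?_) _)
    exact Int.cast_nonpos.2 (Int.negSucc_lt_zero w).le

theorem Scal_ok {par : Par} (hw : par.wf = true) : ∀ α ∈ par.als, α.ok par.m := by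
  simp only [Par.wf, Bool.and_eq_true, Nat.blt_eq, allR_eq, List.all_eq_true, Nat.beq_eq] at hw
  exact fun α h => ⟨hw.1.1.1.1, hw.1.1.1.2 α h⟩

theorem Scal_sum {par : Par} (hw : par.wf = true) {c : Ctx} {x0 x1 : ℕ} {s : St} (hs : FP par.m s)
    (h0 : (x0 : ℝ) < s.X * par.XS) (h1 : s.X * par.XS ≤ x1) (b1 : ble par.bhi s.b)
    (b2 : ble s.b par.blo) (ts : List Tm) (als : List Al) (los his : List Cv)
    (hl : ts.length ≤ als.length) (hok : ∀ α ∈ als, α.ok par.m)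
    (h : tmsOK par c x0 x1 ts los his = true) (hlo : inLo (fun α => par.GS * s.g α) s.X als los)
    (hhi : inHi (fun α => par.GS * s.g α) s.X als his) : (sumB ts).ev s.X ≤
      ((tsR als ts).map fun t => t.2.1 * s.g t.1 - t.2.2 * rho s.b (s.g t.1)).sum := by
  induction ts generalizing als los his with
  | nil => simp [sumB, tsR, Cv.ev]
  | cons t ts ih =>
    rcases als with _ | ⟨α, als⟩
    · simp at hl
    rcases los with _ | ⟨lo, los⟩
    · cases h
    rcases his with _ | ⟨hi, his⟩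
    · cases h
    obtain ⟨a1, a2⟩ := Bool.and_eq_true_iff.1 h
    have a3 := hok α List.mem_cons_self
    exact (Scal_ev_add _ _ _).trans_le (add_le_add
      (tmOK_sound hw a1 h0 h1 hlo.1 hhi.1 (hs.g_nonneg α a3) (hs.g_le_b α a3) b1 b2)
      (ih als los his (by simpa using hl) (fun β hβ => hok β (List.mem_cons_of_mem _ hβ)) a2 hlo.2
        hhi.2))

theorem Scal_get {f : Al → ℝ} {X : ℝ} {als : List Al} {los his : List Cv} {i : ℕ}
    (hlo : inLo f X als los) (hhi : inHi f X als his) (h1 : i < als.length) (h2 : i < los.length)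
    (h3 : i < his.length) : (los.getD i ⟨0, 0, 0⟩).ev X ≤ (his.getD i ⟨0, 0, 0⟩).ev X := by
  induction i generalizing als los his with
  | zero =>
    rcases als with _ | ⟨α, als⟩ <;> rcases los with _ | ⟨lo, los⟩ <;>
      rcases his with _ | ⟨hi, his⟩ <;> try contradiction
    exact hlo.1.trans hhi.1
  | succ i ih =>
    rcases als with _ | ⟨α, als⟩ <;> rcases los with _ | ⟨lo, los⟩ <;>
      rcases his with _ | ⟨hi, his⟩ <;> try contradiction
    exact ih hlo.2 hhi.2 (Nat.lt_of_succ_lt_succ h1) (Nat.lt_of_succ_lt_succ h2)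
      (Nat.lt_of_succ_lt_succ h3)

/-- Case `emp = 0`: sum `tmOK_sound` over the list (induction on `ts`, generalising the lists
`als`, `lo`, `hi`), compare with `FP.ineq` applied to `Pt`; the total curve gives `X^2 ≤ 0`. -/
theorem certOK_sound {par : Par} (hw : par.wf = true) {c : Ctx} {st : Step} {b : Box}
    (h : certOK par c st b = true) (hp : Pt par st) : Inf par b := by
  intro s hs hm hd b1 b2 ⟨h0, h1, hlo, hhi⟩
  have hX : 0 < par.XS := by
    simp only [Par.wf, Bool.and_eq_true, Nat.blt_eq] at hw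
    exact hw.1.1.2
  have hp2 := pow_pos hs.X_pos 2
  unfold certOK at h
  split at h <;> simp only [Bool.and_eq_true, Nat.blt_eq, Nat.ble_eq] at h
  · obtain ⟨⟨⟨a1, a2⟩, a3⟩, a4⟩ := h
    have a5 := Scal_sum hw hs h0 h1 b1 b2 _ _ _ _ a1 (Scal_ok hw) a4 hlo hhi
    have a6 := hs.ineq _ _ _ _ (fun t ht => by
      obtain ⟨i, hi, rfl⟩ := List.getElem_of_mem ht
      simp only [tsR, List.getElem_zipWith]
      exact Scal_ok hw _ (List.getElem_mem _))
      (hp _ _ _ hm hd hs.X_pos.le (h1.trans (Nat.cast_le.2 a2)))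
    have a7 := Scal_nn hX a3 h0 h1
    rw [Scal_ev_add] at a7
    simp only [Cv.ev] at a5 a7
    push_cast at a7
    linarith
  · obtain ⟨⟨⟨a1, a2⟩, a3⟩, a4⟩ := h
    have a5 := Scal_get hlo hhi a1 a2 a3
    have a7 := Scal_nn hX a4 h0 h1
    rw [Scal_ev_add, Scal_ev_add, Scal_ev_neg] at a7
    simp only [Cv.ev] at a5 a7
    push_cast at a7
    linarith

theorem Inf.spX {par : Par} {b : Box} (t : ℕ) (h1 : Inf par (b.setX1 t))
    (h2 : Inf par (b.setX0 t)) : Inf par b := by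
  intro s hs hm hd b1 b2 hb
  rcases le_or_gt (s.X * par.XS) t with h | h
  · exact h1 s hs hm hd b1 b2 ⟨hb.1, h, hb.2.2⟩
  · exact h2 s hs hm hd b1 b2 ⟨h, hb.2⟩

theorem Scal_setLo {f : Al → ℝ} {X : ℝ} {als : List Al} {cs : List Cv} {j : ℕ} {t : Cv}
    (h : inLo f X als cs) (ht : t.ev X ≤ f (als.getD j (0, 0, 0))) : inLo f X als (cs.set j t) := by
  induction als generalizing cs j with
  | nil => trivial
  | cons α als ih =>
    rcases cs with _ | ⟨c, cs⟩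
    · trivial
    · cases j
      exacts [⟨ht, h.2⟩, ⟨h.1, ih h.2 ht⟩]

theorem Scal_setHi {f : Al → ℝ} {X : ℝ} {als : List Al} {cs : List Cv} {j : ℕ} {t : Cv}
    (h : inHi f X als cs) (ht : f (als.getD j (0, 0, 0)) ≤ t.ev X) : inHi f X als (cs.set j t) := by
  induction als generalizing cs j with
  | nil => trivial
  | cons α als ih =>
    rcases cs with _ | ⟨c, cs⟩
    · trivial
    · cases j
      exacts [⟨ht, h.2⟩, ⟨h.1, ih h.2 ht⟩]

theorem Inf.spG {par : Par} {b : Box} (j : ℕ) (t : Cv) (h1 : Inf par (b.setHi j t))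
    (h2 : Inf par (b.setLo j t)) : Inf par b := by
  intro s hs hm hd b1 b2 hb
  rcases le_total (par.GS * s.g (par.als.getD j (0, 0, 0))) (t.ev s.X) with h | h
  · exact h1 s hs hm hd b1 b2 ⟨hb.1, hb.2.1, hb.2.2.1, Scal_setHi hb.2.2.2 h⟩
  · exact h2 s hs hm hd b1 b2 ⟨hb.1, hb.2.1, Scal_setLo hb.2.2.1 h, hb.2.2.2⟩

theorem Inf.empty {par : Par} {b : Box} (h : Nat.ble b.x1 b.x0 = true) : Inf par b := by
  intro s _ _ _ _ _ hb
  exact (hb.1.trans_le hb.2.1).not_ge (Nat.cast_le.2 (Nat.ble_eq ▸ h))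

theorem Scal_cvsEq {l l' : List Cv} (h : cvsEq l l' = true) : l = l' := by
  induction l generalizing l' with
  | nil =>
    cases l'
    · rfl
    · cases h
  | cons a l ih =>
    rcases l' with _ | ⟨a', l'⟩
    · cases h
    obtain ⟨h1, h2⟩ := Bool.and_eq_true_iff.1 h
    cases a
    cases a'
    simp only [Cv.beq, Bool.and_eq_true, decide_eq_true_eq] at h1
    rw [ih h2, h1.1.1, h1.1.2, h1.2]

theorem Box.eq_of_beq {a b : Box} (h : Box.beq a b = true) : a = b := by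
  cases a
  cases b
  simp only [Box.beq, Bool.and_eq_true, Nat.beq_eq] at h
  rw [h.1.1.1, h.1.1.2, Scal_cvsEq h.1.2, Scal_cvsEq h.2]

theorem Inf.steps {par : Par} (hw : par.wf = true) (c : Ctx) {b : Box} (b' : Box) (C : List Step)
    (h : stepsOK par c b' C b = true) (hp : PtAll par C) (h' : Inf par b') : Inf par b := by
  induction C generalizing b with
  | nil => exact Box.eq_of_beq h ▸ h'
  | cons st C ih =>
    obtain ⟨h1, h2⟩ := Bool.and_eq_true_iff.1 h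
    have a1 := certOK_sound hw h1 (hp st List.mem_cons_self)
    have a2 := ih h2 fun t ht => hp t (List.mem_cons_of_mem _ ht)
    obtain ⟨_ | _ | _ | k, _, _⟩ := st
    exacts [Inf.spG _ _ a2 a1, Inf.spG _ _ a1 a2, Inf.spX _ a2 a1, Inf.spX _ a1 a2]

theorem PtAll.left {par : Par} {C C' : List Step} (h : PtAll par (C ++ C')) : PtAll par C :=
  fun st hs => h st (List.mem_append_left _ hs)

theorem PtAll.right {par : Par} {C C' : List Step} (h : PtAll par (C ++ C')) : PtAll par C' :=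
  fun st hs => h st (List.mem_append_right _ hs)

theorem Scal_box0 {par : Par} (hw : par.wf = true) {x0 x1 : ℕ} {s : St} (hs : FP par.m s)
    (h0 : (x0 : ℝ) < s.X * par.XS) (h1 : s.X * par.XS ≤ x1) : inBox par (box0 par x0 x1) s := by
  have h := Scal_ok hw
  refine ⟨h0, h1, ?_⟩
  dsimp only [box0]
  generalize par.als = als at h
  induction als with
  | nil => exact ⟨trivial, trivial⟩
  | cons α als ih =>
    obtain ⟨a1, a2⟩ := ih fun β hβ => h β (List.mem_cons_of_mem _ hβ)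
    have a3 := hs.g_nonneg α (h α List.mem_cons_self)
    have a4 := hs.g_le α (h α List.mem_cons_self)
    refine ⟨⟨?_, a1⟩, ?_, a2⟩ <;> simp only [Cv.ev] <;> push_cast <;>
      nlinarith [Nat.cast_nonneg (α := ℝ) par.GS]

/-- `fp_reg`; the state lies in `box0` (`g_nonneg`, `g_le`). -/
theorem Xr_le_of_inf {par : Par} (hw : par.wf = true) {x0 x1 : ℕ} (h : Inf par (box0 par x0 x1))
    {b : ℕ} (hb : b ≠ 0) {mu : ℝ} (h0 : 0 ≤ mu) (h1 : mu ≤ 1 / 2) (hD : (b : ℝ) * mu ^ 2 ≤ 2)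
    (hm : par.mu.mem mu) (hd : par.dOK mu b) (b1 : ble par.bhi b) (b2 : ble b par.blo)
    (hx : Xr b mu * par.XS ≤ x1) : Xr b mu * par.XS ≤ x0 := by
  by_contra! hc
  obtain ⟨s, hs, e1, e2, e3, e4⟩ := fp_reg par.m hb h0 h1 hD
    (pos_of_mul_pos_left ((Nat.cast_nonneg _).trans_lt hc) (Nat.cast_nonneg _))
  exact h s hs (e1 ▸ hm) (e1 ▸ e2 ▸ hd) (e3 ▸ b1) (e3 ▸ b2) (Scal_box0 hw hs (e4 ▸ hc) (e4 ▸ hx))

theorem Xg_le_of_inf {par : Par} (hw : par.wf = true) {x0 x1 : ℕ} (h : Inf par (box0 par x0 x1))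
    {d mu : ℝ} (hd0 : 0 ≤ d) (h0 : 0 ≤ mu) (h1 : mu ≤ 1 / 2) (hD : d * mu ^ 2 ≤ 2)
    (hm : par.mu.mem mu) (hd : par.dOK mu d) (b2 : par.blo = 0)
    (hx : Xg d mu * par.XS ≤ x1) : Xg d mu * par.XS ≤ x0 := by
  by_contra! hc
  obtain ⟨s, hs, e1, e2, e3, e4⟩ := fp_gw par.m hd0 h0 h1 hD
    (pos_of_mul_pos_left ((Nat.cast_nonneg _).trans_lt hc) (Nat.cast_nonneg _))
  exact h s hs (e1 ▸ hm) (e1 ▸ e2 ▸ hd) (Or.inl e3) (Or.inl b2)
    (Scal_box0 hw hs (e4 ▸ hc) (e4 ▸ hx))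

/-- membership in a nondegenerate or degenerate interval -/
theorem Iv.mem_of_lt {I : Iv} (hd : 0 < I.den) {x : ℝ} (h0 : (I.lo : ℝ) < x * I.den)
    (h1 : x * I.den ≤ I.hi) : I.mem x := by
  have h2 : (0 : ℝ) < I.hi - I.lo := by linarith
  have h3 : (0 : ℝ) < I.den := Nat.cast_pos.2 hd
  refine ⟨(x * I.den - I.lo) / (I.hi - I.lo), div_pos (by linarith) h2,
    (div_le_one h2).2 (by linarith), ?_⟩
  unfold Iv.at
  field_simp
  ring

theorem Iv.mem_hi {I : Iv} (hd : 0 < I.den) {x : ℝ} (h : x * I.den = I.hi) : I.mem x := by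
  have h3 : (0 : ℝ) < I.den := Nat.cast_pos.2 hd
  exact ⟨1, one_pos, le_rfl, by simp [Iv.at, ← h, h3.ne']⟩

end Crest.Agent.R163
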