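import Crest.Agent.R163.Q3.Scal

/-!
# How the certificate trees are used
-/

set_option autoImplicit false

namespace Crest.Agent.R163

theorem use_sq {D mu : ℝ} (h : D * mu ^ 2 = 1) : D * mu ^ 2 ≤ 2 := by linarith

theorem use_pos {D mu : ℝ} (h : D * mu ^ 2 = 1) : 0 ≤ D := by
  by_contra! hc
  nlinarith [sq_nonneg mu]

/-- a critical tree on an interval, Poisson case -/
theorem Xg_step {par : Par} (hw : par.wf = true) {x0 x1 : ℕ} (h : Inf par (box0 par x0 x1))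
    (hc : par.crit = true) (hb : par.blo = 0) (hd : 0 < par.mu.den) {d mu : ℝ} (h0 : 0 < mu)
    (h1 : mu ≤ 1 / 2) (hD : d * mu ^ 2 = 1) (a : (par.mu.lo : ℝ) < mu * par.mu.den)
    (b : mu * par.mu.den ≤ par.mu.hi) (hx : Xg d mu * par.XS ≤ x1) : Xg d mu * par.XS ≤ x0 :=
  Xg_le_of_inf hw h (use_pos hD) h0.le h1 (use_sq hD) (Iv.mem_of_lt hd a b)
    (by rw [Par.dOK, if_pos hc]; exact hD) hb hx

/-- a critical tree on an interval, regular case -/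
theorem Xr_step {par : Par} (hw : par.wf = true) {x0 x1 : ℕ} (h : Inf par (box0 par x0 x1))
    (hc : par.crit = true) (hd : 0 < par.mu.den) {n : ℕ} (hn : n ≠ 0) {mu : ℝ} (h0 : 0 < mu)
    (h1 : mu ≤ 1 / 2) (hD : (n : ℝ) * mu ^ 2 = 1) (a : (par.mu.lo : ℝ) < mu * par.mu.den)
    (b : mu * par.mu.den ≤ par.mu.hi) (b1 : ble par.bhi n) (b2 : ble n par.blo)
    (hx : Xr n mu * par.XS ≤ x1) : Xr n mu * par.XS ≤ x0 :=
  Xr_le_of_inf hw h hn h0.le h1 (use_sq hD) (Iv.mem_of_lt hd a b)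
    (by rw [Par.dOK, if_pos hc]; exact hD) b1 b2 hx

/-- a slightly supercritical tree at the single point `mu' = hi / den` dominates -/
theorem Xg_dom {par : Par} (hw : par.wf = true) {x0 : ℕ} (h : Inf par (box0 par x0 (2 * par.XS)))
    (hc : par.crit = false) (hb : par.blo = 0) (hd : 0 < par.mu.den) (hn : 0 < par.dn)
    (h2 : 2 * par.mu.hi ≤ par.mu.den) (h3 : par.dd ≤ 8 * par.dn) {d mu : ℝ} (h0 : 0 < mu)
    (hD : d * mu ^ 2 = 1) (a : (par.dn : ℝ) ≤ par.dd * mu ^ 2)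
    (b : mu * par.mu.den ≤ par.mu.hi) : Xg d mu * par.XS ≤ x0 := by
  have e1 : (0 : ℝ) < par.mu.den := Nat.cast_pos.2 hd
  have e2 : (0 : ℝ) < par.dn := Nat.cast_pos.2 hn
  have e3 : (2 : ℝ) * par.mu.hi ≤ par.mu.den := by exact_mod_cast h2
  have e4 : (par.dd : ℝ) ≤ 8 * par.dn := by exact_mod_cast h3
  have f1 : mu ≤ par.mu.hi / par.mu.den := (le_div_iff₀ e1).2 b
  have f2 : (par.mu.hi : ℝ) / par.mu.den ≤ 1 / 2 := by
    rw [div_le_iff₀ e1]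
    linarith
  have f3 : d ≤ par.dd / par.dn := by
    rw [le_div_iff₀ e2]
    have := mul_le_mul_of_nonneg_left a (use_pos hD)
    nlinarith
  have f4 : (par.dd : ℝ) / par.dn ≤ 8 := (div_le_iff₀ e2).2 e4
  have f5 : 0 ≤ (par.dd : ℝ) / par.dn := by positivity
  have f6 : 0 ≤ (par.mu.hi : ℝ) / par.mu.den := by positivity
  have g := Xg_le_of_inf hw h f5 f6 f2 (by nlinarith [mul_le_mul f2 f2 f6 (by norm_num)])
    (Iv.mem_hi hd (by field_simp))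
    (by rw [Par.dOK, if_neg (by simp [hc])]; field_simp) hb
    (by push_cast; exact mul_le_mul_of_nonneg_right (Xg_le f5 f6 f2) (Nat.cast_nonneg _))
  exact (mul_le_mul_of_nonneg_right (Xg_mono (use_pos hD) f3 h0.le f1 f2)
    (Nat.cast_nonneg _)).trans g

theorem use_zero {X : ℝ} {n : ℕ} (hn : 0 < n) (h : X * n ≤ ((0 : ℕ) : ℝ)) : X ≤ 0 :=
  nonpos_of_mul_nonpos_left (by simpa using h) (Nat.cast_pos.2 hn)

theorem use_two {X : ℝ} {n : ℕ} (h : X ≤ 2) : X * n ≤ ((2 * n : ℕ) : ℝ) := by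
  push_cast
  exact mul_le_mul_of_nonneg_right h (Nat.cast_nonneg _)

theorem use_lo {n n2 lo den : ℕ} {mu : ℝ} (h0 : 0 < mu) (hD : (n : ℝ) * mu ^ 2 = 1) (hn : n ≤ n2)
    (h : n2 * lo ^ 2 < den ^ 2) : (lo : ℝ) < mu * den := by
  by_contra! hc
  have a1 : (n : ℝ) * lo ^ 2 < den ^ 2 := by
    exact_mod_cast (Nat.mul_le_mul_right _ hn).trans_lt h
  have a2 := mul_le_mul_of_nonneg_left (pow_le_pow_left₀ (by positivity) hc 2) (Nat.cast_nonneg n)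
  rw [mul_pow, ← mul_assoc, hD] at a2
  linarith

theorem use_hi {n n1 hi den : ℕ} {mu : ℝ} (hD : (n : ℝ) * mu ^ 2 = 1) (hn : n1 ≤ n)
    (h : den ^ 2 ≤ n1 * hi ^ 2) : mu * den ≤ hi := by
  by_contra! hc
  have a1 : (den : ℝ) ^ 2 ≤ n * hi ^ 2 := by
    exact_mod_cast h.trans (Nat.mul_le_mul_right _ hn)
  have a0 : (0 : ℝ) < n := (Nat.cast_nonneg n).lt_of_ne' (by rintro e; simp [e] at hD)
  have a2 := mul_lt_mul_of_pos_left (pow_lt_pow_left₀ hc (Nat.cast_nonneg _) two_ne_zero) a0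
  rw [mul_pow, ← mul_assoc, hD] at a2
  linarith

/-- a complete critical tree, regular case -/
theorem Xr_fin {par : Par} (hw : par.wf = true) (h : Inf par (box0 par 0 (2 * par.XS)))
    (hc : par.crit = true ∧ 0 < par.mu.den ∧ 0 < par.XS ∧ 0 < par.bhi ∧
      par.mu.den ^ 2 ≤ par.bhi * par.mu.hi ^ 2 ∧ par.blo * par.mu.lo ^ 2 < par.mu.den ^ 2 ∧
      (par.blo = 0 → par.mu.lo = 0))
    {n : ℕ} {mu : ℝ} (h0 : 0 < mu) (h1 : mu ≤ 1 / 2) (hD : (n : ℝ) * mu ^ 2 = 1)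
    (b1 : par.bhi ≤ n) (b2 : par.blo = 0 ∨ n ≤ par.blo) : Xr n mu ≤ 0 := by
  obtain ⟨c1, c2, c3, c4, c5, c6, c7⟩ := hc
  have hn : n ≠ 0 := by omega
  refine use_zero c3 (Xr_step hw h c1 c2 hn h0 h1 hD ?_ (use_hi hD b1 c5) (Or.inr ⟨c4.ne', b1⟩)
    (b2.imp_right fun e => ⟨hn, e⟩) (use_two (Xr_le n h0.le h1)))
  rcases b2 with e | e
  · rw [c7 e, Nat.cast_zero]
    positivity
  · exact use_lo h0 hD e c6

/-- a complete critical tree, Poisson case -/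
theorem Xg_fin {par : Par} (hw : par.wf = true) {x1 : ℕ} (h : Inf par (box0 par 0 x1))
    (hc : par.crit = true ∧ par.blo = 0 ∧ 0 < par.mu.den ∧ 0 < par.XS) {d mu : ℝ} (h0 : 0 < mu)
    (h1 : mu ≤ 1 / 2) (hD : d * mu ^ 2 = 1) (a : (par.mu.lo : ℝ) < mu * par.mu.den)
    (b : mu * par.mu.den ≤ par.mu.hi) (hx : Xg d mu * par.XS ≤ x1) : Xg d mu ≤ 0 :=
  use_zero hc.2.2.2 (Xg_step hw h hc.1 hc.2.1 hc.2.2.1 h0 h1 hD a b hx)

end Crest.Agent.R163
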